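import Mathlib

open MeasureTheory Set Filter
open scoped ENNReal

namespace Vale.Agent.Lib.P309

section chain

variable {S : Type*} [MeasurableSpace S] {μ : Measure S}

/-- A Chebyshev estimate for one new state. -/
lemma cheb_piece {P : S → ℝ≥0∞} (hP : Measurable P) {a b D : ℝ≥0∞} {β : ℝ} (hb : b ≠ ∞)
    (hβ0 : 0 ≤ β)
    (hL2 : ∫⁻ s, P s ^ 2 ∂μ ≤ D * b ^ (1 + β)) :
    a * ∫⁻ s in {s | a * b < P s}, P s ∂μ ≤ D * b ^ β := by
  have hU : MeasurableSet {s | a * b < P s} := measurableSet_lt measurable_const hP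
  rcases eq_or_ne b 0 with rfl | hb0
  · have h1 : ∫⁻ s, P s ^ 2 ∂μ = 0 := by
      refine le_antisymm (hL2.trans ?_) bot_le
      have : (0:ℝ≥0∞) ^ (1 + β) = 0 := ENNReal.zero_rpow_of_pos (by linarith)
      simp [this]
    have h2 : P =ᵐ[μ] 0 := by
      have := (lintegral_eq_zero_iff (hP.pow_const 2)).1 h1
      filter_upwards [this] with s hs
      simpa using hs
    have h3 : ∫⁻ s in {s | a * 0 < P s}, P s ∂μ = 0 := by
      refine le_antisymm ?_ bot_le
      calc ∫⁻ s in {s | a * 0 < P s}, P s ∂μ ≤ ∫⁻ s, P s ∂μ := setLIntegral_le_lintegral _ _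
        _ = 0 := by rw [lintegral_congr_ae h2]; simp
    rw [h3]
    simp
  · have h1 : a * b * ∫⁻ s in {s | a * b < P s}, P s ∂μ ≤ ∫⁻ s, P s ^ 2 ∂μ := by
      rw [← lintegral_const_mul _ hP]
      calc ∫⁻ s in {s | a * b < P s}, a * b * P s ∂μ
          ≤ ∫⁻ s in {s | a * b < P s}, P s ^ 2 ∂μ := by
            refine setLIntegral_mono' hU fun s hs => ?_
            rw [pow_two]
            exact mul_le_mul' (le_of_lt hs) le_rfl
        _ ≤ ∫⁻ s, P s ^ 2 ∂μ := setLIntegral_le_lintegral _ _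
    have h2 : b ^ (1 + β) = b * b ^ β := by
      rw [ENNReal.rpow_add_of_nonneg _ _ zero_le_one hβ0, ENNReal.rpow_one]
    rw [h2] at hL2
    have h3 : b * (a * ∫⁻ s in {s | a * b < P s}, P s ∂μ) ≤ b * (D * b ^ β) := by
      calc b * (a * ∫⁻ s in {s | a * b < P s}, P s ∂μ)
          = a * b * ∫⁻ s in {s | a * b < P s}, P s ∂μ := by ring
        _ ≤ D * (b * b ^ β) := h1.trans hL2
        _ = b * (D * b ^ β) := by ring
    exact (ENNReal.mul_le_mul_iff_right hb0 hb).1 h3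


/-- Sum of small powers. -/
lemma sum_rpow_le {ι : Type*} [Fintype ι] {h : ι → ℝ≥0∞} (hh : ∑ i, h i ≤ 1) {β : ℝ} (hβ0 : 0 < β)
    (hβ1 : β < 1) : ∑ i, h i ^ β ≤ (Fintype.card ι : ℝ≥0∞) ^ (1 - β) := by
  have hpq : (1 / β).HolderConjugate (1 / (1 - β)) := by
    rw [Real.holderConjugate_iff]
    constructor
    · rw [lt_div_iff₀ hβ0]; linarith
    · simp only [one_div, inv_inv]; ring
  have h1 := ENNReal.inner_le_Lp_mul_Lq Finset.univ (fun i => h i ^ β) (fun _ => (1:ℝ≥0∞)) hpq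
  simp only [mul_one] at h1
  refine h1.trans ?_
  have h2 : ∀ i, (h i ^ β) ^ (1 / β) = h i := by
    intro i
    rw [← ENNReal.rpow_mul, mul_one_div_cancel hβ0.ne', ENNReal.rpow_one]
  simp_rw [h2]
  have h3 : ∑ i : ι, (1:ℝ≥0∞) ^ (1 / (1 - β)) = Fintype.card ι := by
    simp
  rw [h3]
  have h4 : 0 < 1 / (1 / β) := by positivity
  have h5 : (∑ i, h i) ^ (1 / (1 / β)) ≤ 1 := by
    calc (∑ i, h i) ^ (1 / (1 / β)) ≤ 1 ^ (1 / (1 / β)) := ENNReal.rpow_le_rpow hh h4.le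
      _ = 1 := by simp
  calc (∑ i, h i) ^ (1 / (1 / β)) * (Fintype.card ι : ℝ≥0∞) ^ (1 / (1 / (1 - β)))
      ≤ 1 * (Fintype.card ι : ℝ≥0∞) ^ (1 / (1 / (1 - β))) := by gcongr
    _ = (Fintype.card ι : ℝ≥0∞) ^ (1 - β) := by rw [one_mul, one_div_one_div]

/-- The invariant of the chain.  `F` is the joint law of the state (as a function of the signal);
it splits into a part `G` bounded by `Λ` times a fixed subprobability `h`, and a part `E`
of small total mass. -/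
def Inv {𝓜 : Type*} [Fintype 𝓜] (μ : Measure S) (F : 𝓜 → S → ℝ≥0∞) (Λ err : ℝ≥0∞) : Prop :=
  ∃ (h : 𝓜 → ℝ≥0∞) (G E : 𝓜 → S → ℝ≥0∞), ∑ m, h m ≤ 1 ∧ (∀ m, Measurable (G m)) ∧
    (∀ m, Measurable (E m)) ∧ (∀ m s, F m s = G m s + E m s) ∧ (∀ s, ∑ m, G m s ≤ 1) ∧
    (∀ m s, G m s ≤ Λ * h m) ∧ ∫⁻ s, ∑ m, E m s ∂μ ≤ err

variable {𝓜 : Type*} [Fintype 𝓜]

/-- One step of the chain. -/
theorem Inv.step [IsProbabilityMeasure μ] {F : 𝓜 → S → ℝ≥0∞} {Λ err : ℝ≥0∞} (hInv : Inv μ F Λ err)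
    {Kt Ka : 𝓜 → 𝓜 → S → ℝ≥0∞} (hKt : ∀ a a', Measurable (Kt a a'))
    (hKa : ∀ a a', Measurable (Ka a a'))
    (hsum : ∀ a s, ∑ a', (Kt a a' s + Ka a a' s) = 1)
    {δ₁ : ℝ≥0∞} (hatyp : ∀ a s, ∑ a', Ka a a' s ≤ δ₁)
    {C₂ : ℝ≥0∞} {α : ℝ} (hα0 : 0 < α) (hα1 : α < 1)
    (hL2 : ∀ w : 𝓜 → ℝ≥0∞, ∑ m, w m ≤ 1 → ∃ h : 𝓜 → ℝ≥0∞, ∑ m', h m' ≤ 1 ∧
      ∀ m', ∫⁻ s, (∑ m, w m * Kt m m' s) ^ 2 ∂μ ≤ C₂ * h m' ^ (2 - α))
    {Λ' δ : ℝ≥0∞} (hΛ'0 : Λ' ≠ 0) (hΛ'T : Λ' ≠ ∞)
    (hΛ' : Λ * Λ * C₂ * (Fintype.card 𝓜 : ℝ≥0∞) ^ α ≤ δ * Λ') :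
    Inv μ (fun m' s => ∑ m, F m s * (Kt m m' s + Ka m m' s)) Λ' (err + δ₁ + δ) := by
  classical
  obtain ⟨h, G, E, hh, hG, hE, hFe, hGs, hGb, hEb⟩ := hInv
  obtain ⟨h', hh', hL⟩ := hL2 h hh
  have hh'T : ∀ m', h' m' ≠ ∞ := fun m' =>
    ne_top_of_le_ne_top ENNReal.one_ne_top
      ((Finset.single_le_sum (fun _ _ => bot_le) (Finset.mem_univ m')).trans hh')
  set P : 𝓜 → S → ℝ≥0∞ := fun m' s => ∑ m, G m s * Kt m m' s with hPdef
  have hP : ∀ m', Measurable (P m') := fun m' =>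
    Finset.measurable_sum _ fun m _ => (hG m).mul (hKt m m')
  set U : 𝓜 → Set S := fun m' => {s | Λ' * h' m' < P m' s} with hUdef
  have hU : ∀ m', MeasurableSet (U m') := fun m' => measurableSet_lt measurable_const (hP m')
  have hPL2 : ∀ m', ∫⁻ s, P m' s ^ 2 ∂μ ≤ Λ * Λ * C₂ * h' m' ^ (2 - α) := by
    intro m'
    calc ∫⁻ s, P m' s ^ 2 ∂μ ≤ ∫⁻ s, Λ * Λ * (∑ m, h m * Kt m m' s) ^ 2 ∂μ := by
          refine lintegral_mono fun s => ?_
          have h1 : P m' s ≤ Λ * ∑ m, h m * Kt m m' s := by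
            rw [Finset.mul_sum]
            refine Finset.sum_le_sum fun m _ => ?_
            rw [← mul_assoc]
            exact mul_le_mul' (hGb m s) le_rfl
          calc P m' s ^ 2 ≤ (Λ * ∑ m, h m * Kt m m' s) ^ 2 := by gcongr
            _ = _ := by ring
      _ = Λ * Λ * ∫⁻ s, (∑ m, h m * Kt m m' s) ^ 2 ∂μ := by
          refine lintegral_const_mul _ ?_
          exact (Finset.measurable_sum _ fun m _ => (hKt m m').const_mul _).pow_const 2
      _ ≤ Λ * Λ * (C₂ * h' m' ^ (2 - α)) := by gcongr; exact hL m'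
      _ = _ := by ring
  -- the excess mass
  have hexc : ∑ m', ∫⁻ s in U m', P m' s ∂μ ≤ δ := by
    have h1 : ∀ m', Λ' * ∫⁻ s in U m', P m' s ∂μ ≤ Λ * Λ * C₂ * h' m' ^ (1 - α) := by
      intro m'
      refine cheb_piece (hP m') (hh'T m') (by linarith) ?_
      have : 1 + (1 - α) = 2 - α := by ring
      rw [this]
      exact hPL2 m'
    have h2 : Λ' * ∑ m', ∫⁻ s in U m', P m' s ∂μ ≤ Λ' * δ := by
      rw [Finset.mul_sum]
      calc ∑ m', Λ' * ∫⁻ s in U m', P m' s ∂μ ≤ ∑ m', Λ * Λ * C₂ * h' m' ^ (1 - α) :=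
            Finset.sum_le_sum fun m' _ => h1 m'
        _ = Λ * Λ * C₂ * ∑ m', h' m' ^ (1 - α) := by rw [Finset.mul_sum]
        _ ≤ Λ * Λ * C₂ * (Fintype.card 𝓜 : ℝ≥0∞) ^ (1 - (1 - α)) := by
            gcongr
            exact sum_rpow_le hh' (by linarith) (by linarith)
        _ = Λ * Λ * C₂ * (Fintype.card 𝓜 : ℝ≥0∞) ^ α := by
            congr 2
            ring
        _ ≤ δ * Λ' := hΛ'
        _ = Λ' * δ := mul_comm _ _
    exact (ENNReal.mul_le_mul_iff_right hΛ'0 hΛ'T).1 h2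
  refine ⟨h', fun m' s => (U m')ᶜ.indicator (P m') s,
    fun m' s => (U m').indicator (P m') s + ∑ m, E m s * (Kt m m' s + Ka m m' s) +
      ∑ m, G m s * Ka m m' s, hh', ?_, ?_, ?_, ?_, ?_, ?_⟩
  · intro m'
    exact (hP m').indicator (hU m').compl
  · intro m'
    refine ((hP m').indicator (hU m')).add ?_ |>.add ?_
    · exact Finset.measurable_sum _ fun m _ => (hE m).mul ((hKt m m').add (hKa m m'))
    · exact Finset.measurable_sum _ fun m _ => (hG m).mul (hKa m m')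
  · intro m' s
    have h1 : (U m')ᶜ.indicator (P m') s + (U m').indicator (P m') s = P m' s := by
      rw [add_comm]
      exact congrFun (Set.indicator_self_add_compl (U m') (P m')) s
    calc ∑ m, F m s * (Kt m m' s + Ka m m' s)
        = ∑ m, (G m s * Kt m m' s + E m s * (Kt m m' s + Ka m m' s) + G m s * Ka m m' s) := by
          refine Finset.sum_congr rfl fun m _ => ?_
          rw [hFe]
          ring
      _ = P m' s + ∑ m, E m s * (Kt m m' s + Ka m m' s) + ∑ m, G m s * Ka m m' s := by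
          rw [Finset.sum_add_distrib, Finset.sum_add_distrib]
      _ = _ := by
          rw [← h1]
          ring
  · intro s
    calc ∑ m', (U m')ᶜ.indicator (P m') s ≤ ∑ m', P m' s :=
          Finset.sum_le_sum fun m' _ => Set.indicator_le_self _ _ _
      _ = ∑ m, G m s * ∑ m', Kt m m' s := by
          simp only [hPdef, Finset.mul_sum]
          exact Finset.sum_comm
      _ ≤ ∑ m, G m s * 1 := by
          refine Finset.sum_le_sum fun m _ => ?_
          gcongr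
          rw [← hsum m s]
          exact Finset.sum_le_sum fun m' _ => le_self_add
      _ ≤ 1 := by simpa using hGs s
  · intro m' s
    dsimp only
    by_cases hs : s ∈ U m'
    · rw [Set.indicator_of_notMem (by simpa using hs)]
      exact bot_le
    · rw [Set.indicator_of_mem (by simpa using hs)]
      simpa [hUdef] using hs
  · have hsum1 : ∀ s, ∑ m', ((U m').indicator (P m') s + ∑ m, E m s * (Kt m m' s + Ka m m' s) +
        ∑ m, G m s * Ka m m' s) ≤ ∑ m', (U m').indicator (P m') s + ∑ m, E m s + δ₁ := by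
      intro s
      have a1 : ∑ m', ∑ m, E m s * (Kt m m' s + Ka m m' s) = ∑ m, E m s := by
        rw [Finset.sum_comm]
        refine Finset.sum_congr rfl fun m _ => ?_
        rw [← Finset.mul_sum, hsum m s, mul_one]
      have a2 : ∑ m', ∑ m, G m s * Ka m m' s ≤ δ₁ := by
        rw [Finset.sum_comm]
        calc ∑ m, ∑ m', G m s * Ka m m' s = ∑ m, G m s * ∑ m', Ka m m' s := by
              simp only [Finset.mul_sum]
          _ ≤ ∑ m, G m s * δ₁ := by
              refine Finset.sum_le_sum fun m _ => ?_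
              gcongr
              exact hatyp m s
          _ = (∑ m, G m s) * δ₁ := by rw [Finset.sum_mul]
          _ ≤ 1 * δ₁ := by gcongr; exact hGs s
          _ = δ₁ := one_mul _
      rw [Finset.sum_add_distrib, Finset.sum_add_distrib, a1]
      exact add_le_add le_rfl a2
    have hm1 : Measurable fun s => ∑ m', (U m').indicator (P m') s :=
      Finset.measurable_sum _ fun m' _ => (hP m').indicator (hU m')
    have hm2 : Measurable fun s => ∑ m, E m s :=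
      Finset.measurable_sum _ fun m _ => hE m
    have h3 : ∫⁻ s, ∑ m', (U m').indicator (P m') s ∂μ = ∑ m', ∫⁻ s in U m', P m' s ∂μ := by
      rw [lintegral_finsetSum _ fun m' _ => (hP m').indicator (hU m')]
      refine Finset.sum_congr rfl fun m' _ => ?_
      exact lintegral_indicator (hU m') _
    calc ∫⁻ s, ∑ m', ((U m').indicator (P m') s + ∑ m, E m s * (Kt m m' s + Ka m m' s) +
          ∑ m, G m s * Ka m m' s) ∂μ
        ≤ ∫⁻ s, (∑ m', (U m').indicator (P m') s + ∑ m, E m s + δ₁) ∂μ := lintegral_mono hsum1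
      _ = ∫⁻ s, ∑ m', (U m').indicator (P m') s ∂μ + ∫⁻ s, ∑ m, E m s ∂μ + δ₁ := by
          rw [lintegral_add_right _ measurable_const, lintegral_add_left hm1]
          simp
      _ ≤ δ + err + δ₁ := by
          rw [h3]
          gcongr
      _ = err + δ₁ + δ := by ring

/-- The initial step of the chain. -/
lemma Inv.init [IsProbabilityMeasure μ] (ι₀ : 𝓜 → ℝ≥0∞) (h0 : ∑ m, ι₀ m = 1) : Inv μ (fun m (_ : S) => ι₀ m) 1 0 := by
  refine ⟨ι₀, fun m _ => ι₀ m, fun _ _ => 0, h0.le, fun _ => measurable_const,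
    fun _ => measurable_const, fun m s => by simp, fun s => h0.le, fun m s => by simp, by simp⟩

/-- Conclusion of the chain: the mass seen by small test functions. -/
theorem Inv.final {F : 𝓜 → S → ℝ≥0∞} {Λ err : ℝ≥0∞} (hInv : Inv μ F Λ err)
    {w : 𝓜 → S → ℝ≥0∞} (hw : ∀ m, Measurable (w m)) (hw1 : ∀ m s, w m s ≤ 1) {κ : ℝ≥0∞}
    (hκ : ∀ m, ∫⁻ s, w m s ∂μ ≤ κ) :
    ∫⁻ s, ∑ m, F m s * w m s ∂μ ≤ Λ * κ + err := by
  obtain ⟨h, G, E, hh, hG, hE, hFe, hGs, hGb, hEb⟩ := hInv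
  have h1 : ∀ s, ∑ m, F m s * w m s ≤ ∑ m, Λ * h m * w m s + ∑ m, E m s := by
    intro s
    rw [← Finset.sum_add_distrib]
    refine Finset.sum_le_sum fun m _ => ?_
    rw [hFe, add_mul]
    refine add_le_add (mul_le_mul' (hGb m s) le_rfl) ?_
    calc E m s * w m s ≤ E m s * 1 := by gcongr; exact hw1 m s
      _ = E m s := mul_one _
  calc ∫⁻ s, ∑ m, F m s * w m s ∂μ ≤ ∫⁻ s, (∑ m, Λ * h m * w m s + ∑ m, E m s) ∂μ :=
        lintegral_mono h1
    _ = ∫⁻ s, ∑ m, Λ * h m * w m s ∂μ + ∫⁻ s, ∑ m, E m s ∂μ := by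
        refine lintegral_add_left ?_ _
        exact Finset.measurable_sum _ fun m _ => (hw m).const_mul _
    _ ≤ Λ * κ + err := by
        gcongr
        rw [lintegral_finsetSum _ fun m _ => (hw m).const_mul _]
        calc ∑ m, ∫⁻ s, Λ * h m * w m s ∂μ = ∑ m, Λ * h m * ∫⁻ s, w m s ∂μ := by
              refine Finset.sum_congr rfl fun m _ => ?_
              exact lintegral_const_mul _ (hw m)
          _ ≤ ∑ m, Λ * h m * κ := by
              refine Finset.sum_le_sum fun m _ => ?_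
              gcongr
              exact hκ m
          _ = Λ * (∑ m, h m) * κ := by
              rw [Finset.mul_sum, Finset.sum_mul]
          _ ≤ Λ * 1 * κ := by gcongr
          _ = Λ * κ := by rw [mul_one]

end chain

end Vale.Agent.Lib.P309
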