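import Mathlib

open MeasureTheory ProbabilityTheory
open scoped ENNReal RealInnerProductSpace

namespace Vale.Agent.Lib.P309

/-- Euclidean space `ℝ^d`. -/
abbrev Rd (d : ℕ) := EuclideanSpace ℝ (Fin d)

/-- The unit sphere of `ℝ^d`, as a subtype. -/
abbrev Sph (d : ℕ) := Metric.sphere (0 : Rd d) 1

/-- The uniform probability measure on the unit sphere: Mathlib's surface measure `toSphere`
of Lebesgue measure, divided by its total mass. -/
noncomputable def unifSphere (d : ℕ) : Measure (Sph d) :=
  ((volume : Measure (Rd d)).toSphere Set.univ)⁻¹ • (volume : Measure (Rd d)).toSphere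

/-- A learner with `M` bits of memory on `d`-dimensional noiseless Gaussian regression.
Its persistent state lies in `Fin (2 ^ M)`.  `init` is the law of the initial state.
At index `n`, from state `m` and pair `(x, y)`, the rule `step n m x y` is the law of the pair
(new state, stop flag), and depends measurably on `(x, y)`.  `out m` is the law of the
output given the final state `m`. -/
structure Learner (d M : ℕ) where
  init : PMF (Fin (2 ^ M))
  step : ℕ → Fin (2 ^ M) → Rd d → ℝ → PMF (Fin (2 ^ M) × Bool)
  step_meas : ∀ n m a, Measurable fun p : Rd d × ℝ => step n m p.1 p.2 a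
  out : Fin (2 ^ M) → Measure (Sph d)
  out_prob : ∀ m, IsProbabilityMeasure (out m)

namespace Learner

variable {d M : ℕ}

/-- `L.stateLaw s n (m, b)`: given the signal `s`, the probability that after the first `n`
indices the state is `m` and the stop flag is `b`, when the rows `x` are independent standard
Gaussian vectors and the labels are exactly `⟪x, s⟫`.  A stopped learner reads nothing more. -/
noncomputable def stateLaw (L : Learner d M) (s : Rd d) : ℕ → Fin (2 ^ M) × Bool → ℝ≥0∞
  | 0, (m, b) => if b then 0 else L.init m
  | n + 1, (m', b') =>
      (if b' then stateLaw L s n (m', true) else 0) +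
        ∑ m, stateLaw L s n (m, false) *
          ∫⁻ x, L.step n m x ⟪x, s⟫ (m', b') ∂(stdGaussian (Rd d))

/-- The probability, for a uniform signal `s` on the sphere, that the learner with horizon `T`
outputs a point at angle at most `ε` from `s`. -/
noncomputable def success (L : Learner d M) (T : ℕ) (ε : ℝ) : ℝ≥0∞ :=
  ∫⁻ s, ∑ a, stateLaw L s T a * L.out a.1 {h | Real.arccos ⟪(h : Rd d), (s : Rd d)⟫ ≤ ε}
    ∂(unifSphere d)

end Learner

end Vale.Agent.Lib.P309
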