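import Vale.Agent.Lib.P309.Typical
import Vale.Agent.Lib.P309.Chain
import Vale.Agent.Lib.P309.Defs

open MeasureTheory ProbabilityTheory Real Set Filter Topology
open scoped ENNReal Nat RealInnerProductSpace

namespace Vale.Agent.Lib.P309

section model

variable {E : Type*} [NormedAddCommGroup E] [InnerProductSpace ℝ E] [FiniteDimensional ℝ E]
  [MeasurableSpace E] [BorelSpace E] {𝓐 : Type*} [Fintype 𝓐] [DecidableEq 𝓐]

/-- Multi-step transition probabilities. -/
noncomputable def Phi (Q : ℕ → 𝓐 → 𝓐 → E → ℝ → ℝ≥0∞) :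
    (r : ℕ) → ℕ → 𝓐 → 𝓐 → (Fin r → E) → (Fin r → ℝ) → ℝ≥0∞
  | 0, _, a, a', _, _ => if a = a' then 1 else 0
  | r + 1, n, a, a', X, y =>
      ∑ a'', Q n a a'' (X 0) (y 0) * Phi Q r (n + 1) a'' a' (Fin.tail X) (Fin.tail y)

omit [FiniteDimensional ℝ E] [MeasurableSpace E] [BorelSpace E] in
lemma measurable_Phi {Q : ℕ → 𝓐 → 𝓐 → E → ℝ → ℝ≥0∞} [MeasurableSpace E] [BorelSpace E]
    [FiniteDimensional ℝ E]
    (hQ : ∀ n a a', Measurable fun p : E × ℝ => Q n a a' p.1 p.2) :
    ∀ (r n : ℕ) (a a' : 𝓐), Measurable fun p : (Fin r → E) × (Fin r → ℝ) => Phi Q r n a a' p.1 p.2 := by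
  intro r
  induction r with
  | zero =>
      intro n a a'
      simp only [Phi]
      exact measurable_const
  | succ r ih =>
      intro n a a'
      simp only [Phi]
      refine Finset.measurable_sum _ fun a'' _ => ?_
      refine Measurable.mul ?_ ?_
      · have h0 : Measurable fun p : (Fin (r + 1) → E) × (Fin (r + 1) → ℝ) => (p.1 0, p.2 0) :=
          ((measurable_pi_apply 0).comp measurable_fst).prodMk
            ((measurable_pi_apply 0).comp measurable_snd)
        exact (hQ n a a'').comp h0
      · refine (ih (n + 1) a'' a').comp (Measurable.prodMk ?_ ?_)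
        · exact measurable_pi_lambda _ fun i => (measurable_pi_apply _).comp measurable_fst
        · exact measurable_pi_lambda _ fun i => (measurable_pi_apply _).comp measurable_snd

omit [NormedAddCommGroup E] [InnerProductSpace ℝ E] [FiniteDimensional ℝ E] [MeasurableSpace E]
  [BorelSpace E] in
lemma sum_Phi {Q : ℕ → 𝓐 → 𝓐 → E → ℝ → ℝ≥0∞} (hQ1 : ∀ n a x y, ∑ a', Q n a a' x y = 1) :
    ∀ (r n : ℕ) (a : 𝓐) (X : Fin r → E) (y : Fin r → ℝ), ∑ a', Phi Q r n a a' X y = 1 := by
  intro r
  induction r with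
  | zero =>
      intro n a _ _
      simp [Phi]
  | succ r ih =>
      intro n a X y
      simp only [Phi]
      rw [Finset.sum_comm]
      simp_rw [← Finset.mul_sum, ih, mul_one, hQ1]

/-- The law of the state of a Markov model, given the signal. -/
noncomputable def Fl (Q : ℕ → 𝓐 → 𝓐 → E → ℝ → ℝ≥0∞) (ι₀ : 𝓐 → ℝ≥0∞) (s : E) : ℕ → 𝓐 → ℝ≥0∞
  | 0, a => ι₀ a
  | n + 1, a' => ∑ a, Fl Q ι₀ s n a * ∫⁻ x, Q n a a' x ⟪x, s⟫ ∂(stdGaussian E)

/-- The law after a batch. -/
theorem Fl_add {Q : ℕ → 𝓐 → 𝓐 → E → ℝ → ℝ≥0∞}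
    (hQ : ∀ n a a', Measurable fun p : E × ℝ => Q n a a' p.1 p.2) (ι₀ : 𝓐 → ℝ≥0∞) (s : E) :
    ∀ (r n : ℕ) (a' : 𝓐), Fl Q ι₀ s (n + r) a'
      = ∑ a, Fl Q ι₀ s n a * ∫⁻ X, Phi Q r n a a' X (labels X s)
          ∂(Measure.pi fun _ : Fin r => stdGaussian E) := by
  intro r
  induction r with
  | zero =>
      intro n a'
      simp only [Phi, add_zero]
      simp [Finset.sum_ite_eq', apply_ite]
  | succ r ih =>
      intro n a'
      have hlabm : ∀ (r' : ℕ), Measurable (fun X : Fin r' → E => labels X s) := fun r' =>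
        measurable_pi_lambda _ fun i => (measurable_pi_apply i).inner measurable_const
      have hPhim : ∀ (r' n' : ℕ) (b b' : 𝓐), Measurable
          (fun X : Fin r' → E => Phi Q r' n' b b' X (labels X s)) := fun r' n' b b' =>
        (measurable_Phi hQ r' n' b b').comp (measurable_id.prodMk (hlabm r'))
      have hQm : ∀ (n' : ℕ) (b b' : 𝓐), Measurable (fun x : E => Q n' b b' x ⟪x, s⟫) := fun n' b b' =>
        (hQ n' b b').comp (measurable_id.prodMk (measurable_id.inner measurable_const))
      have e1 : n + (r + 1) = (n + 1) + r := by omega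
      rw [e1, ih (n + 1) a']
      simp only [Fl]
      -- the integral over a batch of `r + 1` rows
      have h1 : ∀ a : 𝓐, ∫⁻ X, Phi Q (r + 1) n a a' X (labels X s)
            ∂(Measure.pi fun _ : Fin (r + 1) => stdGaussian E)
          = ∑ a'', (∫⁻ x, Q n a a'' x ⟪x, s⟫ ∂(stdGaussian E)) *
              ∫⁻ X, Phi Q r (n + 1) a'' a' X (labels X s)
                ∂(Measure.pi fun _ : Fin r => stdGaussian E) := by
        intro a
        have mp := (measurePreserving_piFinSuccAbove (fun _ : Fin (r + 1) => stdGaussian E) 0).symm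
        rw [← mp.lintegral_comp (hPhim (r + 1) n a a')]
        have hm2 : Measurable (fun z : E × (Fin r → E) =>
            Phi Q (r + 1) n a a' ((MeasurableEquiv.piFinSuccAbove (fun _ : Fin (r + 1) => E) 0).symm z)
              (labels ((MeasurableEquiv.piFinSuccAbove (fun _ : Fin (r + 1) => E) 0).symm z) s)) :=
          (hPhim (r + 1) n a a').comp (MeasurableEquiv.measurable
            (MeasurableEquiv.piFinSuccAbove (fun _ : Fin (r + 1) => E) 0).symm)
        rw [lintegral_prod _ hm2.aemeasurable]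
        have h2 : ∀ (x : E) (X : Fin r → E),
            Phi Q (r + 1) n a a' ((MeasurableEquiv.piFinSuccAbove (fun _ : Fin (r + 1) => E) 0).symm (x, X))
              (labels ((MeasurableEquiv.piFinSuccAbove (fun _ : Fin (r + 1) => E) 0).symm (x, X)) s)
            = ∑ a'', Q n a a'' x ⟪x, s⟫ * Phi Q r (n + 1) a'' a' X (labels X s) := by
          intro x X
          have hY : (MeasurableEquiv.piFinSuccAbove (fun _ : Fin (r + 1) => E) 0).symm (x, X)
              = Fin.cons x X := by
            simp [MeasurableEquiv.piFinSuccAbove, Fin.insertNthEquiv]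
          rw [hY]
          simp only [Phi]
          refine Finset.sum_congr rfl fun a'' _ => ?_
          have h3 : Fin.tail (labels (Fin.cons x X : Fin (r + 1) → E) s) = labels X s := by
            funext i
            simp [Fin.tail, labels]
          have h4 : labels (Fin.cons x X : Fin (r + 1) → E) s 0 = ⟪x, s⟫ := by
            simp [labels]
          rw [h3, h4, Fin.cons_zero, Fin.tail_cons]
        simp_rw [h2]
        have h5 : ∀ x : E, ∫⁻ X, ∑ a'', Q n a a'' x ⟪x, s⟫ * Phi Q r (n + 1) a'' a' X (labels X s)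
              ∂(Measure.pi fun _ : Fin r => stdGaussian E)
            = ∑ a'', Q n a a'' x ⟪x, s⟫ * ∫⁻ X, Phi Q r (n + 1) a'' a' X (labels X s)
              ∂(Measure.pi fun _ : Fin r => stdGaussian E) := by
          intro x
          rw [lintegral_finsetSum _ fun a'' _ => (hPhim r (n + 1) a'' a').const_mul _]
          refine Finset.sum_congr rfl fun a'' _ => ?_
          exact lintegral_const_mul _ (hPhim r (n + 1) a'' a')
        simp_rw [h5]
        rw [lintegral_finsetSum _ fun a'' _ => (hQm n a a'').mul_const _]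
        refine Finset.sum_congr rfl fun a'' _ => ?_
        exact lintegral_mul_const _ (hQm n a a'')
      simp_rw [h1, Finset.sum_mul, Finset.mul_sum]
      rw [Finset.sum_comm]
      refine Finset.sum_congr rfl fun a _ => Finset.sum_congr rfl fun a'' _ => ?_
      ring

end model

end Vale.Agent.Lib.P309
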