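import Vale.Agent.Lib.P309.Frost

open MeasureTheory ProbabilityTheory Real Set Filter Topology
open scoped ENNReal Nat RealInnerProductSpace

namespace Vale.Agent.Lib.P309

variable {d : ℕ}

/-- The lower bound for the radii. -/
lemma exists_low {W Z : ℝ≥0∞} (hW : W ≠ 0) (hZ : Z ≠ ∞) (a e : ℕ) (he : 1 ≤ e) :
    ∃ ρ₀ : ℝ, 0 < ρ₀ ∧ ρ₀ ≤ 1 ∧ ∀ ϱ : ℝ, 0 < ϱ → ϱ ≤ 1 →
      W * ENNReal.ofReal (ϱ ^ a) ≤ Z * ENNReal.ofReal (ϱ ^ (a + e)) → ρ₀ ≤ ϱ := by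
  have h1 : Tendsto (fun x : ℝ => Z * ENNReal.ofReal x) (𝓝[>] 0) (𝓝 0) := by
    have h2 : Tendsto (fun x : ℝ => ENNReal.ofReal x) (𝓝[>] 0) (𝓝 0) := by
      have := (ENNReal.continuous_ofReal.tendsto 0).mono_left (nhdsWithin_le_nhds (s := Ioi 0))
      simpa using this
    have h3 := ENNReal.Tendsto.const_mul (a := Z) h2 (Or.inr hZ)
    simpa using h3
  have h2 : ∀ᶠ x in 𝓝[>] (0:ℝ), Z * ENNReal.ofReal x < W :=
    h1.eventually (gt_mem_nhds (pos_iff_ne_zero.2 hW))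
  obtain ⟨x, hx1, hx2⟩ := (h2.and self_mem_nhdsWithin).exists
  have hx0 : 0 < x := hx2
  refine ⟨min x 1, lt_min hx0 one_pos, min_le_right _ _, fun ϱ h0 hϱ1 hineq => ?_⟩
  by_contra hcon
  push Not at hcon
  have hϱx : ϱ ≤ x := hcon.le.trans (min_le_left _ _)
  have h3 : ϱ ^ (a + e) ≤ x * ϱ ^ a := by
    obtain ⟨e', rfl⟩ : ∃ e', e = e' + 1 := ⟨e - 1, by omega⟩
    have h4 : ϱ ^ e' ≤ 1 := pow_le_one₀ h0.le hϱ1
    calc ϱ ^ (a + (e' + 1)) = ϱ ^ a * (ϱ ^ e' * ϱ) := by ring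
      _ ≤ ϱ ^ a * (1 * x) := by gcongr
      _ = x * ϱ ^ a := by ring
  have h5 : W * ENNReal.ofReal (ϱ ^ a) ≤ (Z * ENNReal.ofReal x) * ENNReal.ofReal (ϱ ^ a) := by
    refine hineq.trans ?_
    rw [mul_assoc, ← ENNReal.ofReal_mul hx0.le]
    gcongr
  have h6 : ENNReal.ofReal (ϱ ^ a) ≠ 0 := by simpa using by positivity
  have h7 := (ENNReal.mul_le_mul_iff_left h6 ENNReal.ofReal_ne_top).1 h5
  exact absurd h7 (not_le.2 hx1)

section decomp

variable {t₂ n₂ a : ℕ} {G : Sph d → ℝ≥0∞} {c : Rd d} {r : ℝ} {g : ℝ≥0∞}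

/-- Mass in a ball is bounded. -/
lemma mass_ball_le (ht₂ : 0 < t₂) (hd : d = 2 * t₂ + n₂) (hn2 : 2 ≤ n₂) (hn3 : n₂ ≤ 3)
    (hg : ∀ s, G s ≤ g) (A : Set (Sph d)) (y : Rd d) {ϱ : ℝ} (hϱ : 0 < ϱ) :
    ∫⁻ s in A ∩ ballS y ϱ, G s ∂(unifSphere d) ≤ g * ENNReal.ofReal (3 * (6 * ϱ ^ 2) ^ t₂) := by
  calc ∫⁻ s in A ∩ ballS y ϱ, G s ∂(unifSphere d)
      ≤ ∫⁻ _ in A ∩ ballS y ϱ, g ∂(unifSphere d) := lintegral_mono fun s => hg s
    _ = g * (unifSphere d) (A ∩ ballS y ϱ) := by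
        rw [setLIntegral_const]
    _ ≤ g * (unifSphere d) (ballS y ϱ) := by
        gcongr
        exact Set.inter_subset_right
    _ ≤ _ := by
        gcongr
        exact unif_ball_le ht₂ hd hn2 hn3 y hϱ

lemma ball_pow_split (ha : a < 2 * t₂) {ϱ : ℝ} (_h0 : 0 < ϱ) :
    (3 * (6 * ϱ ^ 2) ^ t₂ : ℝ) = 3 * 6 ^ t₂ * ϱ ^ (a + (2 * t₂ - a)) := by
  have : a + (2 * t₂ - a) = 2 * t₂ := by omega
  rw [this, mul_pow, pow_mul]
  ring

/-- The mass in a set which meets the support inside a ball. -/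
lemma inter_support (hsupp : ∀ s, s ∉ ballS c r → G s = 0) {A : Set (Sph d)} (hA : MeasurableSet A) :
    ∫⁻ s in A ∩ ballS c r, G s ∂(unifSphere d) = ∫⁻ s in A, G s ∂(unifSphere d) := by
  have hm : MeasurableSet (A ∩ ballS c r) := hA.inter (measurableSet_ballS c r)
  rw [← lintegral_indicator hm, ← lintegral_indicator hA]
  refine lintegral_congr fun s => ?_
  by_cases hs : s ∈ ballS c r
  · by_cases hsA : s ∈ A
    · rw [Set.indicator_of_mem (show s ∈ A ∩ ballS c r from ⟨hsA, hs⟩), Set.indicator_of_mem hsA]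
    · rw [Set.indicator_of_notMem (show s ∉ A ∩ ballS c r from fun h => hsA h.1),
        Set.indicator_of_notMem hsA]
  · rw [Set.indicator_of_notMem (show s ∉ A ∩ ballS c r from fun h => hs h.2)]
    by_cases hsA : s ∈ A
    · rw [Set.indicator_of_mem hsA, hsupp s hs]
    · rw [Set.indicator_of_notMem hsA]

/-- The greedy choice of a ball. -/
lemma greedy_step (ht₂ : 0 < t₂) (hd : d = 2 * t₂ + n₂) (hn2 : 2 ≤ n₂) (hn3 : n₂ ≤ 3)
    (ha : a < 2 * t₂) (hr0 : 0 < r) (hr1 : r ≤ 1)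
    (hsupp : ∀ s, s ∉ ballS c r → G s = 0) (hg : ∀ s, G s ≤ g) (hgT : g ≠ ∞)
    {I₀ : ℝ≥0∞} {A : Set (Sph d)} (hAm : MeasurableSet A)
    (hA : I₀ < ∫⁻ s in A, G s ∂(unifSphere d)) :
    ∃ (y : Rd d) (ϱ : ℝ), 0 < ϱ ∧ ϱ ≤ r ∧
      (∀ y' ϱ', 0 < ϱ' → ϱ' ≤ r → ∫⁻ s in A ∩ ballS y' ϱ', G s ∂(unifSphere d)
        ≤ 2 * (∫⁻ s in A ∩ ballS y ϱ, G s ∂(unifSphere d)) * ENNReal.ofReal ((ϱ' / ϱ) ^ a)) ∧
      I₀ / 2 * ENNReal.ofReal ((ϱ / r) ^ a) ≤ ∫⁻ s in A ∩ ballS y ϱ, G s ∂(unifSphere d) := by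
  let R : Rd d → ℝ → ℝ≥0∞ := fun y ϱ =>
    (∫⁻ s in A ∩ ballS y ϱ, G s ∂(unifSphere d)) / ENNReal.ofReal (ϱ ^ a)
  have hwhole := inter_support hsupp (c := c) (r := r) hAm
  have hxr : ENNReal.ofReal (r ^ a) ≠ 0 := by simpa using by positivity
  have hRU : ∀ y ϱ, 0 < ϱ → ϱ ≤ r → R y ϱ ≤ g * ENNReal.ofReal (3 * 6 ^ t₂) := by
    intro y ϱ h0 hϱr
    refine ENNReal.div_le_of_le_mul ?_
    refine (mass_ball_le ht₂ hd hn2 hn3 hg A y h0).trans ?_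
    rw [mul_assoc, ← ENNReal.ofReal_mul (by positivity)]
    refine mul_le_mul' le_rfl (ENNReal.ofReal_le_ofReal ?_)
    rw [ball_pow_split ha h0, pow_add]
    have h1 : ϱ ^ (2 * t₂ - a) ≤ 1 := pow_le_one₀ h0.le (hϱr.trans hr1)
    have h2 : (0:ℝ) ≤ 3 * 6 ^ t₂ * ϱ ^ a := by positivity
    calc (3:ℝ) * 6 ^ t₂ * (ϱ ^ a * ϱ ^ (2 * t₂ - a)) = (3 * 6 ^ t₂ * ϱ ^ a) * ϱ ^ (2 * t₂ - a) := by ring
      _ ≤ (3 * 6 ^ t₂ * ϱ ^ a) * 1 := by gcongr
      _ = _ := by ring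
  have hI : ∫⁻ s in A, G s ∂(unifSphere d) ≠ 0 := (lt_of_le_of_lt bot_le hA).ne'
  have hpos : R c r ≠ 0 := by
    refine ENNReal.div_ne_zero.2 ⟨?_, ENNReal.ofReal_ne_top⟩
    rw [hwhole]
    exact hI
  obtain ⟨y, ϱ, h0, hϱr, hmax⟩ := pick_ball R
    (ENNReal.mul_ne_top hgT ENNReal.ofReal_ne_top) hRU hr0 hpos
  refine ⟨y, ϱ, h0, hϱr, fun y' ϱ' h0' hϱr' => ?_, ?_⟩
  · have h1 := hmax y' ϱ' h0' hϱr'
    have hx' : ENNReal.ofReal (ϱ' ^ a) ≠ 0 := by simpa using by positivity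
    have hx : ENNReal.ofReal (ϱ ^ a) ≠ 0 := by simpa using by positivity
    have h2 : ∫⁻ s in A ∩ ballS y' ϱ', G s ∂(unifSphere d) = R y' ϱ' * ENNReal.ofReal (ϱ' ^ a) :=
      (ENNReal.div_mul_cancel hx' ENNReal.ofReal_ne_top).symm
    rw [h2]
    have h3 : ENNReal.ofReal ((ϱ' / ϱ) ^ a) = ENNReal.ofReal (ϱ' ^ a) / ENNReal.ofReal (ϱ ^ a) := by
      rw [div_pow, ENNReal.ofReal_div_of_pos (by positivity)]
    rw [h3]
    calc R y' ϱ' * ENNReal.ofReal (ϱ' ^ a) ≤ (2 * R y ϱ) * ENNReal.ofReal (ϱ' ^ a) := by gcongr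
      _ = _ := by
        simp only [R, div_eq_mul_inv]
        ring
  · have h1 := hmax c r hr0 le_rfl
    have hx : ENNReal.ofReal (ϱ ^ a) ≠ 0 := by simpa using by positivity
    have h3 : ENNReal.ofReal ((ϱ / r) ^ a) = ENNReal.ofReal (ϱ ^ a) / ENNReal.ofReal (r ^ a) := by
      rw [div_pow, ENNReal.ofReal_div_of_pos (by positivity)]
    rw [h3]
    simp only [R] at h1
    rw [hwhole] at h1
    set I := ∫⁻ s in A ∩ ballS y ϱ, G s ∂(unifSphere d) with hIdef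
    set x := ENNReal.ofReal (ϱ ^ a) with hxdef
    set z := ENNReal.ofReal (r ^ a) with hzdef
    have hxT : x ≠ ∞ := ENNReal.ofReal_ne_top
    have h4 : I₀ / z ≤ 2 * (I / x) := by
      refine le_trans ?_ h1
      gcongr
    calc I₀ / 2 * (x / z) = (I₀ / z) * x / 2 := by
          simp only [div_eq_mul_inv]
          ring
      _ ≤ (2 * (I / x)) * x / 2 := by gcongr
      _ = I := by
          have e1 : (2 * (I / x)) * x = 2 * I := by
            rw [mul_assoc, ENNReal.div_mul_cancel hx hxT]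
          rw [e1, mul_comm]
          exact ENNReal.mul_div_cancel_right (by simp) (by simp)

/-- The algebra of the ratio of a new node. -/
lemma ratio_algebra {δ M g x z I : ℝ≥0∞} (hδ0 : δ ≠ 0) (hδT : δ ≠ ∞) (hM0 : M ≠ 0) (hMT : M ≠ ∞)
    (hz0 : z ≠ 0) (hzT : z ≠ ∞) (hI : (δ * M) / 2 * (x / z) ≤ I) :
    g * x ≤ (2 / δ) * (g * z / M) * I := by
  calc g * x = ((2:ℝ≥0∞) * 2⁻¹) * (δ * δ⁻¹) * (M * M⁻¹) * (z * z⁻¹) * (g * x) := by
        rw [ENNReal.mul_inv_cancel (by simp) (by simp), ENNReal.mul_inv_cancel hδ0 hδT,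
          ENNReal.mul_inv_cancel hM0 hMT, ENNReal.mul_inv_cancel hz0 hzT]
        simp
    _ = (2 / δ) * (g * z / M) * ((δ * M) / 2 * (x / z)) := by
        simp only [div_eq_mul_inv]
        ring
    _ ≤ _ := by gcongr

/-- The greedy decomposition, from a given remaining set. -/
lemma decomp_aux (ht₂ : 0 < t₂) (hd : d = 2 * t₂ + n₂) (hn2 : 2 ≤ n₂) (hn3 : n₂ ≤ 3)
    (ha : a < 2 * t₂) (hr0 : 0 < r) (hr1 : r ≤ 1) (hGm : Measurable G)
    (hsupp : ∀ s, s ∉ ballS c r → G s = 0) (hg : ∀ s, G s ≤ g) (hgT : g ≠ ∞)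
    {δ M : ℝ≥0∞} (hδ0 : δ ≠ 0) (hδT : δ ≠ ∞) (hM0 : M ≠ 0) (hMT : M ≠ ∞) {ρ₀ : ℝ} (hρ₀ : 0 < ρ₀)
    (hlow : ∀ ϱ : ℝ, 0 < ϱ → ϱ ≤ 1 → (δ * M) / 2 * ENNReal.ofReal ((ϱ / r) ^ a)
      ≤ g * ENNReal.ofReal (3 * (6 * ϱ ^ 2) ^ t₂) → ρ₀ ≤ ϱ) :
    ∀ N : ℕ, ∀ A : Set (Sph d), MeasurableSet A → ∫⁻ s in A, G s ∂(unifSphere d)
        ≤ N * ((δ * M) / 2 * ENNReal.ofReal ((ρ₀ / r) ^ a)) →
      ∃ S E : Sph d → ℝ≥0∞, (∀ s, A.indicator G s = S s + E s) ∧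
        SumGood a ((2 / δ) * (g * ENNReal.ofReal (r ^ a) / M)) S ∧ Measurable E ∧
        ∫⁻ s, E s ∂(unifSphere d) ≤ δ * M := by
  have hδM0 : δ * M ≠ 0 := mul_ne_zero hδ0 hM0
  have hδMT : δ * M ≠ ∞ := ENNReal.mul_ne_top hδT hMT
  set m₀ : ℝ≥0∞ := (δ * M) / 2 * ENNReal.ofReal ((ρ₀ / r) ^ a) with hm₀
  have hm₀T : m₀ ≠ ∞ := ENNReal.mul_ne_top (ENNReal.div_ne_top hδMT (by simp)) ENNReal.ofReal_ne_top
  -- the trivial case
  have htriv : ∀ A : Set (Sph d), MeasurableSet A → ∫⁻ s in A, G s ∂(unifSphere d) ≤ δ * M →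
      ∃ S E : Sph d → ℝ≥0∞, (∀ s, A.indicator G s = S s + E s) ∧
        SumGood a ((2 / δ) * (g * ENNReal.ofReal (r ^ a) / M)) S ∧ Measurable E ∧
        ∫⁻ s, E s ∂(unifSphere d) ≤ δ * M := by
    intro A hA hle
    refine ⟨0, A.indicator G, fun s => by simp, SumGood.zero, hGm.indicator hA, ?_⟩
    rw [lintegral_indicator hA]
    exact hle
  intro N
  induction N with
  | zero =>
      intro A hA hle
      refine htriv A hA ?_
      simp only [Nat.cast_zero, zero_mul, nonpos_iff_eq_zero] at hle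
      rw [hle]
      exact bot_le
  | succ N ih =>
      intro A hA hle
      by_cases hcase : ∫⁻ s in A, G s ∂(unifSphere d) ≤ δ * M
      · exact htriv A hA hcase
      push Not at hcase
      obtain ⟨y, ϱ, h0, hϱr, hmax, hlowP⟩ := greedy_step ht₂ hd hn2 hn3 ha hr0 hr1 hsupp hg hgT hA hcase
      have hB := measurableSet_ballS y ϱ
      set IP := ∫⁻ s in A ∩ ballS y ϱ, G s ∂(unifSphere d) with hIP
      have hϱ1 : ϱ ≤ 1 := hϱr.trans hr1
      have hρϱ : ρ₀ ≤ ϱ := by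
        refine hlow ϱ h0 hϱ1 (hlowP.trans ?_)
        exact mass_ball_le ht₂ hd hn2 hn3 hg A y h0
      have hm₀IP : m₀ ≤ IP := by
        refine le_trans ?_ hlowP
        rw [hm₀]
        gcongr
      have hIP0 : IP ≠ 0 := by
        intro h
        rw [h] at hlowP
        have h2 : (δ * M) / 2 * ENNReal.ofReal ((ϱ / r) ^ a) ≠ 0 := by
          refine mul_ne_zero (ENNReal.div_ne_zero.2 ⟨hδM0, by simp⟩) ?_
          simpa using by positivity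
        exact h2 (le_antisymm hlowP bot_le)
      have hsum : IP + ∫⁻ s in A \ ballS y ϱ, G s ∂(unifSphere d) = ∫⁻ s in A, G s ∂(unifSphere d) :=
        lintegral_inter_add_diff G A hB
      have hA' : MeasurableSet (A \ ballS y ϱ) := hA.diff hB
      have hrem : ∫⁻ s in A \ ballS y ϱ, G s ∂(unifSphere d)
          ≤ N * ((δ * M) / 2 * ENNReal.ofReal ((ρ₀ / r) ^ a)) := by
        have h2 : ∫⁻ s in A \ ballS y ϱ, G s ∂(unifSphere d) + m₀ ≤ N * m₀ + m₀ := by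
          calc ∫⁻ s in A \ ballS y ϱ, G s ∂(unifSphere d) + m₀
              ≤ ∫⁻ s in A \ ballS y ϱ, G s ∂(unifSphere d) + IP := by gcongr
            _ = ∫⁻ s in A, G s ∂(unifSphere d) := by rw [add_comm]; exact hsum
            _ ≤ ((N + 1 : ℕ) : ℝ≥0∞) * m₀ := hle
            _ = N * m₀ + m₀ := by push_cast; ring
        exact ENNReal.le_of_add_le_add_right hm₀T h2
      obtain ⟨S', E', hdec, hS', hE'm, hE'⟩ := ih (A \ ballS y ϱ) hA' hrem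
      have hPm : MeasurableSet (A ∩ ballS y ϱ) := hA.inter hB
      refine ⟨(A ∩ ballS y ϱ).indicator G + S', E', fun s => ?_, SumGood.add ?_ hS', hE'm, hE'⟩
      · have h2 := hdec s
        simp only [Pi.add_apply]
        rw [add_assoc, ← h2]
        by_cases hsA : s ∈ A
        · by_cases hsB : s ∈ ballS y ϱ
          · rw [Set.indicator_of_mem hsA, Set.indicator_of_mem (show s ∈ A ∩ ballS y ϱ from ⟨hsA, hsB⟩),
              Set.indicator_of_notMem (show s ∉ A \ ballS y ϱ from fun h => h.2 hsB), add_zero]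
          · rw [Set.indicator_of_mem hsA, Set.indicator_of_notMem (show s ∉ A ∩ ballS y ϱ from fun h => hsB h.2),
              Set.indicator_of_mem (show s ∈ A \ ballS y ϱ from ⟨hsA, hsB⟩), zero_add]
        · rw [Set.indicator_of_notMem hsA, Set.indicator_of_notMem (show s ∉ A ∩ ballS y ϱ from fun h => hsA h.1),
            Set.indicator_of_notMem (show s ∉ A \ ballS y ϱ from fun h => hsA h.1), add_zero]
      · -- the new node
        have hmass : ∫⁻ s, (A ∩ ballS y ϱ).indicator G s ∂(unifSphere d) = IP :=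
          lintegral_indicator hPm G
        refine ⟨y, ϱ, g, ?_⟩
        refine ⟨hGm.indicator hPm, h0, hϱ1, fun s hs => ?_, fun s => ?_, hgT, ?_, fun y' ϱ' h0' => ?_, ?_⟩
        · exact Set.indicator_of_notMem (fun h => hs h.2) _
        · exact (Set.indicator_le_self _ _ s).trans (hg s)
        · rw [hmass]
          exact hIP0
        · rw [hmass, setLIntegral_indicator hPm]
          rcases le_or_gt ϱ' r with hle' | hgt'
          · have h2 := hmax y' ϱ' h0' hle'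
            calc ∫⁻ s in A ∩ ballS y ϱ ∩ ballS y' ϱ', G s ∂(unifSphere d)
                ≤ ∫⁻ s in A ∩ ballS y' ϱ', G s ∂(unifSphere d) := by
                  refine lintegral_mono_set ?_
                  exact fun s hs => ⟨hs.1.1, hs.2⟩
              _ ≤ 2 * IP * ENNReal.ofReal ((ϱ' / ϱ) ^ a) := h2
              _ = _ := by ring
          · have h3 : (1:ℝ) ≤ (ϱ' / ϱ) ^ a := by
              apply one_le_pow₀
              rw [one_le_div h0]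
              linarith
            calc ∫⁻ s in A ∩ ballS y ϱ ∩ ballS y' ϱ', G s ∂(unifSphere d)
                ≤ ∫⁻ s in A ∩ ballS y ϱ, G s ∂(unifSphere d) :=
                  lintegral_mono_set Set.inter_subset_left
              _ = 1 * 1 * IP := by simp [hIP]
              _ ≤ 2 * ENNReal.ofReal ((ϱ' / ϱ) ^ a) * IP := by
                  gcongr
                  · norm_num
                  · rw [← ENNReal.ofReal_one]
                    exact ENNReal.ofReal_le_ofReal h3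
        · rw [hmass]
          have hz0 : ENNReal.ofReal (r ^ a) ≠ 0 := by simpa using by positivity
          refine ratio_algebra hδ0 hδT hM0 hMT hz0 ENNReal.ofReal_ne_top ?_
          have h3 : ENNReal.ofReal ((ϱ / r) ^ a) = ENNReal.ofReal (ϱ ^ a) / ENNReal.ofReal (r ^ a) := by
            rw [div_pow, ENNReal.ofReal_div_of_pos (by positivity)]
          rw [← h3]
          exact hlowP

/-- **The decomposition of a bounded density into pieces with a ball bound at their own scale.** -/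
theorem decomp (ht₂ : 0 < t₂) (hd : d = 2 * t₂ + n₂) (hn2 : 2 ≤ n₂) (hn3 : n₂ ≤ 3)
    (ha : a < 2 * t₂) (hr0 : 0 < r) (hr1 : r ≤ 1) (hGm : Measurable G)
    (hsupp : ∀ s, s ∉ ballS c r → G s = 0) (hg : ∀ s, G s ≤ g) (hgT : g ≠ ∞)
    {δ : ℝ≥0∞} (hδ0 : δ ≠ 0) (hδT : δ ≠ ∞) (hM0 : ∫⁻ s, G s ∂(unifSphere d) ≠ 0) :
    ∃ S E : Sph d → ℝ≥0∞, (∀ s, G s = S s + E s) ∧
      SumGood a ((2 / δ) * (g * ENNReal.ofReal (r ^ a) / ∫⁻ s, G s ∂(unifSphere d))) S ∧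
      Measurable E ∧ ∫⁻ s, E s ∂(unifSphere d) ≤ δ * ∫⁻ s, G s ∂(unifSphere d) := by
  have hd0 : 0 < d := by omega
  have := unifSphere_prob hd0
  set M := ∫⁻ s, G s ∂(unifSphere d) with hM
  have hMT : M ≠ ∞ := by
    refine ne_top_of_le_ne_top hgT ?_
    calc M ≤ ∫⁻ _, g ∂(unifSphere d) := lintegral_mono hg
      _ = g := by simp
  have hδM0 : δ * M ≠ 0 := mul_ne_zero hδ0 hM0
  have hδMT : δ * M ≠ ∞ := ENNReal.mul_ne_top hδT hMT
  obtain ⟨ρ₀, hρ0, -, hρ₀⟩ := exists_low (W := (δ * M) / 2 * ENNReal.ofReal ((1 / r) ^ a))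
    (Z := g * ENNReal.ofReal (3 * 6 ^ t₂))
    (mul_ne_zero (ENNReal.div_ne_zero.2 ⟨hδM0, by simp⟩) (by simpa using by positivity))
    (ENNReal.mul_ne_top hgT ENNReal.ofReal_ne_top) a (2 * t₂ - a) (by omega)
  have hlow : ∀ ϱ : ℝ, 0 < ϱ → ϱ ≤ 1 → (δ * M) / 2 * ENNReal.ofReal ((ϱ / r) ^ a)
      ≤ g * ENNReal.ofReal (3 * (6 * ϱ ^ 2) ^ t₂) → ρ₀ ≤ ϱ := by
    intro ϱ h0 h1 h2
    refine hρ₀ ϱ h0 h1 ?_
    have e1 : ENNReal.ofReal ((ϱ / r) ^ a)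
        = ENNReal.ofReal ((1 / r) ^ a) * ENNReal.ofReal (ϱ ^ a) := by
      rw [← ENNReal.ofReal_mul (by positivity)]
      congr 1
      rw [← mul_pow]
      congr 1
      field_simp
    rw [e1, ball_pow_split ha h0, ENNReal.ofReal_mul (by positivity)] at h2
    calc (δ * M) / 2 * ENNReal.ofReal ((1 / r) ^ a) * ENNReal.ofReal (ϱ ^ a)
        = (δ * M) / 2 * (ENNReal.ofReal ((1 / r) ^ a) * ENNReal.ofReal (ϱ ^ a)) := by ring
      _ ≤ g * (ENNReal.ofReal (3 * 6 ^ t₂) * ENNReal.ofReal (ϱ ^ (a + (2 * t₂ - a)))) := h2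
      _ = _ := by ring
  have hm₀0 : (δ * M) / 2 * ENNReal.ofReal ((ρ₀ / r) ^ a) ≠ 0 :=
    mul_ne_zero (ENNReal.div_ne_zero.2 ⟨hδM0, by simp⟩) (by simpa using by positivity)
  obtain ⟨N, hN⟩ := ENNReal.exists_nat_mul_gt hm₀0 hMT
  obtain ⟨S, E, h1, h2, h3, h4⟩ := decomp_aux ht₂ hd hn2 hn3 ha hr0 hr1 hGm hsupp hg hgT hδ0 hδT hM0 hMT
    hρ0 hlow N Set.univ MeasurableSet.univ (by simpa using hN.le)
  refine ⟨S, E, fun s => ?_, h2, h3, h4⟩
  simpa using h1 s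

end decomp

end Vale.Agent.Lib.P309
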