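import Vale.Agent.Lib.P309.Mollify

open MeasureTheory ProbabilityTheory Real Set Filter Topology
open scoped ENNReal Nat RealInnerProductSpace

namespace Vale.Agent.Lib.P309

variable {E : Type*} [NormedAddCommGroup E] [InnerProductSpace ℝ E] [FiniteDimensional ℝ E]
  [MeasurableSpace E] [BorelSpace E]

/-- The measure of a tube around a subspace, for a measure with a ball bound. -/
theorem tube_bound {ν : Measure E} [SFinite ν] {K : ℝ≥0∞} {a : ℕ}
    (hν : ∀ x ρ, 0 < ρ → ν (Metric.closedBall x ρ) ≤ K * ENNReal.ofReal (ρ ^ a))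
    (W : Submodule ℝ E) (z : E) {ρ : ℝ} (hρ0 : 0 < ρ) (hρ1 : ρ ≤ 1) :
    ν {x | ∃ m ∈ W, ‖m‖ ≤ 1 ∧ ‖x - z - m‖ ≤ ρ}
      ≤ ENNReal.ofReal ((2 / ρ) ^ Module.finrank ℝ W) * (K * ENNReal.ofReal ((2 * ρ) ^ a)) := by
  classical
  set lam : Measure W := volume with hlam
  set S : Set (E × W) := {q | ‖(q.2 : E)‖ ≤ 2 ∧ ‖q.1 - z - (q.2 : E)‖ ≤ 2 * ρ} with hS
  have hSm : MeasurableSet S := by
    have h1 : IsClosed S := by
      have e1 : IsClosed {q : E × W | ‖(q.2 : E)‖ ≤ 2} :=
        isClosed_le (by fun_prop) continuous_const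
      have e2 : IsClosed {q : E × W | ‖q.1 - z - (q.2 : E)‖ ≤ 2 * ρ} :=
        isClosed_le (by fun_prop) continuous_const
      exact e1.inter e2
    exact h1.measurableSet
  set c : ℝ≥0∞ := lam (Metric.closedBall (0 : W) ρ) with hc
  have hc0 : c ≠ 0 := (Metric.measure_closedBall_pos lam _ hρ0).ne'
  have hcT : c ≠ ∞ := measure_closedBall_lt_top.ne
  set f : E → ℝ≥0∞ := fun x => lam (Prod.mk x ⁻¹' S) with hf
  have hfm : Measurable f := measurable_measure_prodMk_left hSm
  -- the tube lies in a superlevel set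
  have hsub : {x | ∃ m ∈ W, ‖m‖ ≤ 1 ∧ ‖x - z - m‖ ≤ ρ} ⊆ {x | c ≤ f x} := by
    rintro x ⟨m, hmW, hm1, hm2⟩
    show c ≤ f x
    have h1 : lam (Metric.closedBall (⟨m, hmW⟩ : W) ρ) = c := by
      rw [hc, ← Measure.addHaar_closedBall_center lam]
    rw [← h1]
    apply measure_mono
    intro p hp
    have hp' : ‖(p : E) - m‖ ≤ ρ := by
      have := Metric.mem_closedBall.1 hp
      rwa [dist_eq_norm] at this
    constructor
    · calc ‖(p : E)‖ = ‖((p : E) - m) + m‖ := by rw [sub_add_cancel]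
        _ ≤ ‖(p : E) - m‖ + ‖m‖ := norm_add_le _ _
        _ ≤ 2 := by linarith
    · calc ‖x - z - (p : E)‖ = ‖(x - z - m) - ((p : E) - m)‖ := by congr 1; abel
        _ ≤ ‖x - z - m‖ + ‖(p : E) - m‖ := norm_sub_le _ _
        _ ≤ 2 * ρ := by linarith
  -- Markov
  have h1 : c * ν {x | c ≤ f x} ≤ ∫⁻ x, f x ∂ν := mul_meas_ge_le_lintegral hfm c
  -- Fubini
  have h2 : ∫⁻ x, f x ∂ν = ∫⁻ p, ν ((fun x => (x, p)) ⁻¹' S) ∂lam := by
    rw [hf, ← Measure.prod_apply hSm, Measure.prod_apply_symm hSm]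
  have h3 : ∀ p : W, ν ((fun x => (x, p)) ⁻¹' S)
      ≤ (Metric.closedBall (0 : W) 2).indicator (fun _ => K * ENNReal.ofReal ((2 * ρ) ^ a)) p := by
    intro p
    by_cases hp : ‖(p : E)‖ ≤ 2
    · rw [Set.indicator_of_mem (by simpa using hp)]
      refine (measure_mono ?_).trans (hν (z + p) (2 * ρ) (by positivity))
      intro x hx
      have hx2 : ‖x - z - (p : E)‖ ≤ 2 * ρ := hx.2
      rw [Metric.mem_closedBall, dist_eq_norm]
      calc ‖x - (z + (p : E))‖ = ‖x - z - (p : E)‖ := by congr 1; abel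
        _ ≤ 2 * ρ := hx2
    · have hp2 : (fun x : E => (x, p)) ⁻¹' S = ∅ := by
        ext x
        simp only [Set.mem_preimage, Set.mem_empty_iff_false, iff_false]
        exact fun h => hp h.1
      rw [hp2]
      simp
  have h4 : ∫⁻ p, ν ((fun x => (x, p)) ⁻¹' S) ∂lam
      ≤ lam (Metric.closedBall (0 : W) 2) * (K * ENNReal.ofReal ((2 * ρ) ^ a)) := by
    refine (lintegral_mono h3).trans (le_of_eq ?_)
    rw [lintegral_indicator Metric.isClosed_closedBall.measurableSet, lintegral_const,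
      Measure.restrict_apply_univ, mul_comm]
  have h5 : lam (Metric.closedBall (0 : W) 2)
      = ENNReal.ofReal ((2 / ρ) ^ Module.finrank ℝ W) * c := by
    have h6 := Measure.addHaar_closedBall_mul lam (0 : W) (r := 2 / ρ) (by positivity) hρ0.le
    rw [← hc] at h6
    have h7 : (2 / ρ) * ρ = 2 := by field_simp
    rwa [h7] at h6
  rw [h2] at h1
  have h8 : c * ν {x | ∃ m ∈ W, ‖m‖ ≤ 1 ∧ ‖x - z - m‖ ≤ ρ}
      ≤ c * (ENNReal.ofReal ((2 / ρ) ^ Module.finrank ℝ W) * (K * ENNReal.ofReal ((2 * ρ) ^ a))) := by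
    calc c * ν {x | ∃ m ∈ W, ‖m‖ ≤ 1 ∧ ‖x - z - m‖ ≤ ρ} ≤ c * ν {x | c ≤ f x} := by
          gcongr
      _ ≤ _ := h1
      _ ≤ _ := h4
      _ = _ := by rw [h5]; ring
  exact (ENNReal.mul_le_mul_iff_right hc0 hcT).1 h8

omit [FiniteDimensional ℝ E] [MeasurableSpace E] [BorelSpace E] in
/-- The Gram-Schmidt residual is orthogonal to the span of the earlier ones, and differs from
the row by an element of that span. -/
lemma gs_update_facts (f : ℕ → E) (r : ℕ) (x : E) :
    gs (Function.update f r x) r ∈ (Submodule.span ℝ (Set.range fun j : Fin r => gs f j))ᗮ ∧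
      x - gs (Function.update f r x) r ∈ Submodule.span ℝ (Set.range fun j : Fin r => gs f j) := by
  classical
  set W : Submodule ℝ E := Submodule.span ℝ (Set.range fun j : Fin r => gs f j) with hW
  set u := gs (Function.update f r x) r with hu
  have hgs : ∀ j, j < r → gs (Function.update f r x) j = gs f j := by
    intro j hj
    refine gs_congr fun l hl => ?_
    rw [Function.update_of_ne (by omega)]
  constructor
  · rw [Submodule.mem_orthogonal]
    intro w hw
    induction hw using Submodule.span_induction with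
    | mem w hw =>
      obtain ⟨j, rfl⟩ := hw
      show ⟪gs f j, u⟫ = 0
      rw [← hgs j j.2]
      exact InnerProductSpace.gramSchmidt_orthogonal ℝ _ (by have := j.2; omega)
    | zero => simp
    | add a c _ _ ha hc => rw [inner_add_left, ha, hc, add_zero]
    | smul a w _ hw => rw [inner_smul_left, hw, mul_zero]
  · have h2 := InnerProductSpace.gramSchmidt_def'' ℝ (Function.update f r x) r
    have h3 : x - u = ∑ i ∈ Finset.Iio r,
        (⟪gs (Function.update f r x) i, x⟫ / ((‖gs (Function.update f r x) i‖ : ℝ)) ^ 2) •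
          gs (Function.update f r x) i := by
      rw [Function.update_self] at h2
      rw [sub_eq_iff_eq_add', hu]
      simpa using h2
    rw [h3]
    refine Submodule.sum_mem _ fun i hi => Submodule.smul_mem _ _ ?_
    have hi' : i < r := Finset.mem_Iio.1 hi
    rw [hgs i hi']
    exact Submodule.subset_span ⟨⟨i, hi'⟩, rfl⟩

/-- A short residual places the point in a tube. -/
lemma residual_tube (f : ℕ → E) (r : ℕ) (x₀ x : E) {ρ : ℝ} (hx : ‖x‖ ≤ 1)
    (h : ‖gs (Function.update f r (x - x₀)) r‖ ≤ ρ) :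
    ∃ m ∈ Submodule.span ℝ (Set.range fun j : Fin r => gs f j), ‖m‖ ≤ 1 ∧
      ‖x - (x₀ - (Submodule.span ℝ (Set.range fun j : Fin r => gs f j)).starProjection x₀) - m‖ ≤ ρ := by
  classical
  obtain ⟨huW, hxu⟩ := gs_update_facts f r (x - x₀)
  set W : Submodule ℝ E := Submodule.span ℝ (Set.range fun j : Fin r => gs f j) with hW
  set u := gs (Function.update f r (x - x₀)) r with hu
  set z := x₀ - W.starProjection x₀ with hz
  have hzW : z ∈ Wᗮ := Submodule.sub_starProjection_mem_orthogonal x₀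
  have hPW : W.starProjection x₀ ∈ W := Submodule.starProjection_apply_mem W x₀
  refine ⟨W.starProjection x₀ + ((x - x₀) - u), W.add_mem hPW hxu, ?_, ?_⟩
  · set m := W.starProjection x₀ + ((x - x₀) - u) with hm
    have hmW : m ∈ W := W.add_mem hPW hxu
    have e1 : x - m = z + u := by
      rw [hm, hz]
      abel
    have e2 : ⟪m, x - m⟫ = 0 := by
      rw [e1]
      exact Submodule.inner_right_of_mem_orthogonal hmW ((Wᗮ).add_mem hzW huW)
    have e3 : ‖m‖ ^ 2 = ⟪m, x⟫ := by
      rw [inner_sub_right, sub_eq_zero] at e2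
      rw [e2, real_inner_self_eq_norm_sq]
    have e4 : ⟪m, x⟫ ≤ ‖m‖ * ‖x‖ := real_inner_le_norm m x
    have e5 : ‖m‖ * ‖m‖ ≤ ‖m‖ * 1 := by
      have : ‖m‖ * ‖x‖ ≤ ‖m‖ * 1 := by gcongr
      nlinarith
    by_cases hm0 : ‖m‖ = 0
    · rw [hm0]
      exact zero_le_one
    · exact le_of_mul_le_mul_left e5 (lt_of_le_of_ne (norm_nonneg _) (Ne.symm hm0))
  · have e : x - z - (W.starProjection x₀ + ((x - x₀) - u)) = u := by
      rw [hz]
      abel
    rw [e]
    exact h

/-- The layer-cake bound for a negative power. -/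
lemma layer_cake (k : ℕ) {A : ℝ} (hA : 0 ≤ A) :
    (ENNReal.ofReal A)⁻¹ ^ k ≤ 1 + ∑' j : ℕ, ENNReal.ofReal ((2 / (1 / 2 : ℝ) ^ j) ^ k) *
      {y : ℝ | y ≤ (1 / 2 : ℝ) ^ j}.indicator 1 A := by
  rcases hA.eq_or_lt with rfl | hA0
  · -- `A = 0`
    rcases Nat.eq_zero_or_pos k with rfl | hk
    · simp
    · have h1 : ∀ j : ℕ, (1 : ℝ≥0∞) ≤ ENNReal.ofReal ((2 / (1 / 2 : ℝ) ^ j) ^ k) *
          {y : ℝ | y ≤ (1 / 2 : ℝ) ^ j}.indicator 1 0 := by
        intro j
        rw [Set.indicator_of_mem (show (0:ℝ) ∈ {y : ℝ | y ≤ (1 / 2 : ℝ) ^ j} by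
          simp only [Set.mem_ofPred_eq]; positivity)]
        simp only [Pi.one_apply, mul_one]
        rw [← ENNReal.ofReal_one]
        apply ENNReal.ofReal_le_ofReal
        apply one_le_pow₀
        rw [one_le_div (by positivity)]
        have : ((1:ℝ) / 2) ^ j ≤ 1 := pow_le_one₀ (by norm_num) (by norm_num)
        linarith
      have h2 : ∑' j : ℕ, ENNReal.ofReal ((2 / (1 / 2 : ℝ) ^ j) ^ k) *
          {y : ℝ | y ≤ (1 / 2 : ℝ) ^ j}.indicator 1 0 = ∞ := by
        refine top_le_iff.1 ?_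
        calc (∞ : ℝ≥0∞) = ∑' _ : ℕ, (1 : ℝ≥0∞) := (ENNReal.tsum_const_eq_top_of_ne_zero one_ne_zero).symm
          _ ≤ _ := ENNReal.tsum_le_tsum h1
      rw [h2]
      simp
  · rcases le_or_gt 1 A with hA1 | hA1
    · -- `A ≥ 1`
      have h1 : (ENNReal.ofReal A)⁻¹ ≤ 1 := by
        rw [ENNReal.inv_le_one, ← ENNReal.ofReal_one]
        exact ENNReal.ofReal_le_ofReal hA1
      exact (pow_le_one' h1 k).trans le_self_add
    · obtain ⟨j, hj1, hj2⟩ := exists_nat_pow_near_of_lt_one hA0 hA1.le (by norm_num : (0:ℝ) < 1 / 2)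
        (by norm_num : (1:ℝ) / 2 < 1)
      refine le_trans ?_ le_add_self
      refine le_trans ?_ (ENNReal.le_tsum j)
      rw [Set.indicator_of_mem (show A ∈ {y : ℝ | y ≤ (1 / 2 : ℝ) ^ j} from hj2)]
      simp only [Pi.one_apply, mul_one]
      rw [← ENNReal.ofReal_inv_of_pos hA0, ← ENNReal.ofReal_pow (by positivity)]
      apply ENNReal.ofReal_le_ofReal
      gcongr
      rw [inv_le_comm₀ hA0 (by positivity), inv_div]
      rw [pow_succ] at hj1
      linarith

/-- The arithmetic of a layer. -/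
lemma layer_arith {k r a : ℕ} (h : k + r + 1 ≤ a) {x : ℝ} (hx0 : 0 < x) (hx1 : x ≤ 1) :
    (2 / x) ^ k * (2 / x) ^ r * (2 * x) ^ a ≤ 2 ^ (2 * a - 1) * x := by
  obtain ⟨e, rfl⟩ : ∃ e, a = k + r + (e + 1) := ⟨a - (k + r + 1), by omega⟩
  have h1 : (2 / x) ^ k * (2 / x) ^ r * (2 * x) ^ (k + r + (e + 1))
      = 4 ^ (k + r) * (2 * x) ^ (e + 1) := by
    rw [pow_add (2 * x) (k + r), ← pow_add (2 / x), ← mul_assoc, mul_comm _ ((2 * x) ^ (k + r))]
    rw [← mul_pow]
    have : 2 * x * (2 / x) = 4 := by field_simp; norm_num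
    rw [this]
  rw [h1]
  have h2 : (2 * x) ^ (e + 1) = 2 ^ (e + 1) * x ^ (e + 1) := mul_pow _ _ _
  rw [h2]
  have h3 : x ^ (e + 1) ≤ x := by
    rw [pow_succ]
    have : x ^ e ≤ 1 := pow_le_one₀ hx0.le hx1
    nlinarith
  have h4 : (4:ℝ) ^ (k + r) * 2 ^ (e + 1) ≤ 2 ^ (2 * (k + r + (e + 1)) - 1) := by
    have e1 : (4:ℝ) ^ (k + r) = 2 ^ (2 * (k + r)) := by
      rw [pow_mul]; norm_num
    rw [e1, ← pow_add]
    exact pow_le_pow_right₀ (by norm_num) (by omega)
  calc (4:ℝ) ^ (k + r) * (2 ^ (e + 1) * x ^ (e + 1)) = (4 ^ (k + r) * 2 ^ (e + 1)) * x ^ (e + 1) := by ring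
    _ ≤ 2 ^ (2 * (k + r + (e + 1)) - 1) * x := by gcongr

section residual

variable {ν : Measure E} [IsProbabilityMeasure ν] {K : ℝ≥0∞} {a : ℕ}

/-- The moment of the residual of one point. -/
theorem residual_moment
    (hν : ∀ x ρ, 0 < ρ → ν (Metric.closedBall x ρ) ≤ K * ENNReal.ofReal (ρ ^ a))
    (hsupp : ∀ᵐ v ∂ν, ‖v‖ ≤ 1) (f : ℕ → E) (r : ℕ) (x₀ : E) {k : ℕ} (h : k + r + 1 ≤ a) :
    ∫⁻ x, (ENNReal.ofReal ‖gs (Function.update f r (x - x₀)) r‖)⁻¹ ^ k ∂ν
      ≤ 1 + K * ENNReal.ofReal (2 ^ (2 * a)) := by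
  classical
  set W : Submodule ℝ E := Submodule.span ℝ (Set.range fun j : Fin r => gs f j) with hW
  set z := x₀ - W.starProjection x₀ with hz
  have hWr : Module.finrank ℝ W ≤ r := by
    have := finrank_range_le_card (R := ℝ) (fun j : Fin r => gs f j)
    simpa [Set.finrank] using this
  have hAm : Measurable (fun x : E => ‖gs (Function.update f r (x - x₀)) r‖) := by
    refine (measurable_gs (F := fun x => Function.update f r (x - x₀)) ?_ r).norm
    intro i
    by_cases hi : i = r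
    · subst hi
      simp only [Function.update_self]
      exact measurable_id.sub measurable_const
    · simp only [Function.update_of_ne hi]
      exact measurable_const
  have hB : ∀ j : ℕ, MeasurableSet {x : E | ‖gs (Function.update f r (x - x₀)) r‖ ≤ (1 / 2 : ℝ) ^ j} :=
    fun j => measurableSet_le hAm measurable_const
  -- the measure of a layer
  have hlayer : ∀ j : ℕ, ν {x : E | ‖gs (Function.update f r (x - x₀)) r‖ ≤ (1 / 2 : ℝ) ^ j}
      ≤ ENNReal.ofReal ((2 / (1 / 2 : ℝ) ^ j) ^ r) * (K * ENNReal.ofReal ((2 * (1 / 2 : ℝ) ^ j) ^ a)) := by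
    intro j
    have hρ0 : (0:ℝ) < (1 / 2 : ℝ) ^ j := by positivity
    have hρ1 : (1 / 2 : ℝ) ^ j ≤ 1 := pow_le_one₀ (by norm_num) (by norm_num)
    have h1 := tube_bound hν W z hρ0 hρ1
    have h2 : ν {x : E | ‖gs (Function.update f r (x - x₀)) r‖ ≤ (1 / 2 : ℝ) ^ j}
        ≤ ν {x | ∃ m ∈ W, ‖m‖ ≤ 1 ∧ ‖x - z - m‖ ≤ (1 / 2 : ℝ) ^ j} := by
      refine measure_mono_ae ?_
      filter_upwards [hsupp] with x hx hx2
      exact residual_tube f r x₀ x hx hx2
    refine h2.trans (h1.trans ?_)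
    have h3 : (1:ℝ) ≤ 2 / (1 / 2 : ℝ) ^ j := by
      rw [one_le_div (by positivity)]
      linarith
    have h4 : ENNReal.ofReal ((2 / (1 / 2 : ℝ) ^ j) ^ Module.finrank ℝ W)
        ≤ ENNReal.ofReal ((2 / (1 / 2 : ℝ) ^ j) ^ r) :=
      ENNReal.ofReal_le_ofReal (pow_le_pow_right₀ h3 hWr)
    exact mul_le_mul' h4 le_rfl
  -- pointwise
  have hpt : ∀ x : E, (ENNReal.ofReal ‖gs (Function.update f r (x - x₀)) r‖)⁻¹ ^ k
      ≤ 1 + ∑' j : ℕ, ENNReal.ofReal ((2 / (1 / 2 : ℝ) ^ j) ^ k) *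
        {x : E | ‖gs (Function.update f r (x - x₀)) r‖ ≤ (1 / 2 : ℝ) ^ j}.indicator 1 x := by
    intro x
    refine (layer_cake k (norm_nonneg _)).trans (le_of_eq ?_)
    congr 1
  have hterm : ∀ j : ℕ, Measurable (fun x : E => ENNReal.ofReal ((2 / (1 / 2 : ℝ) ^ j) ^ k) *
      {x : E | ‖gs (Function.update f r (x - x₀)) r‖ ≤ (1 / 2 : ℝ) ^ j}.indicator 1 x) := fun j =>
    (measurable_one.indicator (hB j)).const_mul _
  calc ∫⁻ x, (ENNReal.ofReal ‖gs (Function.update f r (x - x₀)) r‖)⁻¹ ^ k ∂ν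
      ≤ ∫⁻ x, (1 + ∑' j : ℕ, ENNReal.ofReal ((2 / (1 / 2 : ℝ) ^ j) ^ k) *
        {x : E | ‖gs (Function.update f r (x - x₀)) r‖ ≤ (1 / 2 : ℝ) ^ j}.indicator 1 x) ∂ν :=
        lintegral_mono hpt
    _ = 1 + ∑' j : ℕ, ENNReal.ofReal ((2 / (1 / 2 : ℝ) ^ j) ^ k) *
          ν {x : E | ‖gs (Function.update f r (x - x₀)) r‖ ≤ (1 / 2 : ℝ) ^ j} := by
        rw [lintegral_add_left measurable_const, lintegral_const, measure_univ, mul_one,
          lintegral_tsum fun j => (hterm j).aemeasurable]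
        congr 1
        refine tsum_congr fun j => ?_
        rw [lintegral_const_mul _ (measurable_one.indicator (hB j)), lintegral_indicator_one (hB j)]
    _ ≤ 1 + ∑' j : ℕ, K * ENNReal.ofReal (2 ^ (2 * a - 1) * (1 / 2 : ℝ) ^ j) := by
        refine add_le_add le_rfl (ENNReal.tsum_le_tsum fun j => ?_)
        refine (mul_le_mul' le_rfl (hlayer j)).trans ?_
        have hx0 : (0:ℝ) < (1 / 2 : ℝ) ^ j := by positivity
        have hx1 : (1 / 2 : ℝ) ^ j ≤ 1 := pow_le_one₀ (by norm_num) (by norm_num)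
        have h3 := layer_arith h hx0 hx1
        calc ENNReal.ofReal ((2 / (1 / 2 : ℝ) ^ j) ^ k) * (ENNReal.ofReal ((2 / (1 / 2 : ℝ) ^ j) ^ r) *
              (K * ENNReal.ofReal ((2 * (1 / 2 : ℝ) ^ j) ^ a)))
            = K * (ENNReal.ofReal ((2 / (1 / 2 : ℝ) ^ j) ^ k) * ENNReal.ofReal ((2 / (1 / 2 : ℝ) ^ j) ^ r) *
              ENNReal.ofReal ((2 * (1 / 2 : ℝ) ^ j) ^ a)) := by ring
          _ = K * ENNReal.ofReal ((2 / (1 / 2 : ℝ) ^ j) ^ k * (2 / (1 / 2 : ℝ) ^ j) ^ r *
              (2 * (1 / 2 : ℝ) ^ j) ^ a) := by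
              rw [ENNReal.ofReal_mul (by positivity), ENNReal.ofReal_mul (by positivity)]
          _ ≤ _ := by
              gcongr
    _ = 1 + K * (ENNReal.ofReal (2 ^ (2 * a - 1)) * ∑' j : ℕ, ENNReal.ofReal ((1 / 2 : ℝ) ^ j)) := by
        rw [ENNReal.tsum_mul_left]
        congr 2
        rw [← ENNReal.tsum_mul_left]
        refine tsum_congr fun j => ?_
        rw [ENNReal.ofReal_mul (by positivity)]
    _ ≤ 1 + K * ENNReal.ofReal (2 ^ (2 * a)) := by
        have h4 : ∑' j : ℕ, ENNReal.ofReal ((1 / 2 : ℝ) ^ j) = 2 := by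
          have h5 : ∀ j : ℕ, ENNReal.ofReal ((1 / 2 : ℝ) ^ j) = (2⁻¹ : ℝ≥0∞) ^ j := by
            intro j
            rw [ENNReal.ofReal_pow (by norm_num)]
            congr 1
            rw [one_div, ENNReal.ofReal_inv_of_pos (by norm_num)]
            simp
          simp_rw [h5]
          rw [ENNReal.tsum_geometric]
          simp [ENNReal.one_sub_inv_two]
        rw [h4]
        have h6 : (ENNReal.ofReal (2 ^ (2 * a - 1)) * 2 : ℝ≥0∞) = ENNReal.ofReal (2 ^ (2 * a)) := by
          have h7 : (2:ℝ) ^ (2 * a) = 2 ^ (2 * a - 1) * 2 := by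
            rw [← pow_succ]
            congr 1
            omega
          rw [h7, ENNReal.ofReal_mul (by positivity)]
          simp
        rw [h6]

end residual

/-- The joint integrand of the energy. -/
noncomputable def blockE (k n : ℕ) (Y : Fin n → E) : ℝ≥0∞ :=
  ∏ i : Fin n, (ENNReal.ofReal ‖gs (ext Y) i‖)⁻¹ ^ k

lemma measurable_blockE (k n : ℕ) : Measurable (blockE (E := E) k n) := by
  unfold blockE
  refine Finset.measurable_prod _ fun i _ => ?_
  refine Measurable.pow_const ?_ _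
  refine Measurable.inv (ENNReal.measurable_ofReal.comp ?_)
  exact (measurable_gs (F := fun Y : Fin n → E => ext Y) (fun j => measurable_ext j) i).norm

omit [FiniteDimensional ℝ E] [MeasurableSpace E] [BorelSpace E] in
lemma blockE_snoc (k n : ℕ) (Y : Fin n → E) (x : E) :
    blockE k (n + 1) (Fin.snoc (α := fun _ => E) Y x)
      = blockE k n Y * (ENNReal.ofReal ‖gs (Function.update (ext Y) n x) n‖)⁻¹ ^ k := by
  have e1 : ∀ i : Fin n, gs (ext (Fin.snoc (α := fun _ => E) Y x)) (i : ℕ) = gs (ext Y) i := by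
    intro i
    refine gs_congr fun j hj => ?_
    have hjn : j < n := lt_of_le_of_lt hj i.2
    simp only [ext]
    rw [dif_pos (by omega), dif_pos hjn]
    have : (⟨j, by omega⟩ : Fin (n + 1)) = Fin.castSucc ⟨j, hjn⟩ := rfl
    rw [this, Fin.snoc_castSucc]
  have e2 : gs (ext (Fin.snoc (α := fun _ => E) Y x)) n = gs (Function.update (ext Y) n x) n := by
    refine gs_congr fun j hj => ?_
    rcases Nat.lt_or_ge j n with hjn | hjn
    · rw [Function.update_of_ne (by omega)]
      simp only [ext]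
      rw [dif_pos (by omega), dif_pos hjn]
      have : (⟨j, by omega⟩ : Fin (n + 1)) = Fin.castSucc ⟨j, hjn⟩ := rfl
      rw [this, Fin.snoc_castSucc]
    · have hj' : j = n := by omega
      subst hj'
      rw [Function.update_self]
      simp only [ext]
      rw [dif_pos (by omega)]
      have : (⟨j, by omega⟩ : Fin (j + 1)) = Fin.last j := rfl
      rw [this, Fin.snoc_last]
  rw [blockE, Fin.prod_univ_castSucc, blockE]
  simp only [Fin.val_castSucc, Fin.val_last, e1, e2]

/-- **The energy bound** for a measure with a ball bound. -/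
theorem energy_moment {ν : Measure E} [IsProbabilityMeasure ν] {K : ℝ≥0∞} {a : ℕ}
    (hν : ∀ x ρ, 0 < ρ → ν (Metric.closedBall x ρ) ≤ K * ENNReal.ofReal (ρ ^ a))
    (hsupp : ∀ᵐ v ∂ν, ‖v‖ ≤ 1) (x₀ : E) (k : ℕ) :
    ∀ n : ℕ, k + n ≤ a →
      ∫⁻ w, blockE k n (fun j => w j - x₀) ∂(Measure.pi fun _ : Fin n => ν)
        ≤ (1 + K * ENNReal.ofReal (2 ^ (2 * a))) ^ n := by
  intro n
  induction n with
  | zero =>
      intro _
      simp [blockE]
  | succ n ih =>
      intro hn
      have hmeas : ∀ m : ℕ, Measurable (fun w : Fin m → E => blockE k m (fun j => w j - x₀)) := by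
        intro m
        refine (measurable_blockE k m).comp ?_
        exact measurable_pi_lambda _ fun j => (measurable_pi_apply j).sub measurable_const
      have mp := (measurePreserving_piFinSuccAbove (fun _ : Fin (n + 1) => ν) (Fin.last n)).symm
      rw [← mp.lintegral_comp (hmeas (n + 1))]
      have hm2 : Measurable (fun p : E × (Fin n → E) =>
          blockE k (n + 1) (fun j => ((MeasurableEquiv.piFinSuccAbove (fun _ : Fin (n + 1) => E)
            (Fin.last n)).symm p) j - x₀)) :=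
        (hmeas (n + 1)).comp (MeasurableEquiv.measurable _)
      rw [lintegral_prod_symm' _ hm2]
      have h1 : ∀ (Y : Fin n → E) (x : E),
          blockE k (n + 1) (fun j => ((MeasurableEquiv.piFinSuccAbove (fun _ : Fin (n + 1) => E)
            (Fin.last n)).symm (x, Y)) j - x₀)
            = blockE k n (fun j => Y j - x₀) *
              (ENNReal.ofReal ‖gs (Function.update (ext (fun j => Y j - x₀)) n (x - x₀)) n‖)⁻¹ ^ k := by
        intro Y x
        have hY : (MeasurableEquiv.piFinSuccAbove (fun _ : Fin (n + 1) => E)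
            (Fin.last n)).symm (x, Y) = Fin.snoc Y x := by
          simp [MeasurableEquiv.piFinSuccAbove, Fin.insertNthEquiv]
        have hY2 : (fun j => (Fin.snoc (α := fun _ => E) Y x : Fin (n + 1) → E) j - x₀)
            = Fin.snoc (α := fun _ => E) (fun j => Y j - x₀) (x - x₀) := by
          funext j
          refine Fin.lastCases ?_ (fun i => ?_) j
          · simp
          · simp
        rw [hY, hY2, blockE_snoc]
      simp_rw [h1]
      have hrow : ∀ Y : Fin n → E, Measurable fun x : E =>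
          (ENNReal.ofReal ‖gs (Function.update (ext (fun j => Y j - x₀)) n (x - x₀)) n‖)⁻¹ ^ k := by
        intro Y
        refine Measurable.pow_const ?_ _
        refine Measurable.inv (ENNReal.measurable_ofReal.comp ?_)
        refine (measurable_gs (F := fun x => Function.update (ext (fun j => Y j - x₀)) n (x - x₀)) ?_ n).norm
        intro i
        by_cases hi : i = n
        · subst hi
          simp only [Function.update_self]
          exact measurable_id.sub measurable_const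
        · simp only [Function.update_of_ne hi]
          exact measurable_const
      simp_rw [lintegral_const_mul _ (hrow _)]
      calc ∫⁻ Y, blockE k n (fun j => Y j - x₀) * ∫⁻ x, (ENNReal.ofReal
              ‖gs (Function.update (ext (fun j => Y j - x₀)) n (x - x₀)) n‖)⁻¹ ^ k ∂ν
            ∂(Measure.pi fun _ : Fin n => ν)
          ≤ ∫⁻ Y, blockE k n (fun j => Y j - x₀) * (1 + K * ENNReal.ofReal (2 ^ (2 * a)))
            ∂(Measure.pi fun _ : Fin n => ν) := by
            refine lintegral_mono fun Y => ?_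
            gcongr
            exact residual_moment hν hsupp _ n x₀ (by omega)
        _ = (∫⁻ Y, blockE k n (fun j => Y j - x₀) ∂(Measure.pi fun _ : Fin n => ν)) *
              (1 + K * ENNReal.ofReal (2 ^ (2 * a))) :=
            lintegral_mul_const _ (hmeas n)
        _ ≤ (1 + K * ENNReal.ofReal (2 ^ (2 * a))) ^ n * (1 + K * ENNReal.ofReal (2 ^ (2 * a))) := by
            gcongr
            exact ih (by omega)
        _ = _ := (pow_succ _ _).symm

end Vale.Agent.Lib.P309
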