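import Vale.Agent.Lib.P309.Model

open MeasureTheory ProbabilityTheory Real Set Filter Topology
open scoped ENNReal Nat RealInnerProductSpace

namespace Vale.Agent.Lib.P309

section sums

variable {E : Type*} [NormedAddCommGroup E] [InnerProductSpace ℝ E] [FiniteDimensional ℝ E]
  [MeasurableSpace E] [BorelSpace E] {𝓐 : Type*} [Fintype 𝓐] [DecidableEq 𝓐]

/-- The state law has total mass one. -/
lemma sum_Fl {Q : ℕ → 𝓐 → 𝓐 → E → ℝ → ℝ≥0∞}
    (hQ : ∀ n a a', Measurable fun p : E × ℝ => Q n a a' p.1 p.2)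
    (hQ1 : ∀ n a x y, ∑ a', Q n a a' x y = 1) {ι₀ : 𝓐 → ℝ≥0∞} (hι : ∑ a, ι₀ a = 1) (s : E) :
    ∀ n, ∑ a, Fl Q ι₀ s n a = 1 := by
  intro n
  induction n with
  | zero => simpa [Fl] using hι
  | succ n ih =>
      simp only [Fl]
      rw [Finset.sum_comm]
      have h1 : ∀ a, ∑ a', Fl Q ι₀ s n a * ∫⁻ x, Q n a a' x ⟪x, s⟫ ∂(stdGaussian E) = Fl Q ι₀ s n a := by
        intro a
        rw [← Finset.mul_sum]
        have hm : ∀ a', Measurable (fun x : E => Q n a a' x ⟪x, s⟫) := fun a' =>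
          (hQ n a a').comp (measurable_id.prodMk (measurable_id.inner measurable_const))
        rw [← lintegral_finsetSum _ fun a' _ => hm a']
        simp_rw [hQ1]
        simp
      simp_rw [h1]
      exact ih

end sums

namespace Learner

variable {d M : ℕ} (L : Learner d M) (T : ℕ)

/-- Padded transition rule of the learner, on states with a stop flag. -/
noncomputable def Qm (n : ℕ) (a a' : Fin (2 ^ M) × Bool) (x : Rd d) (y : ℝ) : ℝ≥0∞ :=
  if n < T ∧ a.2 = false then L.step n a.1 x y a' else if a = a' then 1 else 0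

/-- Initial law on states with a stop flag. -/
noncomputable def ι0 (a : Fin (2 ^ M) × Bool) : ℝ≥0∞ := if a.2 then 0 else L.init a.1

lemma Qm_meas (n : ℕ) (a a' : Fin (2 ^ M) × Bool) :
    Measurable fun p : Rd d × ℝ => L.Qm T n a a' p.1 p.2 := by
  unfold Qm
  by_cases h : n < T ∧ a.2 = false
  · simp only [h, and_self, if_true]
    exact L.step_meas n a.1 a'
  · simp only [h, if_false]
    exact measurable_const

lemma Qm_sum (n : ℕ) (a : Fin (2 ^ M) × Bool) (x : Rd d) (y : ℝ) :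
    ∑ a', L.Qm T n a a' x y = 1 := by
  unfold Qm
  by_cases h : n < T ∧ a.2 = false
  · simp only [h, and_self, if_true]
    have := (L.step n a.1 x y).tsum_coe
    rwa [tsum_fintype] at this
  · simp only [h, if_false]
    simp

lemma ι0_sum : ∑ a, L.ι0 a = 1 := by
  rw [Fintype.sum_prod_type]
  simp only [ι0, Fintype.sum_bool, if_true, Bool.false_eq_true, if_false, zero_add]
  have := L.init.tsum_coe
  rwa [tsum_fintype] at this

variable (s : Rd d)

lemma Fl_eq_stateLaw : ∀ n, n ≤ T → ∀ a, Fl (L.Qm T) L.ι0 s n a = L.stateLaw s n a := by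
  intro n
  induction n with
  | zero =>
      intro _ a
      obtain ⟨m, b⟩ := a
      simp [Fl, ι0, stateLaw]
  | succ n ih =>
      intro hn a'
      obtain ⟨m', b'⟩ := a'
      have hnT : n < T := by omega
      have h1 : ∀ m, ∫⁻ x, L.Qm T n (m, true) (m', b') x ⟪x, s⟫ ∂(stdGaussian (Rd d))
          = if m = m' ∧ b' = true then 1 else 0 := by
        intro m
        simp only [Qm, Bool.true_eq_false, and_false, if_false, Prod.mk.injEq]
        by_cases hm : m = m' ∧ true = b'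
        · obtain ⟨rfl, rfl⟩ := hm
          simp
        · have hm' : ¬ (m = m' ∧ b' = true) := fun h => hm ⟨h.1, h.2.symm⟩
          simp only [hm, hm', if_false]
          simp
      have h2 : ∀ m, ∫⁻ x, L.Qm T n (m, false) (m', b') x ⟪x, s⟫ ∂(stdGaussian (Rd d))
          = ∫⁻ x, L.step n m x ⟪x, s⟫ (m', b') ∂(stdGaussian (Rd d)) := by
        intro m
        simp [Qm, hnT]
      simp only [Fl]
      rw [Fintype.sum_prod_type]
      simp only [Fintype.sum_bool, h1, h2, stateLaw]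
      rw [Finset.sum_add_distrib]
      congr 1
      · cases b' with
        | true =>
            simp only [and_true]
            rw [Finset.sum_eq_single m']
            · simp [ih (by omega)]
            · intro m _ hm
              simp [hm]
            · simp
        | false => simp
      · refine Finset.sum_congr rfl fun m _ => ?_
        rw [ih (by omega)]

lemma Fl_step_ge {n : ℕ} (hn : T ≤ n) (a' : Fin (2 ^ M) × Bool) :
    Fl (L.Qm T) L.ι0 s (n + 1) a' = Fl (L.Qm T) L.ι0 s n a' := by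
  have h0 : ¬ n < T := by omega
  simp only [Fl, Qm, h0, false_and, if_false]
  have h1 : ∀ a : Fin (2 ^ M) × Bool, ∫⁻ _x : Rd d, (if a = a' then (1:ℝ≥0∞) else 0) ∂(stdGaussian (Rd d))
      = if a = a' then 1 else 0 := by
    intro a
    simp
  simp_rw [h1]
  simp

lemma Fl_ge {n : ℕ} (hn : T ≤ n) (a' : Fin (2 ^ M) × Bool) :
    Fl (L.Qm T) L.ι0 s n a' = L.stateLaw s T a' := by
  induction n, hn using Nat.le_induction with
  | base => exact L.Fl_eq_stateLaw T s T le_rfl a'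
  | succ n hn ih => rw [L.Fl_step_ge T s hn, ih]

lemma stateLaw_le_one (a : Fin (2 ^ M) × Bool) : L.stateLaw s T a ≤ 1 := by
  rw [← L.Fl_eq_stateLaw T s T le_rfl a]
  have h1 := sum_Fl (L.Qm_meas T) (L.Qm_sum T) L.ι0_sum s T
  rw [← h1]
  exact Finset.single_le_sum (f := fun a => Fl (L.Qm T) L.ι0 s T a) (fun _ _ => bot_le)
    (Finset.mem_univ a)

/-- The test function for the success event. -/
noncomputable def W (ε : ℝ) (a : Fin (2 ^ M) × Bool) (s : Sph d) : ℝ≥0∞ :=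
  L.out a.1 {h | Real.arccos ⟪(h : Rd d), (s : Rd d)⟫ ≤ ε}

lemma measurableSet_capPair (ε : ℝ) :
    MeasurableSet {p : Sph d × Sph d | Real.arccos ⟪(p.2 : Rd d), (p.1 : Rd d)⟫ ≤ ε} := by
  refine measurableSet_le ?_ measurable_const
  refine Real.continuous_arccos.measurable.comp ?_
  exact (measurable_subtype_coe.comp measurable_snd).inner
    (measurable_subtype_coe.comp measurable_fst)

lemma W_meas (ε : ℝ) (a : Fin (2 ^ M) × Bool) : Measurable (L.W ε a) := by
  have := L.out_prob a.1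
  exact measurable_measure_prodMk_left (measurableSet_capPair ε)

lemma W_le_one (ε : ℝ) (a : Fin (2 ^ M) × Bool) (s : Sph d) : L.W ε a s ≤ 1 := by
  have := L.out_prob a.1
  exact prob_le_one

/-- The test functions have small integrals. -/
lemma W_int_le {t n : ℕ} (hd : d = 2 * t + n) (hn : 2 ≤ n) {ε : ℝ} (hε0 : 0 < ε) (hε1 : ε ≤ 1)
    (a : Fin (2 ^ M) × Bool) :
    ∫⁻ s, L.W ε a s ∂(unifSphere d)
      ≤ ENNReal.ofReal (((2 * π)⁻¹) ^ t) * Mom n t * volume {u : Fin (2 * t) → ℝ | sq u ≤ ε ^ 2} := by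
  have hd0 : 0 < d := by omega
  have := L.out_prob a.1
  have := unifSphere_prob hd0
  have hfr : Module.finrank ℝ (Rd d) = 2 * t + n := by simpa using hd
  have h1 : ∫⁻ s, L.W ε a s ∂(unifSphere d)
      = (unifSphere d).prod (L.out a.1) {p : Sph d × Sph d | Real.arccos ⟪(p.2 : Rd d), (p.1 : Rd d)⟫ ≤ ε} := by
    rw [Measure.prod_apply (measurableSet_capPair ε)]
    rfl
  rw [h1, Measure.prod_apply_symm (measurableSet_capPair ε)]
  have h2 : ∀ h : Sph d, (unifSphere d) ((fun s => (s, h)) ⁻¹'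
      {p : Sph d × Sph d | Real.arccos ⟪(p.2 : Rd d), (p.1 : Rd d)⟫ ≤ ε})
      ≤ ENNReal.ofReal (((2 * π)⁻¹) ^ t) * Mom n t * volume {u : Fin (2 * t) → ℝ | sq u ≤ ε ^ 2} := by
    intro h
    have hh : ‖(h : Rd d)‖ = 1 := by simpa using h.2
    have hc := cap_bound (E := Rd d) hfr hn hh hε0 hε1
    refine le_trans (le_of_eq ?_) hc
    have hS : MeasurableSet {v : Rd d | arccos ⟪v, (h : Rd d)⟫ ≤ ε} := by
      refine measurableSet_le ?_ measurable_const
      exact Real.continuous_arccos.measurable.comp (measurable_id.inner measurable_const)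
    have hf : Measurable ({v : Rd d | arccos ⟪v, (h : Rd d)⟫ ≤ ε}.indicator (1 : Rd d → ℝ≥0∞)) :=
      measurable_one.indicator hS
    rw [← lintegral_unifSphere hd0 hf]
    have hS2 : MeasurableSet ((fun s : Sph d => (s, h)) ⁻¹'
        {p : Sph d × Sph d | Real.arccos ⟪(p.2 : Rd d), (p.1 : Rd d)⟫ ≤ ε}) :=
      (measurable_id.prodMk measurable_const) (measurableSet_capPair ε)
    rw [← lintegral_indicator_one hS2]
    refine lintegral_congr fun s => ?_
    by_cases hs : Real.arccos ⟪(h : Rd d), (s : Rd d)⟫ ≤ ε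
    · rw [Set.indicator_of_mem (show s ∈ (fun s : Sph d => (s, h)) ⁻¹'
        {p : Sph d × Sph d | Real.arccos ⟪(p.2 : Rd d), (p.1 : Rd d)⟫ ≤ ε} from hs),
        Set.indicator_of_mem (show (s : Rd d) ∈ {v : Rd d | arccos ⟪v, (h : Rd d)⟫ ≤ ε} by
          show arccos ⟪(s : Rd d), (h : Rd d)⟫ ≤ ε
          rwa [real_inner_comm])]
      rfl
    · rw [Set.indicator_of_notMem (show s ∉ (fun s : Sph d => (s, h)) ⁻¹'
        {p : Sph d × Sph d | Real.arccos ⟪(p.2 : Rd d), (p.1 : Rd d)⟫ ≤ ε} from hs),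
        Set.indicator_of_notMem (show (s : Rd d) ∉ {v : Rd d | arccos ⟪v, (h : Rd d)⟫ ≤ ε} by
          show ¬ arccos ⟪(s : Rd d), (h : Rd d)⟫ ≤ ε
          rwa [real_inner_comm])]
  calc ∫⁻ h, (unifSphere d) ((fun s => (s, h)) ⁻¹'
        {p : Sph d × Sph d | Real.arccos ⟪(p.2 : Rd d), (p.1 : Rd d)⟫ ≤ ε}) ∂(L.out a.1)
      ≤ ∫⁻ _, ENNReal.ofReal (((2 * π)⁻¹) ^ t) * Mom n t * volume {u : Fin (2 * t) → ℝ | sq u ≤ ε ^ 2}
        ∂(L.out a.1) := lintegral_mono h2
    _ = _ := by simp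

/-- **The bound on the success probability.** -/
theorem success_le {t n t₂ n₂ : ℕ} (ht : 1 < t) (hd : d = 2 * t + n) (hn : 2 * t + 1 ≤ n)
    (hd₂ : d = 2 * t₂ + n₂) (hn₂ : 2 ≤ n₂) {ε : ℝ} (hε0 : 0 < ε) (hε1 : ε ≤ 1)
    {A δ : ℝ≥0∞} (hA0 : A ≠ 0) (hAT : A ≠ ∞)
    (hA : C2 t n * (2 ^ (M + 1) : ℝ≥0∞) ^ (1 / (t:ℝ)) ≤ δ * A) {J : ℕ} (hJ : T ≤ J * t) :
    L.success T ε ≤ Lam A J * (ENNReal.ofReal (((2 * π)⁻¹) ^ t₂) * Mom n₂ t₂ *
        volume {u : Fin (2 * t₂) → ℝ | sq u ≤ ε ^ 2}) +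
      J * (ENNReal.ofReal (exp (-t) * (√2) ^ t) + δ) := by
  have hd0 : 0 < d := by omega
  have hcard : (Fintype.card (Fin (2 ^ M) × Bool) : ℝ≥0∞) = 2 ^ (M + 1) := by
    simp [pow_succ]
  have h1 := model_chain (L.Qm_meas T) (L.Qm_sum T) ht hd hn L.ι0_sum hA0 hAT
    (by rw [hcard]; exact hA) J
  have := unifSphere_prob hd0
  have h2 := h1.final (w := L.W ε) (L.W_meas ε) (L.W_le_one ε)
    (fun a => L.W_int_le hd₂ hn₂ hε0 hε1 a)
  refine le_trans (le_of_eq ?_) h2
  unfold success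
  refine lintegral_congr fun s => ?_
  refine Finset.sum_congr rfl fun a _ => ?_
  rw [L.Fl_ge T (s : Rd d) hJ a]
  rfl

/-- The counting bound on the success probability. -/
theorem success_le_count {t₂ n₂ : ℕ} (hd₂ : d = 2 * t₂ + n₂) (hn₂ : 2 ≤ n₂) {ε : ℝ} (hε0 : 0 < ε)
    (hε1 : ε ≤ 1) :
    L.success T ε ≤ 2 ^ (M + 1) * (ENNReal.ofReal (((2 * π)⁻¹) ^ t₂) * Mom n₂ t₂ *
        volume {u : Fin (2 * t₂) → ℝ | sq u ≤ ε ^ 2}) := by
  have hcard : (Fintype.card (Fin (2 ^ M) × Bool) : ℝ≥0∞) = 2 ^ (M + 1) := by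
    simp [pow_succ]
  unfold success
  calc ∫⁻ s : Sph d, ∑ a, L.stateLaw s T a * L.out a.1 {h | Real.arccos ⟪(h : Rd d), (s : Rd d)⟫ ≤ ε}
        ∂(unifSphere d)
      ≤ ∫⁻ s, ∑ a, L.W ε a s ∂(unifSphere d) := by
        refine lintegral_mono fun s => Finset.sum_le_sum fun a _ => ?_
        calc L.stateLaw s T a * L.W ε a s ≤ 1 * L.W ε a s := by
              gcongr
              exact L.stateLaw_le_one T s a
          _ = L.W ε a s := one_mul _
    _ = ∑ a, ∫⁻ s, L.W ε a s ∂(unifSphere d) := by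
        rw [lintegral_finsetSum _ fun a _ => L.W_meas ε a]
    _ ≤ ∑ _a : Fin (2 ^ M) × Bool, (ENNReal.ofReal (((2 * π)⁻¹) ^ t₂) * Mom n₂ t₂ *
        volume {u : Fin (2 * t₂) → ℝ | sq u ≤ ε ^ 2}) :=
        Finset.sum_le_sum fun a _ => L.W_int_le hd₂ hn₂ hε0 hε1 a
    _ = _ := by
        rw [Finset.sum_const, nsmul_eq_mul, Finset.card_univ, hcard]

end Learner

end Vale.Agent.Lib.P309
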