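import Vale.Agent.Lib.P309.Level
import Vale.Agent.Lib.P309.LearnerChain

open MeasureTheory ProbabilityTheory Real Set Filter Topology
open scoped ENNReal Nat RealInnerProductSpace

namespace Vale.Agent.Lib.P309

variable {d : ℕ}

/-- A point at small angle from a point of the sphere is close to it. -/
lemma cap_dist {h s : Sph d} {ε : ℝ} (hcap : arccos ⟪(h : Rd d), (s : Rd d)⟫ ≤ ε) (hε : 0 < ε) :
    ‖(s : Rd d) - (h : Rd d)‖ ≤ ε := by
  set c := ⟪(h : Rd d), (s : Rd d)⟫ with hc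
  have hh : ‖(h : Rd d)‖ = 1 := by simp
  have hs : ‖(s : Rd d)‖ = 1 := by simp
  have hcabs : |c| ≤ 1 := by
    have := abs_real_inner_le_norm (h : Rd d) (s : Rd d)
    rwa [hh, hs, mul_one] at this
  have hc1 : -1 ≤ c := (abs_le.1 hcabs).1
  have hc2 : c ≤ 1 := (abs_le.1 hcabs).2
  have h1 : 1 - (arccos c) ^ 2 / 2 ≤ c := by
    have := Real.one_sub_sq_div_two_le_cos (x := arccos c)
    rwa [Real.cos_arccos hc1 hc2] at this
  have h2 : ‖(s : Rd d) - (h : Rd d)‖ ^ 2 = 2 - 2 * c := by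
    rw [← real_inner_self_eq_norm_sq, inner_sub_left, inner_sub_right, inner_sub_right,
      real_inner_self_eq_norm_sq, real_inner_self_eq_norm_sq, hh, hs, real_inner_comm (h : Rd d) (s : Rd d)]
    ring
  have h3 : 0 ≤ arccos c := Real.arccos_nonneg c
  have h4 : (arccos c) ^ 2 ≤ ε ^ 2 := by gcongr
  have h5 : ‖(s : Rd d) - (h : Rd d)‖ ^ 2 ≤ ε ^ 2 := by
    rw [h2]
    linarith
  exact le_of_sq_le_sq h5 hε.le |>.trans le_rfl

section final

variable {a : ℕ} {Q : ℝ≥0∞} {G : Sph d → ℝ≥0∞} {c : Rd d} {r : ℝ} {g : ℝ≥0∞}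

/-- The mass of the success event at a node. -/
lemma node_final (hd0 : 0 < d) (hn : IsNode a Q G c r g) (O : Measure (Sph d)) [IsProbabilityMeasure O]
    {ε : ℝ} (hε : 0 < ε) :
    ∫⁻ s, G s * O {h | arccos ⟪(h : Rd d), (s : Rd d)⟫ ≤ ε} ∂(unifSphere d)
      ≤ 2 * ENNReal.ofReal ((ε / r) ^ a) * ∫⁻ s, G s ∂(unifSphere d) := by
  have hcap := Learner.measurableSet_capPair (d := d) ε
  have hfinM : IsFiniteMeasure ((unifSphere d).withDensity G) :=
    isFiniteMeasure_withDensity (hn.mass_ne_top hd0)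
  have hW : Measurable (fun s : Sph d => O {h | arccos ⟪(h : Rd d), (s : Rd d)⟫ ≤ ε}) :=
    measurable_measure_prodMk_left hcap
  have h1 := lintegral_withDensity_eq_lintegral_mul (unifSphere d) hn.meas hW
  simp only [Pi.mul_apply] at h1
  rw [← h1]
  have h2 : ∫⁻ s, O {h | arccos ⟪(h : Rd d), (s : Rd d)⟫ ≤ ε} ∂((unifSphere d).withDensity G)
      = ((unifSphere d).withDensity G).prod O
          {p : Sph d × Sph d | arccos ⟪(p.2 : Rd d), (p.1 : Rd d)⟫ ≤ ε} := by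
    rw [Measure.prod_apply hcap]
    rfl
  rw [h2, Measure.prod_apply_symm hcap]
  have h3 : ∀ h : Sph d, ((unifSphere d).withDensity G) ((fun s => (s, h)) ⁻¹'
      {p : Sph d × Sph d | arccos ⟪(p.2 : Rd d), (p.1 : Rd d)⟫ ≤ ε})
      ≤ 2 * ENNReal.ofReal ((ε / r) ^ a) * ∫⁻ s, G s ∂(unifSphere d) := by
    intro h
    have hS2 : MeasurableSet ((fun s : Sph d => (s, h)) ⁻¹'
        {p : Sph d × Sph d | arccos ⟪(p.2 : Rd d), (p.1 : Rd d)⟫ ≤ ε}) :=
      (measurable_id.prodMk measurable_const) hcap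
    rw [withDensity_apply _ hS2]
    refine le_trans (lintegral_mono_set ?_) (hn.frost (h : Rd d) ε hε)
    intro s hs
    exact cap_dist hs hε
  calc ∫⁻ h, ((unifSphere d).withDensity G) ((fun s => (s, h)) ⁻¹'
        {p : Sph d × Sph d | arccos ⟪(p.2 : Rd d), (p.1 : Rd d)⟫ ≤ ε}) ∂O
      ≤ ∫⁻ _, 2 * ENNReal.ofReal ((ε / r) ^ a) * ∫⁻ s, G s ∂(unifSphere d) ∂O := lintegral_mono h3
    _ = _ := by simp

/-- The lower bound for the radius of a node. -/
lemma node_radius {t₂ n₂ : ℕ} (ht₂ : 0 < t₂) (hd : d = 2 * t₂ + n₂) (hn2 : 2 ≤ n₂) (hn3 : n₂ ≤ 3)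
    (ha : a < 2 * t₂) (hn : IsNode a Q G c r g) :
    1 ≤ Q * ENNReal.ofReal (3 * 6 ^ t₂) * ENNReal.ofReal (r ^ (2 * t₂ - a)) := by
  have hr := hn.r_pos
  have h1 : ∫⁻ s, G s ∂(unifSphere d) ≤ g * ENNReal.ofReal (3 * (6 * r ^ 2) ^ t₂) := by
    have h2 := mass_ball_le (G := G) (g := g) ht₂ hd hn2 hn3 hn.bound Set.univ c hr
    have h3 := inter_support (G := G) hn.supp (A := Set.univ) MeasurableSet.univ
    simp only [Measure.restrict_univ] at h3
    rwa [h3] at h2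
  have hg0 : g ≠ 0 := by
    intro h0
    rw [h0, zero_mul] at h1
    exact hn.mass_ne (le_antisymm h1 bot_le)
  have hx0 : ENNReal.ofReal (r ^ a) ≠ 0 := by simpa using by positivity
  have hx : g * ENNReal.ofReal (r ^ a) ≠ 0 := mul_ne_zero hg0 hx0
  have hxT : g * ENNReal.ofReal (r ^ a) ≠ ∞ := ENNReal.mul_ne_top hn.g_ne ENNReal.ofReal_ne_top
  have h4 : (g * ENNReal.ofReal (r ^ a)) * 1
      ≤ (g * ENNReal.ofReal (r ^ a)) *
        (Q * ENNReal.ofReal (3 * 6 ^ t₂) * ENNReal.ofReal (r ^ (2 * t₂ - a))) := by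
    rw [mul_one]
    refine hn.ratio.trans ?_
    calc Q * ∫⁻ s, G s ∂(unifSphere d) ≤ Q * (g * ENNReal.ofReal (3 * (6 * r ^ 2) ^ t₂)) := by gcongr
      _ = _ := by
        have e : ENNReal.ofReal (3 * (6 * r ^ 2) ^ t₂) = ENNReal.ofReal (3 * 6 ^ t₂) *
            ENNReal.ofReal (r ^ a) * ENNReal.ofReal (r ^ (2 * t₂ - a)) := by
          rw [ball_pow_split ha hr, pow_add, ← mul_assoc, ENNReal.ofReal_mul (by positivity),
            ENNReal.ofReal_mul (p := 3 * 6 ^ t₂) (by positivity)]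
        rw [e]
        ring
  exact (ENNReal.mul_le_mul_iff_right hx hxT).1 h4

/-- The mass of the success event at a finite sum of nodes. -/
lemma sum_final {t₂ n₂ : ℕ} (ht₂ : 0 < t₂) (hd : d = 2 * t₂ + n₂) (hn2 : 2 ≤ n₂) (hn3 : n₂ ≤ 3)
    (ha : a < 2 * t₂) {S : Sph d → ℝ≥0∞} (hS : SumGood a Q S) (O : Measure (Sph d))
    [IsProbabilityMeasure O] {ε : ℝ} (hε : 0 < ε)
    (hsmall : Q * ENNReal.ofReal (3 * 6 ^ t₂) * ENNReal.ofReal ((2 * ε) ^ (2 * t₂ - a)) < 1) :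
    ∫⁻ s, S s * O {h | arccos ⟪(h : Rd d), (s : Rd d)⟫ ≤ ε} ∂(unifSphere d)
      ≤ 2 * ENNReal.ofReal ((1 / 2) ^ a) * ∫⁻ s, S s ∂(unifSphere d) := by
  have hW : Measurable (fun s : Sph d => O {h | arccos ⟪(h : Rd d), (s : Rd d)⟫ ≤ ε}) :=
    measurable_measure_prodMk_left (Learner.measurableSet_capPair (d := d) ε)
  induction hS with
  | zero => simp
  | @add G S' hG hS' ih =>
      obtain ⟨c, r, g, hn⟩ := hG
      have hr := hn.r_pos
      have he : 0 < 2 * t₂ - a := by omega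
      have hrad := node_radius ht₂ hd hn2 hn3 ha hn
      -- comparison of the radii
      have hlt : 2 * ε < r := by
        by_contra hcon
        push Not at hcon
        have h1 : ENNReal.ofReal (r ^ (2 * t₂ - a)) ≤ ENNReal.ofReal ((2 * ε) ^ (2 * t₂ - a)) := by
          apply ENNReal.ofReal_le_ofReal
          gcongr
        have h2 := hrad.trans (mul_le_mul' (le_refl (Q * ENNReal.ofReal (3 * 6 ^ t₂))) h1)
        exact absurd hsmall (not_lt.2 h2)
      have h3 : ENNReal.ofReal ((ε / r) ^ a) ≤ ENNReal.ofReal ((1 / 2) ^ a) := by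
        apply ENNReal.ofReal_le_ofReal
        have h5 : ε / r ≤ 1 / 2 := by
          rw [div_le_div_iff₀ hr (by norm_num)]
          linarith
        exact pow_le_pow_left₀ (by positivity) h5 a
      have h4 := node_final (by omega) hn O hε
      have e1 : ∫⁻ s, (G + S') s * O {h | arccos ⟪(h : Rd d), (s : Rd d)⟫ ≤ ε} ∂(unifSphere d)
          = ∫⁻ s, G s * O {h | arccos ⟪(h : Rd d), (s : Rd d)⟫ ≤ ε} ∂(unifSphere d) +
            ∫⁻ s, S' s * O {h | arccos ⟪(h : Rd d), (s : Rd d)⟫ ≤ ε} ∂(unifSphere d) := by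
        simp only [Pi.add_apply, add_mul]
        exact lintegral_add_left (hn.meas.mul hW) _
      have e2 : ∫⁻ s, (G + S') s ∂(unifSphere d)
          = ∫⁻ s, G s ∂(unifSphere d) + ∫⁻ s, S' s ∂(unifSphere d) := lintegral_add_left hn.meas _
      rw [e1, e2, mul_add]
      refine add_le_add (h4.trans ?_) ih
      gcongr

end final

namespace Learner

variable {M : ℕ} (L : Learner d M) (T : ℕ)

/-- The success probability, from a level. -/
theorem success_le_level {t₂ n₂ a t J : ℕ} (ht₂ : 0 < t₂) (hd : d = 2 * t₂ + n₂) (hn2 : 2 ≤ n₂)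
    (hn3 : n₂ ≤ 3) (ha : a < 2 * t₂) (hJ : T ≤ J * t) {Q err : ℝ≥0∞}
    (hlev : LevelInv a Q err (fun b (s : Sph d) => Fl (L.Qm T) L.ι0 (s : Rd d) (J * t) b)) {ε : ℝ}
    (hε : 0 < ε)
    (hsmall : Q * ENNReal.ofReal (3 * 6 ^ t₂) * ENNReal.ofReal ((2 * ε) ^ (2 * t₂ - a)) < 1) :
    L.success T ε ≤ 2 * ENNReal.ofReal ((1 / 2) ^ a) + err := by
  have hd0 : 0 < d := by omega
  have hpr := unifSphere_prob hd0
  obtain ⟨S, E, h1', h2, h3, h4⟩ := hlev
  have h1 : ∀ (b : Fin (2 ^ M) × Bool) (s : Sph d), Fl (L.Qm T) L.ι0 (s : Rd d) (J * t) b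
      = S b s + E b s := h1'
  have hout := L.out_prob
  have hW : ∀ b, Measurable (L.W ε b) := L.W_meas ε
  unfold success
  have h5 : ∀ (s : Sph d) (b : Fin (2 ^ M) × Bool), L.stateLaw s T b *
      L.out b.1 {h | arccos ⟪(h : Rd d), (s : Rd d)⟫ ≤ ε}
      ≤ S b s * L.W ε b s + E b s := by
    intro s b
    rw [← L.Fl_ge T (s : Rd d) hJ b, h1 b s, add_mul]
    refine add_le_add le_rfl ?_
    calc E b s * L.W ε b s ≤ E b s * 1 := by
          gcongr
          exact L.W_le_one ε b s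
      _ = E b s := mul_one _
  have hSb : ∀ b, Measurable (S b) := fun b => (h2 b).measurable
  have hSW : ∀ b, Measurable (fun s => S b s * L.W ε b s) := fun b => (hSb b).mul (hW b)
  calc ∫⁻ s, ∑ b, L.stateLaw s T b * L.out b.1 {h | arccos ⟪(h : Rd d), (s : Rd d)⟫ ≤ ε} ∂(unifSphere d)
      ≤ ∫⁻ s, ∑ b, (S b s * L.W ε b s + E b s) ∂(unifSphere d) :=
        lintegral_mono fun s => Finset.sum_le_sum fun b _ => h5 s b
    _ = ∑ b, ∫⁻ s, S b s * L.W ε b s ∂(unifSphere d) + ∑ b, ∫⁻ s, E b s ∂(unifSphere d) := by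
        have hm : ∀ b, Measurable (fun s => S b s * L.W ε b s + E b s) := fun b => (hSW b).add (h3 b)
        rw [lintegral_finsetSum _ fun b _ => hm b, ← Finset.sum_add_distrib]
        refine Finset.sum_congr rfl fun b _ => ?_
        exact lintegral_add_left (hSW b) _
    _ ≤ ∑ b, 2 * ENNReal.ofReal ((1 / 2) ^ a) * ∫⁻ s, S b s ∂(unifSphere d) + err := by
        refine add_le_add (Finset.sum_le_sum fun b _ => ?_) h4
        exact sum_final ht₂ hd hn2 hn3 ha (h2 b) (L.out b.1) hε hsmall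
    _ ≤ _ := by
        rw [← Finset.mul_sum]
        refine add_le_add ?_ le_rfl
        calc 2 * ENNReal.ofReal ((1 / 2) ^ a) * ∑ b, ∫⁻ s, S b s ∂(unifSphere d)
            ≤ 2 * ENNReal.ofReal ((1 / 2) ^ a) * 1 := by
              gcongr
              rw [← lintegral_finsetSum _ fun b _ => hSb b]
              have h6 := sum_Fl (E := Rd d) (L.Qm_meas T) (L.Qm_sum T) L.ι0_sum
              calc ∫⁻ s, ∑ b, S b s ∂(unifSphere d) ≤ ∫⁻ _, 1 ∂(unifSphere d) := by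
                    refine lintegral_mono fun s => ?_
                    rw [← h6 (s : Rd d) (J * t)]
                    refine Finset.sum_le_sum fun b _ => ?_
                    rw [h1]
                    exact le_self_add
                _ = 1 := by simp
          _ = _ := mul_one _

end Learner

/-- The sequence of ratios of the levels. -/
noncomputable def Qs (δ τ : ℝ≥0∞) : ℕ → ℝ≥0∞
  | 0 => 2 / δ
  | J + 1 => (2 / δ) * ((τ / δ) * Qs δ τ J)

section chain2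

variable {𝓐 : Type*} [Fintype 𝓐] [DecidableEq 𝓐] {Qk : ℕ → 𝓐 → 𝓐 → Rd d → ℝ → ℝ≥0∞}

/-- The chain of levels of a Markov model. -/
theorem level_chain [NeZero d] {t₂ n₂ a t p n n' : ℕ} (ht₂ : 0 < t₂) (hd₂ : d = 2 * t₂ + n₂)
    (hn2 : 2 ≤ n₂) (hn3 : n₂ ≤ 3) (ha : a < 2 * t₂) (ht : 0 < t) (hd' : d = 2 * t + n')
    (hn' : 2 * t + 1 ≤ n') (hp : 1 < p) (hd : d = p + n) (hka : 2 * t + p ≤ a)
    (hQ : ∀ n a a', Measurable fun q : Rd d × ℝ => Qk n a a' q.1 q.2)
    (hQ1 : ∀ n a x y, ∑ a', Qk n a a' x y = 1) {ι₀ : 𝓐 → ℝ≥0∞} (hι : ∑ a, ι₀ a = 1)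
    {τ δ : ℝ≥0∞} (hτ0 : τ ≠ 0) (hτT : τ ≠ ∞) (hδ0 : δ ≠ 0) (hδT : δ ≠ ∞)
    (hτ : (CGL 2 a p * ENNReal.ofReal (Vt t) ^ (2 - alp p)) * (Fintype.card 𝓐 : ℝ≥0∞) ^ alp p ≤ δ * τ) :
    ∀ J : ℕ, LevelInv a (Qs δ τ J) (δ + J * (ENNReal.ofReal (exp (-t) * (√2) ^ t) + 3 * δ))
      (fun b (s : Sph d) => Fl Qk ι₀ (s : Rd d) (J * t) b) := by
  intro J
  induction J with
  | zero =>
      simp only [Nat.cast_zero, zero_mul, add_zero]
      exact level_init ht₂ hd₂ hn2 hn3 ha hι hδ0 hδT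
  | succ J ih =>
      have h1 := level_step (Φ := fun b a' => Phi Qk t (J * t) b a') ht₂ hd₂ hn2 hn3 ha ht hd' hn' hp hd hka
        (fun b a' => measurable_Phi hQ t (J * t) b a') (fun b X y => sum_Phi hQ1 t (J * t) b X y)
        ih (fun s => sum_Fl hQ hQ1 hι (s : Rd d) (J * t)) hτ0 hτT hδ0 hδT hτ
      have e1 : (fun b (s : Sph d) => Fl Qk ι₀ (s : Rd d) ((J + 1) * t) b)
          = fun a' (s : Sph d) => ∑ b, Fl Qk ι₀ (s : Rd d) (J * t) b *
              Kf ((fun b a' => Phi Qk t (J * t) b a') b) a' (s : Rd d) := by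
        funext a' s
        have e : (J + 1) * t = J * t + t := by ring
        rw [e, Fl_add hQ ι₀ (s : Rd d) t (J * t) a']
        rfl
      rw [e1]
      have e2 : δ + ((J + 1 : ℕ) : ℝ≥0∞) * (ENNReal.ofReal (exp (-t) * (√2) ^ t) + 3 * δ)
          = δ + (J : ℝ≥0∞) * (ENNReal.ofReal (exp (-t) * (√2) ^ t) + 3 * δ) +
            (ENNReal.ofReal (exp (-t) * (√2) ^ t) + 3 * δ) := by
        push_cast
        ring
      rw [e2]
      exact h1

end chain2

end Vale.Agent.Lib.P309
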