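import Vale.Agent.Lib.P309.LearnerChain

open MeasureTheory ProbabilityTheory Real Set Filter Topology
open scoped ENNReal Nat RealInnerProductSpace

namespace Vale.Agent.Lib.P309

lemma exp_nat_le_pow (k : ℕ) : exp (k : ℝ) ≤ 3 ^ k := by
  have h1 : exp (k : ℝ) = exp 1 ^ k := by
    rw [← Real.exp_nat_mul, mul_one]
  rw [h1]
  have h2 : exp 1 ≤ 3 := by
    have := Real.exp_one_lt_d9
    linarith
  gcongr

lemma two_pow_le_exp_nat (k : ℕ) : (2:ℝ) ^ k ≤ exp (k : ℝ) := by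
  have h1 : exp (k : ℝ) = exp 1 ^ k := by
    rw [← Real.exp_nat_mul, mul_one]
  rw [h1]
  have h2 : (2:ℝ) ≤ exp 1 := by
    have := Real.exp_one_gt_d9
    linarith
  gcongr

/-- The constant of the L² bound is at most exponential in the dimension. -/
lemma C2_le {t n d : ℕ} (h4 : 4 * t + 1 ≤ d) (hn : n ≤ d) :
    C2 t n ≤ ENNReal.ofReal ((2:ℝ) ^ (4 * d)) := by
  have hpi : 0 < π := Real.pi_pos
  have hVsq : Vt t * Vt t = exp (4 * t) * (2 * π) ^ t := by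
    unfold Vt
    have h1 : √(π / (1 / 2)) * √(π / (1 / 2)) = 2 * π := by
      rw [Real.mul_self_sqrt (by positivity)]
      ring
    calc exp (1 / 2 * (4 * t)) * √(π / (1 / 2)) ^ t * (exp (1 / 2 * (4 * t)) * √(π / (1 / 2)) ^ t)
        = (exp (1 / 2 * (4 * t)) * exp (1 / 2 * (4 * t))) *
            (√(π / (1 / 2)) * √(π / (1 / 2))) ^ t := by
          rw [mul_pow]; ring
      _ = exp (4 * t) * (2 * π) ^ t := by
          rw [h1, ← Real.exp_add]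
          congr 2
          ring
  have hfac : (0:ℝ) < (t ! : ℝ) := by exact_mod_cast Nat.factorial_pos t
  have hV := (Vt_pos t).le
  have ha : 0 ≤ ((2 * π)⁻¹) ^ t := by positivity
  have hm : 0 ≤ (4:ℝ) ^ t * (t ! : ℝ) * √2 ^ n := by positivity
  have hb : 0 ≤ ((2:ℝ) ^ t * (t ! : ℝ))⁻¹ := by positivity
  have h1 : C2 t n ≤ ENNReal.ofReal (((2 * π)⁻¹) ^ t * (4 ^ t * (t ! : ℝ) * √2 ^ n) *
      ((2 ^ t * (t ! : ℝ))⁻¹ * Vt t * Vt t)) := by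
    rw [ENNReal.ofReal_mul (mul_nonneg ha hm), ENNReal.ofReal_mul ha,
      ENNReal.ofReal_mul (mul_nonneg hb hV), ENNReal.ofReal_mul hb]
    unfold C2 wt
    gcongr
    exact Mom_le n t
  refine h1.trans (ENNReal.ofReal_le_ofReal ?_)
  have h2 : ((2 * π)⁻¹) ^ t * (4 ^ t * (t ! : ℝ) * √2 ^ n) * ((2 ^ t * (t ! : ℝ))⁻¹ * Vt t * Vt t)
      = 2 ^ t * √2 ^ n * exp (4 * t) := by
    rw [mul_assoc ((2 ^ t * (t ! : ℝ))⁻¹), hVsq]
    have h3 : ((2 * π)⁻¹) ^ t * (2 * π) ^ t = 1 := by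
      rw [← mul_pow, inv_mul_cancel₀ (by positivity), one_pow]
    have h4 : (4:ℝ) ^ t = 2 ^ t * 2 ^ t := by
      rw [← mul_pow]; norm_num
    rw [h4]
    have h6 : (2:ℝ) ^ t ≠ 0 := by positivity
    have h7 : ((2:ℝ) ^ t * (t ! : ℝ))⁻¹ * (2 ^ t * 2 ^ t * (t ! : ℝ)) = 2 ^ t := by
      field_simp
    calc ((2 * π)⁻¹) ^ t * (2 ^ t * 2 ^ t * (t ! : ℝ) * √2 ^ n) *
          ((2 ^ t * (t ! : ℝ))⁻¹ * (exp (4 * t) * (2 * π) ^ t))
        = (((2 * π)⁻¹) ^ t * (2 * π) ^ t) * (((2:ℝ) ^ t * (t ! : ℝ))⁻¹ * (2 ^ t * 2 ^ t * (t ! : ℝ))) *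
            √2 ^ n * exp (4 * t) := by ring
      _ = _ := by rw [h3, h7, one_mul]
  rw [h2]
  have h5 : √2 ^ n ≤ 2 ^ n := by
    have : √2 ≤ 2 := by
      rw [Real.sqrt_le_left (by norm_num)]
      norm_num
    gcongr
  have h6 : exp (4 * t) ≤ 2 ^ (8 * t) := by
    have h7 : exp (4 * (t:ℝ)) = exp ((4 * t : ℕ) : ℝ) := by push_cast; rfl
    rw [h7]
    refine (exp_nat_le_pow _).trans ?_
    rw [pow_mul 2 8 t, pow_mul 3 4 t]
    gcongr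
    norm_num
  calc (2:ℝ) ^ t * √2 ^ n * exp (4 * t) ≤ 2 ^ t * 2 ^ n * 2 ^ (8 * t) := by gcongr
    _ = 2 ^ (9 * t + n) := by rw [← pow_add, ← pow_add]; congr 1; omega
    _ ≤ 2 ^ (4 * d) := by
        refine pow_le_pow_right₀ (by norm_num) ?_
        omega

/-- Bound on the size of a cap. -/
lemma kappa_le {t₂ n₂ : ℕ} (ht : 0 < t₂) (hn : n₂ ≤ 3) {ε : ℝ} (hε : 0 < ε) :
    ENNReal.ofReal (((2 * π)⁻¹) ^ t₂) * Mom n₂ t₂ * volume {u : Fin (2 * t₂) → ℝ | sq u ≤ ε ^ 2}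
      ≤ ENNReal.ofReal (3 * (6 * ε ^ 2) ^ t₂) := by
  have hpi : 0 < π := Real.pi_pos
  have htR : (0:ℝ) < t₂ := by exact_mod_cast ht
  set lam : ℝ := t₂ / ε ^ 2 with hlam
  have hlam0 : 0 < lam := by positivity
  have hvol := vol_sublevel (2 * t₂) (ε ^ 2) hlam0
  have h1 : exp (lam * ε ^ 2) = exp (t₂ : ℝ) := by
    congr 1
    rw [hlam]
    field_simp
  have h2 : (√(π / lam)) ^ (2 * t₂) = (π / lam) ^ t₂ := by
    rw [pow_mul, Real.sq_sqrt (by positivity)]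
  rw [h1, h2] at hvol
  have hb : 0 ≤ exp (t₂ : ℝ) * (π / lam) ^ t₂ := by positivity
  have ha : 0 ≤ ((2 * π)⁻¹) ^ t₂ := by positivity
  have hm : 0 ≤ (4:ℝ) ^ t₂ * (t₂ ! : ℝ) * √2 ^ n₂ := by positivity
  have h3 : ENNReal.ofReal (((2 * π)⁻¹) ^ t₂) * Mom n₂ t₂ * volume {u : Fin (2 * t₂) → ℝ | sq u ≤ ε ^ 2}
      ≤ ENNReal.ofReal (((2 * π)⁻¹) ^ t₂ * ((4:ℝ) ^ t₂ * (t₂ ! : ℝ) * √2 ^ n₂) *
        (exp (t₂ : ℝ) * (π / lam) ^ t₂)) := by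
    rw [ENNReal.ofReal_mul (mul_nonneg ha hm), ENNReal.ofReal_mul ha]
    gcongr
    exact Mom_le n₂ t₂
  refine h3.trans (ENNReal.ofReal_le_ofReal ?_)
  have h4 : (t₂ ! : ℝ) ≤ (t₂:ℝ) ^ t₂ := by exact_mod_cast Nat.factorial_le_pow t₂
  have h5 : √2 ^ n₂ ≤ 3 := by
    have h6 : √2 ^ n₂ ≤ √2 ^ 3 := pow_le_pow_right₀ (by
      rw [Real.le_sqrt] <;> norm_num) hn
    have h7 : √2 ^ 3 = 2 * √2 := by
      rw [pow_succ, Real.sq_sqrt (by norm_num)]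
    have h8 : √2 ≤ 3 / 2 := by
      rw [Real.sqrt_le_left (by norm_num)]
      norm_num
    linarith
  have h6 : exp (t₂ : ℝ) ≤ 3 ^ t₂ := exp_nat_le_pow t₂
  have h7 : (π / lam) ≥ 0 := by positivity
  calc ((2 * π)⁻¹) ^ t₂ * ((4:ℝ) ^ t₂ * (t₂ ! : ℝ) * √2 ^ n₂) * (exp (t₂ : ℝ) * (π / lam) ^ t₂)
      ≤ ((2 * π)⁻¹) ^ t₂ * ((4:ℝ) ^ t₂ * (t₂:ℝ) ^ t₂ * 3) * (3 ^ t₂ * (π / lam) ^ t₂) := by
        gcongr
    _ = 3 * ((2 * π)⁻¹ * 4 * t₂ * 3 * (π / lam)) ^ t₂ := by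
        rw [mul_pow, mul_pow, mul_pow, mul_pow]
        ring
    _ = 3 * (6 * ε ^ 2) ^ t₂ := by
        congr 2
        rw [hlam]
        field_simp
        ring

/-- Iterates of the bound `Λ ↦ Λ² · 2 ^ a`. -/
lemma Lam_eq {a : ℝ} : ∀ J : ℕ, Lam (ENNReal.ofReal ((2:ℝ) ^ a)) J
    = ENNReal.ofReal ((2:ℝ) ^ (a * (2 ^ J - 1))) := by
  intro J
  induction J with
  | zero => simp [Lam]
  | succ J ih =>
      simp only [Lam]
      rw [ih, ← ENNReal.ofReal_mul (by positivity), ← ENNReal.ofReal_mul (by positivity),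
        ← Real.rpow_add (by norm_num), ← Real.rpow_add (by norm_num)]
      congr 2
      rw [pow_succ]
      ring

lemma nat_pow_big : ∀ u : ℕ, 9 ≤ u → 48 * u + 48 ≤ 2 ^ u := by
  intro u hu
  induction u, hu using Nat.le_induction with
  | base => norm_num
  | succ u _ ih =>
      rw [pow_succ]
      omega

end Vale.Agent.Lib.P309
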