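import Vale.Agent.Lib.P309.GL
import Vale.Agent.Lib.P309.Numerics

open MeasureTheory ProbabilityTheory Real Set Filter Topology
open scoped ENNReal Nat RealInnerProductSpace

namespace Vale.Agent.Lib.P309

variable {d : ℕ}

/-- A Euclidean ball, intersected with the sphere. -/
def ballS (c : Rd d) (ρ : ℝ) : Set (Sph d) := {s | ‖(s : Rd d) - c‖ ≤ ρ}

lemma measurableSet_ballS (c : Rd d) (ρ : ℝ) : MeasurableSet (ballS c ρ) :=
  measurableSet_le (measurable_subtype_coe.sub measurable_const).norm measurable_const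

/-- The measure of a ball for the uniform measure on the sphere. -/
theorem unif_ball_le {t₂ n₂ : ℕ} (ht₂ : 0 < t₂) (hd : d = 2 * t₂ + n₂) (hn2 : 2 ≤ n₂) (hn3 : n₂ ≤ 3)
    (c : Rd d) {ρ : ℝ} (hρ : 0 < ρ) :
    unifSphere d (ballS c ρ) ≤ ENNReal.ofReal (3 * (6 * ρ ^ 2) ^ t₂) := by
  have hd0 : 0 < d := by omega
  have hfr : Module.finrank ℝ (Rd d) = 2 * t₂ + n₂ := by simpa using hd
  have hle : 2 * t₂ ≤ d := by omega
  let e : Fin (2 * t₂) → Rd d := fun i => EuclideanSpace.basisFun (Fin d) ℝ (Fin.castLE hle i)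
  have he : Orthonormal ℝ e :=
    (EuclideanSpace.basisFun (Fin d) ℝ).orthonormal.comp _ (Fin.castLE_injective hle)
  -- the set of coordinates
  let u₀ : Fin (2 * t₂) → ℝ := fun i => ⟪e i, c⟫
  let S : Set (Fin (2 * t₂) → ℝ) := {u | sq (u - u₀) ≤ ρ ^ 2}
  have hS : MeasurableSet S := by
    refine measurableSet_le (measurable_sq.comp (measurable_id.sub measurable_const)) measurable_const
  have hvolS : volume S = volume {u : Fin (2 * t₂) → ℝ | sq u ≤ ρ ^ 2} := by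
    have h1 : S = (fun u => u + (-u₀)) ⁻¹' {u : Fin (2 * t₂) → ℝ | sq u ≤ ρ ^ 2} := by
      ext u
      simp [S, sub_eq_add_neg]
    rw [h1, measure_preimage_add_right]
  have h1 := proj_orthonormal (Rd d) hfr hn2 he (F := S.indicator 1) (measurable_one.indicator hS)
  rw [lintegral_indicator_one hS, hvolS] at h1
  refine le_trans ?_ (h1.trans (kappa_le ht₂ hn3 hρ))
  -- reduction to the Gaussian vector
  have hB : MeasurableSet {v : Rd d | ‖v - c‖ ≤ ρ} :=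
    measurableSet_le (measurable_id.sub measurable_const).norm measurable_const
  have h2 : unifSphere d (ballS c ρ)
      = ∫⁻ s : Sph d, {v : Rd d | ‖v - c‖ ≤ ρ}.indicator 1 (s : Rd d) ∂(unifSphere d) := by
    rw [← lintegral_indicator_one (measurableSet_ballS c ρ)]
    refine lintegral_congr fun s => ?_
    by_cases hs : ‖(s : Rd d) - c‖ ≤ ρ
    · rw [Set.indicator_of_mem (show s ∈ ballS c ρ from hs),
        Set.indicator_of_mem (show (s : Rd d) ∈ {v : Rd d | ‖v - c‖ ≤ ρ} from hs)]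
      rfl
    · rw [Set.indicator_of_notMem (show s ∉ ballS c ρ from hs),
        Set.indicator_of_notMem (show (s : Rd d) ∉ {v : Rd d | ‖v - c‖ ≤ ρ} from hs)]
  rw [h2, lintegral_unifSphere hd0 (measurable_one.indicator hB)]
  refine lintegral_mono fun g => ?_
  by_cases hg : ‖‖g‖⁻¹ • g - c‖ ≤ ρ
  · rw [Set.indicator_of_mem (show ‖g‖⁻¹ • g ∈ {v : Rd d | ‖v - c‖ ≤ ρ} from hg)]
    have h3 : (fun i => ⟪e i, ‖g‖⁻¹ • g⟫) ∈ S := by
      show sq ((fun i => ⟪e i, ‖g‖⁻¹ • g⟫) - u₀) ≤ ρ ^ 2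
      have h4 := he.sum_inner_products_le (s := Finset.univ) (x := ‖g‖⁻¹ • g - c)
      have h5 : sq ((fun i => ⟪e i, ‖g‖⁻¹ • g⟫) - u₀)
          = ∑ i, ‖⟪e i, ‖g‖⁻¹ • g - c⟫‖ ^ 2 := by
        unfold sq
        refine Finset.sum_congr rfl fun i _ => ?_
        rw [Real.norm_eq_abs, sq_abs, inner_sub_right]
        rfl
      rw [h5]
      refine h4.trans ?_
      gcongr
    rw [Set.indicator_of_mem h3]
    exact le_rfl
  · rw [Set.indicator_of_notMem (show ‖g‖⁻¹ • g ∉ {v : Rd d | ‖v - c‖ ≤ ρ} from hg)]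
    exact bot_le

/-- The data of a node. -/
structure IsNode (a : ℕ) (Q : ℝ≥0∞) (G : Sph d → ℝ≥0∞) (c : Rd d) (r : ℝ) (g : ℝ≥0∞) : Prop where
  meas : Measurable G
  r_pos : 0 < r
  r_le : r ≤ 1
  supp : ∀ s, s ∉ ballS c r → G s = 0
  bound : ∀ s, G s ≤ g
  g_ne : g ≠ ∞
  mass_ne : ∫⁻ s, G s ∂(unifSphere d) ≠ 0
  frost : ∀ (y : Rd d) (ϱ : ℝ), 0 < ϱ → ∫⁻ s in ballS y ϱ, G s ∂(unifSphere d)
    ≤ 2 * ENNReal.ofReal ((ϱ / r) ^ a) * ∫⁻ s, G s ∂(unifSphere d)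
  ratio : g * ENNReal.ofReal (r ^ a) ≤ Q * ∫⁻ s, G s ∂(unifSphere d)

/-- A good node. -/
def Good (a : ℕ) (Q : ℝ≥0∞) (G : Sph d → ℝ≥0∞) : Prop :=
  ∃ (c : Rd d) (r : ℝ) (g : ℝ≥0∞), IsNode a Q G c r g

/-- A finite sum of good nodes. -/
inductive SumGood (a : ℕ) (Q : ℝ≥0∞) : (Sph d → ℝ≥0∞) → Prop
  | zero : SumGood a Q 0
  | add {G S : Sph d → ℝ≥0∞} : Good a Q G → SumGood a Q S → SumGood a Q (G + S)

lemma SumGood.add' {a : ℕ} {Q : ℝ≥0∞} {S S' : Sph d → ℝ≥0∞} (h : SumGood a Q S)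
    (h' : SumGood a Q S') : SumGood a Q (S + S') := by
  induction h with
  | zero => simpa using h'
  | add hG _ ih =>
      rw [add_assoc]
      exact SumGood.add hG ih

lemma SumGood.finset_sum {a : ℕ} {Q : ℝ≥0∞} {ι : Type*} (u : Finset ι) {S : ι → Sph d → ℝ≥0∞}
    (h : ∀ i, SumGood a Q (S i)) : SumGood a Q (∑ i ∈ u, S i) := by
  classical
  induction u using Finset.induction_on with
  | empty => simpa using SumGood.zero
  | insert i u hi ih =>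
      rw [Finset.sum_insert hi]
      exact (h i).add' ih

lemma SumGood.measurable {a : ℕ} {Q : ℝ≥0∞} {S : Sph d → ℝ≥0∞} (h : SumGood a Q S) :
    Measurable S := by
  induction h with
  | zero => exact measurable_const
  | add hG _ ih =>
      obtain ⟨c, r, g, hn⟩ := hG
      exact hn.meas.add ih

/-- Selecting a nearly optimal ball. -/
lemma pick_ball (R : Rd d → ℝ → ℝ≥0∞) {U : ℝ≥0∞} {r' : ℝ} (hU : U ≠ ∞)
    (hR : ∀ y ϱ, 0 < ϱ → ϱ ≤ r' → R y ϱ ≤ U) {c : Rd d} (hr' : 0 < r') (hpos : R c r' ≠ 0) :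
    ∃ y ϱ, 0 < ϱ ∧ ϱ ≤ r' ∧ (∀ y' ϱ', 0 < ϱ' → ϱ' ≤ r' → R y' ϱ' ≤ 2 * R y ϱ) := by
  let σ : ℝ≥0∞ := ⨆ (y : Rd d) (ϱ : ℝ) (_ : 0 < ϱ ∧ ϱ ≤ r'), R y ϱ
  have hσle : ∀ y ϱ, 0 < ϱ → ϱ ≤ r' → R y ϱ ≤ σ := fun y ϱ h1 h2 =>
    le_iSup_of_le y (le_iSup_of_le ϱ (le_iSup_of_le ⟨h1, h2⟩ le_rfl))
  have hσT : σ ≠ ∞ := by
    refine ne_top_of_le_ne_top hU ?_
    exact iSup_le fun y => iSup_le fun ϱ => iSup_le fun h => hR y ϱ h.1 h.2
  have hσ0 : σ ≠ 0 := by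
    intro h0
    have := hσle c r' hr' le_rfl
    rw [h0] at this
    exact hpos (le_antisymm this bot_le)
  have hlt : σ / 2 < σ := ENNReal.half_lt_self hσ0 hσT
  obtain ⟨y, hy⟩ := lt_iSup_iff.1 hlt
  obtain ⟨ϱ, hϱ⟩ := lt_iSup_iff.1 hy
  obtain ⟨h, hh⟩ := lt_iSup_iff.1 hϱ
  refine ⟨y, ϱ, h.1, h.2, fun y' ϱ' h1 h2 => (hσle y' ϱ' h1 h2).trans ?_⟩
  calc σ = 2 * (σ / 2) := (ENNReal.mul_div_cancel (by simp) (by simp)).symm
    _ ≤ 2 * R y ϱ := by gcongr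

end Vale.Agent.Lib.P309
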