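import Vale.Agent.Lib.P309.GSMoment

open MeasureTheory ProbabilityTheory Real Set Filter Topology
open scoped ENNReal Nat RealInnerProductSpace

namespace Vale.Agent.Lib.P309

/-- The index equivalence for two blocks. -/
def eqv (t : ℕ) : Fin t ⊕ Fin t ≃ Fin (2 * t) := finSumFinEquiv.trans (finCongr (two_mul t).symm)

section merge

variable {α : Type*} {t : ℕ}

/-- Left block. -/
def lf (Y : Fin (2 * t) → α) : Fin t → α := fun j => Y (eqv t (Sum.inl j))

/-- Right block. -/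
def rg (Y : Fin (2 * t) → α) : Fin t → α := fun j => Y (eqv t (Sum.inr j))

/-- Merging two blocks. -/
def merge (X X' : Fin t → α) : Fin (2 * t) → α := fun i => Sum.elim X X' ((eqv t).symm i)

@[simp] lemma lf_merge (X X' : Fin t → α) : lf (merge X X') = X := by
  funext j; simp [lf, merge]

@[simp] lemma rg_merge (X X' : Fin t → α) : rg (merge X X') = X' := by
  funext j; simp [rg, merge]

@[simp] lemma merge_lf_rg (Y : Fin (2 * t) → α) : merge (lf Y) (rg Y) = Y := by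
  funext i
  obtain ⟨b, rfl⟩ := (eqv t).surjective i
  rcases b with j | j <;> simp [lf, rg, merge]

variable [MeasurableSpace α]

lemma measurable_lf : Measurable (lf : (Fin (2 * t) → α) → Fin t → α) :=
  measurable_pi_lambda _ fun _ => measurable_pi_apply _

lemma measurable_rg : Measurable (rg : (Fin (2 * t) → α) → Fin t → α) :=
  measurable_pi_lambda _ fun _ => measurable_pi_apply _

/-- A product measure on two blocks is the product of the measures on the blocks. -/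
lemma lintegral_merge (μ : Measure α) [SigmaFinite μ] {G : (Fin (2 * t) → α) → ℝ≥0∞}
    (hG : Measurable G) :
    ∫⁻ Y, G Y ∂(Measure.pi fun _ : Fin (2 * t) => μ)
      = ∫⁻ X, ∫⁻ X', G (merge X X') ∂(Measure.pi fun _ : Fin t => μ)
          ∂(Measure.pi fun _ : Fin t => μ) := by
  have mp1 := measurePreserving_piCongrLeft (α := fun _ : Fin (2 * t) => α)
    (fun _ : Fin (2 * t) => μ) (eqv t)
  have mp2 := measurePreserving_sumPiEquivProdPi_symm (ι := Fin t) (ι' := Fin t)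
    (X := fun _ => α) (fun _ => μ)
  rw [← mp1.lintegral_comp hG, ← mp2.lintegral_comp
    (f := fun a => G (MeasurableEquiv.piCongrLeft (fun _ : Fin (2 * t) => α) (eqv t) a))
    (hG.comp (MeasurableEquiv.measurable _)), lintegral_prod]
  · refine lintegral_congr fun X => lintegral_congr fun X' => ?_
    congr 1
    funext i
    obtain ⟨b, rfl⟩ := (eqv t).surjective i
    have h := MeasurableEquiv.piCongrLeft_apply_apply (β := fun _ : Fin (2 * t) => α) (eqv t)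
      ((MeasurableEquiv.sumPiEquivProdPi fun _ : Fin t ⊕ Fin t => α).symm (X, X')) b
    rw [h]
    rcases b with j | j <;> simp [merge, MeasurableEquiv.sumPiEquivProdPi, Equiv.sumPiEquivProdPi]
  · exact ((hG.comp (MeasurableEquiv.measurable _)).comp
      (MeasurableEquiv.measurable _)).aemeasurable

end merge

/-- Hoelder in the form needed for the smoothing. -/
lemma holder_step {Ω : Type*} [MeasurableSpace Ω] (ρ : Measure Ω) {H Φ : Ω → ℝ≥0∞}
    (hH : Measurable H) (hΦ : Measurable Φ) {V₂ : ℝ≥0∞} (hΦV : ∀ Y, Φ Y ≤ V₂) {p q : ℝ}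
    (hpq : p.HolderConjugate q) :
    ∫⁻ Y, H Y * Φ Y ∂ρ ≤ (∫⁻ Y, Φ Y ∂ρ) ^ (1 / p) * (V₂ * ∫⁻ Y, H Y ^ q ∂ρ) ^ (1 / q) := by
  have hp : 0 < p := hpq.pos
  have hq : 0 < q := hpq.symm.pos
  have h1 : ∀ Y, H Y * Φ Y = Φ Y ^ (1 / p) * (H Y * Φ Y ^ (1 / q)) := by
    intro Y
    have h2 : Φ Y = Φ Y ^ (1 / p) * Φ Y ^ (1 / q) := by
      rw [← ENNReal.rpow_add_of_nonneg _ _ (by positivity) (by positivity)]
      have : 1 / p + 1 / q = 1 := by simpa using hpq.one_div_add_one_div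
      rw [this, ENNReal.rpow_one]
    calc H Y * Φ Y = H Y * (Φ Y ^ (1 / p) * Φ Y ^ (1 / q)) := by rw [← h2]
      _ = _ := by ring
  simp_rw [h1]
  have hm1 : AEMeasurable (fun Y => Φ Y ^ (1 / p)) ρ := (hΦ.pow_const _).aemeasurable
  have hm2 : AEMeasurable (fun Y => H Y * Φ Y ^ (1 / q)) ρ :=
    (hH.mul (hΦ.pow_const _)).aemeasurable
  refine (ENNReal.lintegral_mul_le_Lp_mul_Lq ρ hpq hm1 hm2).trans ?_
  have e1 : ∫⁻ Y, (Φ Y ^ (1 / p)) ^ p ∂ρ = ∫⁻ Y, Φ Y ∂ρ := by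
    refine lintegral_congr fun Y => ?_
    rw [← ENNReal.rpow_mul, one_div, inv_mul_cancel₀ hp.ne', ENNReal.rpow_one]
  have e2 : ∫⁻ Y, (H Y * Φ Y ^ (1 / q)) ^ q ∂ρ ≤ V₂ * ∫⁻ Y, H Y ^ q ∂ρ := by
    calc ∫⁻ Y, (H Y * Φ Y ^ (1 / q)) ^ q ∂ρ = ∫⁻ Y, H Y ^ q * Φ Y ∂ρ := by
          refine lintegral_congr fun Y => ?_
          rw [ENNReal.mul_rpow_of_nonneg _ _ hq.le, ← ENNReal.rpow_mul, one_div,
            inv_mul_cancel₀ hq.ne', ENNReal.rpow_one]
      _ ≤ ∫⁻ Y, V₂ * H Y ^ q ∂ρ := by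
          refine lintegral_mono fun Y => ?_
          rw [mul_comm]
          gcongr
          exact hΦV Y
      _ = V₂ * ∫⁻ Y, H Y ^ q ∂ρ := lintegral_const_mul _ (hH.pow_const _)
  rw [e1]
  gcongr

variable {E : Type*} [NormedAddCommGroup E] [InnerProductSpace ℝ E] [FiniteDimensional ℝ E]
  [MeasurableSpace E] [BorelSpace E]

/-- The labels of a batch of rows at a signal. -/
def labels {t : ℕ} (X : Fin t → E) (s : E) : Fin t → ℝ := fun i => ⟪X i, s⟫

/-- The product of the inverse residual norms. -/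
noncomputable def Hres {m : ℕ} (Y : Fin m → E) : ℝ≥0∞ :=
  ENNReal.ofReal (∏ i : Fin m, ‖gs (ext Y) i‖⁻¹)

lemma measurable_Hres {m : ℕ} : Measurable (Hres (E := E) (m := m)) := by
  unfold Hres
  refine ENNReal.measurable_ofReal.comp ?_
  refine Finset.measurable_prod _ fun i _ => ?_
  exact ((measurable_gs (F := fun Y : Fin m → E => ext Y) (fun j => measurable_ext j) i).norm).inv

omit [FiniteDimensional ℝ E] [MeasurableSpace E] [BorelSpace E] in
lemma Hres_pow_le {t m : ℕ} (Y : Fin m → E) :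
    Hres Y ^ (2 * t) ≤ blockG t m Y := by
  unfold Hres blockG
  rw [ENNReal.ofReal_prod_of_nonneg (fun _ _ => by positivity), ← Finset.prod_pow]
  refine Finset.prod_le_prod' fun i _ => ?_
  rw [pow_mul]
  gcongr
  rcases eq_or_ne (‖gs (ext Y) i‖) 0 with h0 | h0
  · simp [h0]
  · have hpos : 0 < ‖gs (ext Y) i‖ := lt_of_le_of_ne (norm_nonneg _) h0.symm
    rw [← ENNReal.ofReal_pow (by positivity), ← ENNReal.ofReal_inv_of_pos (by positivity)]
    apply ENNReal.ofReal_le_ofReal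
    rw [inv_pow]

/-- **L² smoothing**: the smoothing operator attached to a function of the rows and labels. -/
theorem l2_smoothing {t n : ℕ} (ht : 0 < t) (hd : Module.finrank ℝ E = 2 * t + n) (hn : 2 * t + 1 ≤ n)
    {Ψ : (Fin t → E) → (Fin t → ℝ) → ℝ≥0∞} (hΨ : Measurable (Function.uncurry Ψ))
    {V : ℝ≥0∞} (hV : ∀ X, ∫⁻ y, Ψ X y ≤ V) :
    ∫⁻ g, (∫⁻ X, Ψ X (labels X (‖g‖⁻¹ • g)) ∂(Measure.pi fun _ : Fin t => stdGaussian E)) ^ 2
        ∂(stdGaussian E)
      ≤ ENNReal.ofReal (((2 * π)⁻¹) ^ t) * Mom n t *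
        (wt t * V ^ (1 / (t : ℝ)) *
          (∫⁻ X, (∫⁻ y, Ψ X y) ∂(Measure.pi fun _ : Fin t => stdGaussian E)) ^ (2 - 1 / (t : ℝ))) := by
  classical
  set ν := Measure.pi fun _ : Fin t => stdGaussian E with hν
  set π₂ := Measure.pi fun _ : Fin (2 * t) => stdGaussian E with hπ₂
  set phi : (Fin t → E) → ℝ≥0∞ := fun X => ∫⁻ y, Ψ X y with hphi
  have hphim : Measurable phi := hΨ.lintegral_prod_right'
  have hΨ1 : ∀ X, Measurable (Ψ X) := fun X => hΨ.of_uncurry_left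
  have hlab : Measurable (fun p : E × (Fin t → E) => labels p.2 (‖p.1‖⁻¹ • p.1)) := by
    refine measurable_pi_lambda _ fun i => ?_
    refine ((measurable_pi_apply i).comp measurable_snd).inner ?_
    exact (measurable_norm.comp measurable_fst).inv.smul measurable_fst
  have hlabY : Measurable (fun p : E × (Fin (2 * t) → E) => Ψ (lf p.2) (labels (lf p.2) (‖p.1‖⁻¹ • p.1)) *
      Ψ (rg p.2) (labels (rg p.2) (‖p.1‖⁻¹ • p.1))) := by
    refine Measurable.mul ?_ ?_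
    · exact hΨ.comp ((measurable_lf.comp measurable_snd).prodMk
        (hlab.comp (measurable_fst.prodMk (measurable_lf.comp measurable_snd))))
    · exact hΨ.comp ((measurable_rg.comp measurable_snd).prodMk
        (hlab.comp (measurable_fst.prodMk (measurable_rg.comp measurable_snd))))
  -- the square of the operator as a double integral
  have hsq : ∀ g : E, (∫⁻ X, Ψ X (labels X (‖g‖⁻¹ • g)) ∂ν) ^ 2
      = ∫⁻ Y, Ψ (lf Y) (labels (lf Y) (‖g‖⁻¹ • g)) * Ψ (rg Y) (labels (rg Y) (‖g‖⁻¹ • g)) ∂π₂ := by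
    intro g
    have hm : Measurable (fun X : Fin t → E => Ψ X (labels X (‖g‖⁻¹ • g))) :=
      hΨ.comp (measurable_id.prodMk (hlab.comp (measurable_const.prodMk measurable_id)))
    rw [hπ₂, lintegral_merge (G := fun Y => Ψ (lf Y) (labels (lf Y) (‖g‖⁻¹ • g)) *
      Ψ (rg Y) (labels (rg Y) (‖g‖⁻¹ • g))) _ ((hm.comp measurable_lf).mul (hm.comp measurable_rg))]
    simp only [lf_merge, rg_merge]
    simp_rw [lintegral_const_mul _ hm]
    rw [lintegral_mul_const _ hm, pow_two]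
  simp_rw [hsq]
  rw [lintegral_lintegral_swap hlabY.aemeasurable]
  -- the product of the volume factors
  set Φ : (Fin (2 * t) → E) → ℝ≥0∞ := fun Y => phi (lf Y) * phi (rg Y) with hΦ
  have hΦm : Measurable Φ := (hphim.comp measurable_lf).mul (hphim.comp measurable_rg)
  have hΦV : ∀ Y, Φ Y ≤ V * V := fun Y => mul_le_mul' (hV _) (hV _)
  have hΦint : ∫⁻ Y, Φ Y ∂π₂ = (∫⁻ X, phi X ∂ν) ^ 2 := by
    rw [hπ₂, lintegral_merge _ hΦm]
    simp only [hΦ, lf_merge, rg_merge]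
    simp_rw [lintegral_const_mul _ hphim]
    rw [lintegral_mul_const _ hphim, pow_two]
  -- the pointwise bound from the projection estimate
  have hfix : ∀ᵐ Y ∂π₂, ∫⁻ g, Ψ (lf Y) (labels (lf Y) (‖g‖⁻¹ • g)) *
        Ψ (rg Y) (labels (rg Y) (‖g‖⁻¹ • g)) ∂(stdGaussian E)
      ≤ ENNReal.ofReal (((2 * π)⁻¹) ^ t) * Mom n t * (Hres Y * Φ Y) := by
    have hae := ae_gs_ne_zero (E := E) (t := t) (n := 2 * t) ht (by omega)
    filter_upwards [hae] with Y hY
    have hne : ∀ i < 2 * t, gs (ext Y) i ≠ 0 := fun i hi => hY ⟨i, hi⟩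
    let F : (Fin (2 * t) → ℝ) → ℝ≥0∞ := fun u => Ψ (lf Y) (lf u) * Ψ (rg Y) (rg u)
    have hF : Measurable F := ((hΨ1 _).comp measurable_lf).mul ((hΨ1 _).comp measurable_rg)
    have h1 := proj_rows hd (by omega) hne hF
    have h2 : ∀ g : E, F (fun i : Fin (2 * t) => ⟪ext Y i, ‖g‖⁻¹ • g⟫)
        = Ψ (lf Y) (labels (lf Y) (‖g‖⁻¹ • g)) * Ψ (rg Y) (labels (rg Y) (‖g‖⁻¹ • g)) := by
      intro g
      simp only [ext_coe, F]
      rfl
    simp_rw [h2] at h1
    have h3 : ∫⁻ u, F u = Φ Y := by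
      rw [volume_pi, lintegral_merge _ hF]
      simp only [F, lf_merge, rg_merge]
      simp_rw [lintegral_const_mul _ (hΨ1 (rg Y))]
      rw [lintegral_mul_const _ (hΨ1 (lf Y)), ← volume_pi]
    rw [h3] at h1
    exact h1
  refine (lintegral_mono_ae hfix).trans ?_
  have hm3 : Measurable fun Y => Hres Y * Φ Y := measurable_Hres.mul hΦm
  rw [lintegral_const_mul _ hm3]
  refine mul_le_mul' le_rfl ?_
  -- Hoelder
  have htR : (0:ℝ) < t := by exact_mod_cast ht
  have h1lt : (1:ℝ) < 2 * t := by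
    have : (1:ℝ) ≤ t := by exact_mod_cast ht
    linarith
  have hpq : ((2 * (t:ℝ)).conjExponent).HolderConjugate (2 * (t:ℝ)) :=
    (Real.HolderConjugate.conjExponent h1lt).symm
  have hH := holder_step π₂ measurable_Hres hΦm hΦV hpq
  refine hH.trans ?_
  have hmom : ∫⁻ Y, Hres Y ^ (2 * (t:ℝ)) ∂π₂ ≤ wt t ^ (2 * t) := by
    have hbm := block_moment (E := E) ht (2 * t) (by omega)
    refine le_trans ?_ hbm
    refine lintegral_mono fun Y => ?_
    have : (2 * (t:ℝ)) = ((2 * t : ℕ) : ℝ) := by push_cast; ring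
    rw [this, ENNReal.rpow_natCast]
    exact Hres_pow_le Y
  have h5 : (V * V * ∫⁻ Y, Hres Y ^ (2 * (t:ℝ)) ∂π₂) ^ (1 / (2 * (t:ℝ)))
      ≤ V ^ (1 / (t:ℝ)) * wt t := by
    calc (V * V * ∫⁻ Y, Hres Y ^ (2 * (t:ℝ)) ∂π₂) ^ (1 / (2 * (t:ℝ)))
        ≤ (V * V * wt t ^ (2 * t)) ^ (1 / (2 * (t:ℝ))) := by gcongr
      _ = V ^ (1 / (t:ℝ)) * wt t := by
        have h6 : wt t ^ (2 * t) = wt t ^ (2 * (t:ℝ)) := by
          have : (2 * (t:ℝ)) = ((2 * t : ℕ) : ℝ) := by push_cast; ring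
          rw [this, ENNReal.rpow_natCast]
        have h7 : V * V = V ^ (2:ℝ) := by
          rw [ENNReal.rpow_two, pow_two]
        rw [h6, h7, ENNReal.mul_rpow_of_nonneg _ _ (by positivity), ← ENNReal.rpow_mul,
          ← ENNReal.rpow_mul]
        congr 2
        · field_simp
        · rw [show 2 * (t:ℝ) * (1 / (2 * (t:ℝ))) = 1 by field_simp, ENNReal.rpow_one]
  have h8 : (∫⁻ Y, Φ Y ∂π₂) ^ (1 / (2 * (t:ℝ)).conjExponent)
      = (∫⁻ X, phi X ∂ν) ^ (2 - 1 / (t:ℝ)) := by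
    rw [hΦint, ← ENNReal.rpow_natCast, ← ENNReal.rpow_mul]
    congr 1
    rw [Real.conjExponent]
    field_simp
    push_cast
    ring
  rw [h8]
  calc (∫⁻ X, phi X ∂ν) ^ (2 - 1 / (t:ℝ)) *
        (V * V * ∫⁻ Y, Hres Y ^ (2 * (t:ℝ)) ∂π₂) ^ (1 / (2 * (t:ℝ)))
      ≤ (∫⁻ X, phi X ∂ν) ^ (2 - 1 / (t:ℝ)) * (V ^ (1 / (t:ℝ)) * wt t) := by gcongr
    _ = wt t * V ^ (1 / (t:ℝ)) * (∫⁻ X, phi X ∂ν) ^ (2 - 1 / (t:ℝ)) := by ring

end Vale.Agent.Lib.P309
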