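import Vale.Agent.Lib.P309.Jq
import Vale.Agent.Lib.P309.Smoothing

open MeasureTheory ProbabilityTheory Real Set Filter Topology
open scoped ENNReal Nat RealInnerProductSpace

namespace Vale.Agent.Lib.P309

variable {E : Type*} [NormedAddCommGroup E] [InnerProductSpace ℝ E] [FiniteDimensional ℝ E]
  [MeasurableSpace E] [BorelSpace E]

lemma measurable_labels {k : ℕ} (Y : Fin k → E) : Measurable (fun v : E => labels Y v) :=
  measurable_pi_lambda _ fun _ => measurable_const.inner measurable_id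

/-- The mollified density is a ball ratio. -/
lemma Dn_eq_ratio (ν : Measure E) [IsFiniteMeasure ν] {k : ℕ} {η : ℝ} (hη : 0 < η) (Y : Fin k → E)
    (w : Fin k → ℝ) :
    Dn ν η Y w = (ν.map (labels Y)) (Metric.closedBall w η) /
      volume (Metric.closedBall w η) := by
  classical
  have hS : MeasurableSet (Metric.closedBall w η) := Metric.isClosed_closedBall.measurableSet
  rw [Measure.map_apply (measurable_labels Y) hS, Real.volume_pi_closedBall w hη.le]
  have hcard : Fintype.card (Fin k) = k := Fintype.card_fin k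
  rw [hcard, div_eq_mul_inv, mul_comm]
  have h1 : ∀ v : E, ∏ l, kap η (⟪Y l, v⟫ - w l)
      = (ENNReal.ofReal ((2 * η) ^ k))⁻¹ * (labels Y ⁻¹' Metric.closedBall w η).indicator 1 v := by
    intro v
    have h2 : ∏ l : Fin k, kap η (⟪Y l, v⟫ - w l)
        = (∏ _l : Fin k, (ENNReal.ofReal (2 * η))⁻¹) *
          ∏ l : Fin k, (Set.Icc (-η) η).indicator (1 : ℝ → ℝ≥0∞) (⟪Y l, v⟫ - w l) := by
      rw [← Finset.prod_mul_distrib]
      rfl
    rw [h2, Finset.prod_const, Finset.card_univ, Fintype.card_fin, ← ENNReal.inv_pow,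
      ENNReal.ofReal_pow (by positivity)]
    congr 1
    by_cases hv : labels Y v ∈ Metric.closedBall w η
    · rw [Set.indicator_of_mem (show v ∈ labels Y ⁻¹' Metric.closedBall w η from hv)]
      rw [Finset.prod_eq_one]
      · rfl
      · intro l _
        have h3 : |⟪Y l, v⟫ - w l| ≤ η := by
          have h4 := (dist_pi_le_iff hη.le).1 (Metric.mem_closedBall.1 hv) l
          rwa [Real.dist_eq] at h4
        rw [Set.indicator_of_mem (Set.mem_Icc.2 (abs_le.1 h3))]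
        rfl
    · rw [Set.indicator_of_notMem (show v ∉ labels Y ⁻¹' Metric.closedBall w η from hv)]
      have h3 : ∃ l, ¬ |⟪Y l, v⟫ - w l| ≤ η := by
        by_contra hcon
        push Not at hcon
        apply hv
        refine Metric.mem_closedBall.2 ((dist_pi_le_iff hη.le).2 fun l => ?_)
        rw [Real.dist_eq]
        exact hcon l
      obtain ⟨l, hl⟩ := h3
      refine Finset.prod_eq_zero (Finset.mem_univ l) ?_
      refine Set.indicator_of_notMem ?_ _
      intro h4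
      exact hl (abs_le.2 (Set.mem_Icc.1 h4))
  unfold Dn
  simp_rw [h1]
  rw [lintegral_const_mul _ (measurable_one.indicator
    ((measurable_labels Y) hS)), lintegral_indicator_one ((measurable_labels Y) hS)]

/-- The scales. -/
noncomputable def etaS (n : ℕ) : ℝ := 1 / ((n : ℝ) + 1)

lemma etaS_pos (n : ℕ) : 0 < etaS n := by
  unfold etaS
  positivity

lemma tendsto_etaS : Tendsto etaS atTop (𝓝[>] 0) := by
  refine tendsto_nhdsWithin_iff.2 ⟨tendsto_one_div_add_atTop_nhds_zero_nat, ?_⟩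
  exact Eventually.of_forall fun n => etaS_pos n

/-- The `L^q` norm of the density of the labels is controlled by the mollified ones. -/
lemma rnDeriv_fatou (ν : Measure E) [IsFiniteMeasure ν] {k : ℕ} (Y : Fin k → E) (q : ℕ) :
    ∫⁻ w, ((ν.map (labels Y)).rnDeriv volume w) ^ q
      ≤ liminf (fun n => ∫⁻ w, (Dn ν (etaS n) Y w) ^ q) atTop := by
  have hfin : IsFiniteMeasure (ν.map (labels Y)) := Measure.isFiniteMeasure_map _ _
  have h1 := Besicovitch.ae_tendsto_rnDeriv (ν.map (labels Y)) (volume : Measure (Fin k → ℝ))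
  have h2 : ∀ᵐ w ∂(volume : Measure (Fin k → ℝ)),
      ((ν.map (labels Y)).rnDeriv volume w) ^ q = liminf (fun n => (Dn ν (etaS n) Y w) ^ q) atTop := by
    filter_upwards [h1] with w hw
    have h3 : Tendsto (fun n => Dn ν (etaS n) Y w) atTop (𝓝 ((ν.map (labels Y)).rnDeriv volume w)) := by
      have h4 := hw.comp tendsto_etaS
      refine h4.congr fun n => ?_
      exact (Dn_eq_ratio ν (etaS_pos n) Y w).symm
    exact ((ENNReal.continuous_pow q).tendsto _ |>.comp h3).liminf_eq.symm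
  have hm : ∀ n, Measurable (fun w => (Dn ν (etaS n) Y w) ^ q) := by
    intro n
    have h3 : Measurable (fun w : Fin k → ℝ => (Y, w)) := measurable_const.prodMk measurable_id
    exact ((measurable_Dn ν (etaS n) k).comp h3).pow_const q
  calc ∫⁻ w, ((ν.map (labels Y)).rnDeriv volume w) ^ q
      = ∫⁻ w, liminf (fun n => (Dn ν (etaS n) Y w) ^ q) atTop := lintegral_congr_ae h2
    _ ≤ _ := lintegral_liminf_le hm

/-- The bound for fixed rows. -/
lemma gl_fix (ν : Measure E) [IsFiniteMeasure ν] {k : ℕ} (Y : Fin k → E)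
    (hac : ν.map (labels Y) ≪ volume) {Υ : (Fin k → ℝ) → ℝ≥0∞} (hΥ : Measurable Υ)
    (hΥ1 : ∀ u, Υ u ≤ 1) {p' : ℝ} {q : ℕ} (hpq : p'.HolderConjugate (q : ℝ)) :
    ∫⁻ v, Υ (labels Y v) ∂ν
      ≤ (∫⁻ u, Υ u) ^ (1 / p') *
        (liminf (fun n => ∫⁻ w, (Dn ν (etaS n) Y w) ^ q) atTop) ^ (1 / (q : ℝ)) := by
  have hfin : IsFiniteMeasure (ν.map (labels Y)) := Measure.isFiniteMeasure_map _ _
  have h1 : ∫⁻ v, Υ (labels Y v) ∂ν = ∫⁻ u, Υ u ∂(ν.map (labels Y)) :=
    (lintegral_map hΥ (measurable_labels Y)).symm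
  rw [h1, ← lintegral_rnDeriv_mul hac hΥ.aemeasurable]
  have hD : Measurable ((ν.map (labels Y)).rnDeriv volume) := Measure.measurable_rnDeriv _ _
  have h2 := ENNReal.lintegral_mul_le_Lp_mul_Lq (volume : Measure (Fin k → ℝ)) hpq.symm
    hD.aemeasurable hΥ.aemeasurable
  refine h2.trans ?_
  rw [mul_comm]
  have hp1 : 1 ≤ p' := hpq.lt.le
  have hq0 : (0:ℝ) < q := hpq.symm.pos
  have hp0 : (0:ℝ) < p' := hpq.pos
  refine mul_le_mul' ?_ ?_
  · refine ENNReal.rpow_le_rpow (lintegral_mono fun u => ?_) (by positivity)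
    exact ENNReal.rpow_le_self_of_le_one (hΥ1 u) hp1
  · refine ENNReal.rpow_le_rpow ?_ (by positivity)
    simp_rw [ENNReal.rpow_natCast]
    exact rnDeriv_fatou ν Y q

/-- The limit inferior of the mollified norms, integrated over the rows. -/
lemma gl_B {ν : Measure E} [IsProbabilityMeasure ν] {K : ℝ≥0∞} {a : ℕ}
    (hν : ∀ x ρ, 0 < ρ → ν (Metric.closedBall x ρ) ≤ K * ENNReal.ofReal (ρ ^ a))
    (hsupp : ∀ᵐ v ∂ν, ‖v‖ ≤ 1) {k p n : ℕ} (hd : Module.finrank ℝ E = p + n) (hka : k + p ≤ a) :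
    ∫⁻ Y, liminf (fun m => ∫⁻ w, (Dn ν (etaS m) Y w) ^ (p + 1)) atTop
        ∂(Measure.pi fun _ : Fin k => stdGaussian E)
      ≤ (1 + K * ENNReal.ofReal (2 ^ (2 * a))) ^ p := by
  have hm : ∀ m, Measurable (fun Y : Fin k → E => ∫⁻ w, (Dn ν (etaS m) Y w) ^ (p + 1)) := fun m =>
    ((measurable_Dn ν (etaS m) k).pow_const (p + 1)).lintegral_prod_right'
  refine (lintegral_liminf_le hm).trans ?_
  refine liminf_le_of_le ?_ ?_
  · exact isBoundedUnder_of ⟨0, fun _ => bot_le⟩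
  · intro b hb
    obtain ⟨m, hm2⟩ := hb.exists
    exact hm2.trans (Jq_bound hν hsupp hd hka (etaS_pos m))

/-- The product of two copies of the test function. -/
noncomputable def Ups {t : ℕ} (Ψ : (Fin t → E) → (Fin t → ℝ) → ℝ≥0∞) (Y : Fin (2 * t) → E)
    (u : Fin (2 * t) → ℝ) : ℝ≥0∞ := Ψ (lf Y) (lf u) * Ψ (rg Y) (rg u)

lemma lintegral_Ups {t : ℕ} {Ψ : (Fin t → E) → (Fin t → ℝ) → ℝ≥0∞}
    (hΨ : Measurable (Function.uncurry Ψ)) (Y : Fin (2 * t) → E) :
    ∫⁻ u, Ups Ψ Y u = (∫⁻ y, Ψ (lf Y) y) * ∫⁻ y, Ψ (rg Y) y := by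
  have hΨ1 : ∀ X, Measurable (Ψ X) := fun X => hΨ.of_uncurry_left
  have hF : Measurable (Ups Ψ Y) :=
    ((hΨ1 _).comp measurable_lf).mul ((hΨ1 _).comp measurable_rg)
  rw [volume_pi, lintegral_merge _ hF]
  simp only [Ups, lf_merge, rg_merge]
  simp_rw [lintegral_const_mul _ (hΨ1 (rg Y))]
  rw [lintegral_mul_const _ (hΨ1 (lf Y)), ← volume_pi]

lemma measurable_Ups {t : ℕ} {Ψ : (Fin t → E) → (Fin t → ℝ) → ℝ≥0∞}
    (hΨ : Measurable (Function.uncurry Ψ)) (Y : Fin (2 * t) → E) : Measurable (Ups Ψ Y) := by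
  have hΨ1 : ∀ X, Measurable (Ψ X) := fun X => hΨ.of_uncurry_left
  exact ((hΨ1 _).comp measurable_lf).mul ((hΨ1 _).comp measurable_rg)

/-- The square of the smoothing operator is an average over two batches. -/
lemma gl_expand (ν : Measure E) [IsProbabilityMeasure ν] {t : ℕ}
    {Ψ : (Fin t → E) → (Fin t → ℝ) → ℝ≥0∞} (hΨ : Measurable (Function.uncurry Ψ)) :
    ∫⁻ v, (∫⁻ X, Ψ X (labels X v) ∂(Measure.pi fun _ : Fin t => stdGaussian E)) ^ 2 ∂ν
      = ∫⁻ Y, ∫⁻ v, Ups Ψ Y (labels Y v) ∂ν ∂(Measure.pi fun _ : Fin (2 * t) => stdGaussian E) := by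
  have hlab : Measurable (fun p : E × (Fin t → E) => labels p.2 p.1) := by
    refine measurable_pi_lambda _ fun i => ?_
    exact ((measurable_pi_apply i).comp measurable_snd).inner measurable_fst
  have hlabY : Measurable (fun p : E × (Fin (2 * t) → E) => Ψ (lf p.2) (labels (lf p.2) p.1) *
      Ψ (rg p.2) (labels (rg p.2) p.1)) := by
    refine Measurable.mul ?_ ?_
    · exact hΨ.comp ((measurable_lf.comp measurable_snd).prodMk
        (hlab.comp (measurable_fst.prodMk (measurable_lf.comp measurable_snd))))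
    · exact hΨ.comp ((measurable_rg.comp measurable_snd).prodMk
        (hlab.comp (measurable_fst.prodMk (measurable_rg.comp measurable_snd))))
  have hsq : ∀ v : E, (∫⁻ X, Ψ X (labels X v) ∂(Measure.pi fun _ : Fin t => stdGaussian E)) ^ 2
      = ∫⁻ Y, Ψ (lf Y) (labels (lf Y) v) * Ψ (rg Y) (labels (rg Y) v)
        ∂(Measure.pi fun _ : Fin (2 * t) => stdGaussian E) := by
    intro v
    have hm : Measurable (fun X : Fin t → E => Ψ X (labels X v)) :=
      hΨ.comp (measurable_id.prodMk (hlab.comp (measurable_const.prodMk measurable_id)))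
    rw [lintegral_merge (G := fun Y => Ψ (lf Y) (labels (lf Y) v) *
      Ψ (rg Y) (labels (rg Y) v)) _ ((hm.comp measurable_lf).mul (hm.comp measurable_rg))]
    simp only [lf_merge, rg_merge]
    simp_rw [lintegral_const_mul _ hm]
    rw [lintegral_mul_const _ hm, pow_two]
  simp_rw [hsq]
  rw [lintegral_lintegral_swap hlabY.aemeasurable]
  rfl

/-- **The `L²` smoothing bound for a measure with a ball bound.** -/
theorem gl_smoothing {ν : Measure E} [IsProbabilityMeasure ν] {K : ℝ≥0∞} {a : ℕ}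
    (hν : ∀ x ρ, 0 < ρ → ν (Metric.closedBall x ρ) ≤ K * ENNReal.ofReal (ρ ^ a))
    (hsupp : ∀ᵐ v ∂ν, ‖v‖ ≤ 1) {t p n : ℕ} (hp : 0 < p) (hd : Module.finrank ℝ E = p + n)
    (hka : 2 * t + p ≤ a) {Ψ : (Fin t → E) → (Fin t → ℝ) → ℝ≥0∞}
    (hΨ : Measurable (Function.uncurry Ψ)) (hΨ1 : ∀ X y, Ψ X y ≤ 1)
    (hac : ∀ᵐ Y ∂(Measure.pi fun _ : Fin (2 * t) => stdGaussian E), ν.map (labels Y) ≪ volume) :
    ∫⁻ v, (∫⁻ X, Ψ X (labels X v) ∂(Measure.pi fun _ : Fin t => stdGaussian E)) ^ 2 ∂ν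
      ≤ ((1 + K * ENNReal.ofReal (2 ^ (2 * a))) ^ p) ^ (1 / ((p + 1 : ℕ) : ℝ)) *
        (∫⁻ X, (∫⁻ y, Ψ X y) ∂(Measure.pi fun _ : Fin t => stdGaussian E)) ^
          (2 - 2 / ((p + 1 : ℕ) : ℝ)) := by
  classical
  rw [gl_expand ν hΨ]
  have hq1 : (1:ℝ) < ((p + 1 : ℕ) : ℝ) := by
    push_cast
    have : (0:ℝ) < p := by exact_mod_cast hp
    linarith
  have hpq : (((p + 1 : ℕ) : ℝ).conjExponent).HolderConjugate ((p + 1 : ℕ) : ℝ) :=
    (Real.HolderConjugate.conjExponent hq1).symm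
  set p' : ℝ := ((p + 1 : ℕ) : ℝ).conjExponent with hp'
  have hp0 : 0 < p' := hpq.pos
  have hq0 : (0:ℝ) < ((p + 1 : ℕ) : ℝ) := hpq.symm.pos
  -- the functions
  let phi : (Fin t → E) → ℝ≥0∞ := fun X => ∫⁻ y, Ψ X y
  have hphim : Measurable phi := hΨ.lintegral_prod_right'
  let Φ : (Fin (2 * t) → E) → ℝ≥0∞ := fun Y => phi (lf Y) * phi (rg Y)
  have hΦm : Measurable Φ := (hphim.comp measurable_lf).mul (hphim.comp measurable_rg)
  have hΦint : ∫⁻ Y, Φ Y ∂(Measure.pi fun _ : Fin (2 * t) => stdGaussian E)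
      = (∫⁻ X, phi X ∂(Measure.pi fun _ : Fin t => stdGaussian E)) ^ 2 := by
    rw [lintegral_merge _ hΦm]
    simp only [Φ, lf_merge, rg_merge]
    simp_rw [lintegral_const_mul _ hphim]
    rw [lintegral_mul_const _ hphim, pow_two]
  let B : (Fin (2 * t) → E) → ℝ≥0∞ := fun Y =>
    liminf (fun m => ∫⁻ w, (Dn ν (etaS m) Y w) ^ (p + 1)) atTop
  have hBm : Measurable B := by
    refine Measurable.liminf fun m => ?_
    exact ((measurable_Dn ν (etaS m) (2 * t)).pow_const (p + 1)).lintegral_prod_right'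
  have hBint : ∫⁻ Y, B Y ∂(Measure.pi fun _ : Fin (2 * t) => stdGaussian E)
      ≤ (1 + K * ENNReal.ofReal (2 ^ (2 * a))) ^ p := gl_B hν hsupp hd hka
  -- the bound for fixed rows
  have hfix : ∀ᵐ Y ∂(Measure.pi fun _ : Fin (2 * t) => stdGaussian E),
      ∫⁻ v, Ups Ψ Y (labels Y v) ∂ν ≤ Φ Y ^ (1 / p') * B Y ^ (1 / ((p + 1 : ℕ) : ℝ)) := by
    filter_upwards [hac] with Y hY
    have h1 := gl_fix ν Y hY (measurable_Ups hΨ Y) (fun u => ?_) hpq
    · rw [lintegral_Ups hΨ Y] at h1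
      exact h1
    · calc Ups Ψ Y u ≤ 1 * 1 := mul_le_mul' (hΨ1 _ _) (hΨ1 _ _)
        _ = 1 := one_mul 1
  refine (lintegral_mono_ae hfix).trans ?_
  have h2 := ENNReal.lintegral_mul_le_Lp_mul_Lq (Measure.pi fun _ : Fin (2 * t) => stdGaussian E) hpq
    (hΦm.pow_const (1 / p')).aemeasurable (hBm.pow_const (1 / ((p + 1 : ℕ) : ℝ))).aemeasurable
  refine h2.trans ?_
  have e1 : ∀ Y, (Φ Y ^ (1 / p')) ^ p' = Φ Y := by
    intro Y
    rw [← ENNReal.rpow_mul, one_div, inv_mul_cancel₀ hp0.ne', ENNReal.rpow_one]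
  have e2 : ∀ Y, (B Y ^ (1 / ((p + 1 : ℕ) : ℝ))) ^ ((p + 1 : ℕ) : ℝ) = B Y := by
    intro Y
    rw [← ENNReal.rpow_mul, one_div, inv_mul_cancel₀ hq0.ne', ENNReal.rpow_one]
  simp_rw [e1, e2]
  rw [hΦint, mul_comm]
  refine mul_le_mul' (ENNReal.rpow_le_rpow hBint (by positivity)) (le_of_eq ?_)
  rw [← ENNReal.rpow_natCast, ← ENNReal.rpow_mul]
  congr 1
  have e3 : 1 / p' = 1 - 1 / ((p + 1 : ℕ) : ℝ) := by
    have := hpq.one_div_add_one_div
    linarith
  rw [e3]
  push_cast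
  ring

end Vale.Agent.Lib.P309
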