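import Vale.Agent.Lib.P309.Rows

open MeasureTheory ProbabilityTheory Real Set Filter Topology
open scoped ENNReal Nat RealInnerProductSpace

namespace Vale.Agent.Lib.P309

variable {E : Type*} [NormedAddCommGroup E] [InnerProductSpace ℝ E] [FiniteDimensional ℝ E]
  [MeasurableSpace E] [BorelSpace E]

omit [FiniteDimensional ℝ E] [MeasurableSpace E] [BorelSpace E] in
/-- `gs f i` depends only on the first rows. -/
lemma gs_congr {f f' : ℕ → E} : ∀ {i : ℕ}, (∀ j ≤ i, f j = f' j) → gs f i = gs f' i := by
  intro i
  induction i using Nat.strong_induction_on with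
  | _ i ih =>
    intro h
    have h1 := InnerProductSpace.gramSchmidt_def'' ℝ f i
    have h2 := InnerProductSpace.gramSchmidt_def'' ℝ f' i
    have h3 : ∀ j ∈ Finset.Iio i, gs f j = gs f' j := fun j hj =>
      ih j (Finset.mem_Iio.1 hj) fun k hk => h k (hk.trans (Finset.mem_Iio.1 hj).le)
    have h4 : f i = f' i := h i le_rfl
    have h5 : ∑ k ∈ Finset.Iio i, (⟪gs f k, f i⟫ / ((‖gs f k‖ : ℝ)) ^ 2) • gs f k
        = ∑ k ∈ Finset.Iio i, (⟪gs f' k, f' i⟫ / ((‖gs f' k‖ : ℝ)) ^ 2) • gs f' k :=
      Finset.sum_congr rfl fun k hk => by rw [h3 k hk, h4]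
    have h6 : gs f i + ∑ k ∈ Finset.Iio i, (⟪gs f k, f i⟫ / ((‖gs f k‖ : ℝ)) ^ 2) • gs f k
        = gs f' i + ∑ k ∈ Finset.Iio i, (⟪gs f' k, f' i⟫ / ((‖gs f' k‖ : ℝ)) ^ 2) • gs f' k := by
      have e1 : f i = gs f i + ∑ k ∈ Finset.Iio i, (⟪gs f k, f i⟫ / ((‖gs f k‖ : ℝ)) ^ 2) • gs f k := by
        simpa using h1
      have e2 : f' i = gs f' i + ∑ k ∈ Finset.Iio i, (⟪gs f' k, f' i⟫ / ((‖gs f' k‖ : ℝ)) ^ 2) • gs f' k := by
        simpa using h2
      rw [← e1, ← e2, h4]
    rw [h5] at h6
    exact add_right_cancel h6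

/-- Measurability of the Gram-Schmidt residuals. -/
lemma measurable_gs {Ω : Type*} [MeasurableSpace Ω] {F : Ω → ℕ → E}
    (hF : ∀ i, Measurable fun ω => F ω i) (n : ℕ) : Measurable fun ω => gs (F ω) n := by
  induction n using Nat.strong_induction_on with
  | _ n ih =>
    have h1 : (fun ω => gs (F ω) n) = fun ω => F ω n -
        ∑ k ∈ Finset.Iio n, (⟪gs (F ω) k, F ω n⟫ / ((‖gs (F ω) k‖ : ℝ)) ^ 2) • gs (F ω) k := by
      funext ω
      have h2 := InnerProductSpace.gramSchmidt_def'' ℝ (F ω) n
      have e1 : F ω n = gs (F ω) n + ∑ k ∈ Finset.Iio n,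
          (⟪gs (F ω) k, F ω n⟫ / ((‖gs (F ω) k‖ : ℝ)) ^ 2) • gs (F ω) k := by
        simpa using h2
      rw [eq_sub_iff_add_eq, ← e1]
    rw [h1]
    refine (hF n).sub ?_
    refine Finset.measurable_sum _ fun k hk => ?_
    have hk' := ih k (Finset.mem_Iio.1 hk)
    exact ((hk'.inner (hF n)).div (hk'.norm.pow_const 2)).smul hk'

/-- The moment of one residual, over the choice of its row. -/
theorem row_moment (f : ℕ → E) {r b : ℕ} (h : r + 2 * (b + 1) + 2 ≤ Module.finrank ℝ E) :
    ∫⁻ x, (ENNReal.ofReal (‖gs (Function.update f r x) r‖ ^ 2))⁻¹ ^ (b + 1) ∂(stdGaussian E)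
      ≤ ENNReal.ofReal ((2 ^ (b + 1) * ((b + 1)! : ℝ))⁻¹) := by
  classical
  set W : Submodule ℝ E := Submodule.span ℝ (Set.range fun j : Fin r => gs f j) with hW
  have hWr : Module.finrank ℝ W ≤ r := by
    have := finrank_range_le_card (R := ℝ) (fun j : Fin r => gs f j)
    simpa [Set.finrank] using this
  set m : ℕ := Module.finrank ℝ Wᗮ with hm
  have hmadd : Module.finrank ℝ W + m = Module.finrank ℝ E :=
    Submodule.finrank_add_finrank_orthogonal W
  have hmb : 2 * (b + 1) + 2 ≤ m := by omega
  let b₂ : OrthonormalBasis (Fin m) ℝ Wᗮ := stdOrthonormalBasis ℝ Wᗮ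
  let e : Fin m → E := fun i => (b₂ i : E)
  have he : Orthonormal ℝ e := by
    have := b₂.orthonormal
    constructor
    · intro i
      exact this.1 i
    · intro i j hij
      exact this.2 hij
  let k : ℕ := Module.finrank ℝ W
  let v : Fin k ⊕ Fin m → E := Sum.elim (fun _ => 0) e
  have hv : Orthonormal ℝ ((range (Sum.inr : Fin m → Fin k ⊕ Fin m)).domRestrict v) := by
    constructor
    · rintro ⟨_, i, rfl⟩
      simpa [v] using he.1 i
    · rintro ⟨_, i, rfl⟩ ⟨_, j, rfl⟩ hij
      have hij' : i ≠ j := fun h => hij (by rw [h])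
      simpa [v] using he.2 hij'
  obtain ⟨B, hB⟩ := hv.exists_orthonormalBasis_extension_of_card_eq (by simp [← hmadd, k])
  have hBe : ∀ i, B (Sum.inr i) = e i := fun i => by
    simpa [v] using hB (Sum.inr i) ⟨i, rfl⟩
  -- the residual in the adapted coordinates
  have key : ∀ x : E, ‖gs (Function.update f r x) r‖ ^ 2 = ∑ i, ⟪e i, x⟫ ^ 2 := by
    intro x
    set u := gs (Function.update f r x) r with hu
    have hgs : ∀ j, j < r → gs (Function.update f r x) j = gs f j := by
      intro j hj
      refine gs_congr fun l hl => ?_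
      rw [Function.update_of_ne (by omega)]
    have huW : u ∈ Wᗮ := by
      rw [Submodule.mem_orthogonal]
      intro w hw
      induction hw using Submodule.span_induction with
      | mem w hw =>
        obtain ⟨j, rfl⟩ := hw
        show ⟪gs f j, u⟫ = 0
        rw [← hgs j j.2]
        exact InnerProductSpace.gramSchmidt_orthogonal ℝ _ (by have := j.2; omega)
      | zero => simp
      | add a c _ _ ha hc => rw [inner_add_left, ha, hc, add_zero]
      | smul a w _ hw => rw [inner_smul_left, hw, mul_zero]
    have hxu : x - u ∈ W := by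
      have h2 := InnerProductSpace.gramSchmidt_def'' ℝ (Function.update f r x) r
      have h3 : x - u = ∑ i ∈ Finset.Iio r,
          (⟪gs (Function.update f r x) i, x⟫ / ((‖gs (Function.update f r x) i‖ : ℝ)) ^ 2) •
            gs (Function.update f r x) i := by
        rw [Function.update_self] at h2
        rw [sub_eq_iff_eq_add', hu]
        simpa using h2
      rw [h3]
      refine Submodule.sum_mem _ fun i hi => Submodule.smul_mem _ _ ?_
      have hi' : i < r := Finset.mem_Iio.1 hi
      rw [hgs i hi']
      exact Submodule.subset_span ⟨⟨i, hi'⟩, rfl⟩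
    have h4 : ∀ i, ⟪e i, x⟫ = ⟪(b₂ i : E), u⟫ := by
      intro i
      have h5 : ⟪e i, x - u⟫ = 0 := Submodule.inner_left_of_mem_orthogonal hxu (b₂ i).2
      rw [inner_sub_right, sub_eq_zero] at h5
      exact h5
    have h5 := b₂.sum_sq_norm_inner_right (⟨u, huW⟩ : Wᗮ)
    simp_rw [h4]
    have h6 : ‖(⟨u, huW⟩ : Wᗮ)‖ = ‖u‖ := rfl
    rw [h6] at h5
    rw [← h5]
    refine Finset.sum_congr rfl fun i _ => ?_
    rw [Submodule.coe_inner]
    simp
  have hmeasG : Measurable (fun x : E =>
      (ENNReal.ofReal (‖gs (Function.update f r x) r‖ ^ 2))⁻¹ ^ (b + 1)) := by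
    refine Measurable.pow_const ?_ _
    refine Measurable.inv (ENNReal.measurable_ofReal.comp ?_)
    refine ((measurable_gs (F := fun x => Function.update f r x) ?_ r).norm).pow_const 2
    intro i
    by_cases hi : i = r
    · subst hi
      simp only [Function.update_self]
      exact measurable_id
    · simp only [Function.update_of_ne hi]
      exact measurable_const
  rw [lintegral_stdGaussian_basis B hmeasG]
  have h7 : ∀ x : Fin k ⊕ Fin m → ℝ,
      (ENNReal.ofReal (‖gs (Function.update f r (∑ j, x j • B j)) r‖ ^ 2))⁻¹ ^ (b + 1)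
        = (ENNReal.ofReal (sq fun i => x (Sum.inr i)))⁻¹ ^ (b + 1) := by
    intro x
    rw [key]
    have : ∀ i, ⟪e i, ∑ j, x j • B j⟫ = x (Sum.inr i) := by
      intro i
      rw [← hBe i, inner_basis_sum]
    simp_rw [this]
    rfl
  simp_rw [h7]
  have hG2 : Measurable (fun x : Fin k ⊕ Fin m → ℝ =>
      (ENNReal.ofReal (sq fun i => x (Sum.inr i)))⁻¹ ^ (b + 1)) := by
    refine Measurable.pow_const ?_ _
    refine Measurable.inv (ENNReal.measurable_ofReal.comp ?_)
    exact measurable_sq.comp (measurable_pi_lambda _ fun i => measurable_pi_apply _)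
  rw [lintegral_P_sum hG2]
  simp only [Sum.elim_inr, lintegral_const, measure_univ, mul_one]
  exact inv_moment m b hmb

/-- Extension of a finite family of rows by zero. -/
def ext {n : ℕ} (Y : Fin n → E) : ℕ → E := fun i => if h : i < n then Y ⟨i, h⟩ else 0

omit [FiniteDimensional ℝ E] [MeasurableSpace E] [BorelSpace E] in
lemma ext_coe {n : ℕ} (Y : Fin n → E) (i : Fin n) : ext Y i = Y i := by
  simp [ext]

lemma measurable_ext {n : ℕ} (i : ℕ) : Measurable fun Y : Fin n → E => ext Y i := by
  unfold ext
  by_cases h : i < n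
  · simp only [h, dif_pos]
    exact measurable_pi_apply _
  · simp only [h, dif_neg, not_false_eq_true]
    exact measurable_const

/-- The weight of the moment bound. -/
noncomputable def wt (t : ℕ) : ℝ≥0∞ := ENNReal.ofReal ((2 ^ t * (t ! : ℝ))⁻¹)

/-- The joint integrand of the moment bound. -/
noncomputable def blockG (t n : ℕ) (Y : Fin n → E) : ℝ≥0∞ :=
  ∏ i : Fin n, (ENNReal.ofReal (‖gs (ext Y) i‖ ^ 2))⁻¹ ^ t

lemma measurable_blockG (t n : ℕ) : Measurable (blockG (E := E) t n) := by
  unfold blockG
  refine Finset.measurable_prod _ fun i _ => ?_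
  refine Measurable.pow_const ?_ _
  refine Measurable.inv (ENNReal.measurable_ofReal.comp ?_)
  exact ((measurable_gs (F := fun Y : Fin n → E => ext Y) (fun j => measurable_ext j) i).norm).pow_const 2

/-- The moment of a full block of rows. -/
theorem block_moment {t : ℕ} (ht : 0 < t) :
    ∀ n : ℕ, n + 2 * t + 1 ≤ Module.finrank ℝ E →
      ∫⁻ Y, blockG (E := E) t n Y ∂(Measure.pi fun _ : Fin n => stdGaussian E) ≤ wt t ^ n := by
  intro n
  induction n with
  | zero =>
      intro _
      simp [blockG]
  | succ n ih =>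
      intro hn
      have mp := (measurePreserving_piFinSuccAbove (fun _ : Fin (n + 1) => stdGaussian E)
        (Fin.last n)).symm
      rw [← mp.lintegral_comp (measurable_blockG t (n + 1))]
      have hm2 : Measurable (fun p : E × (Fin n → E) =>
          blockG t (n + 1) ((MeasurableEquiv.piFinSuccAbove (fun _ : Fin (n + 1) => E)
            (Fin.last n)).symm p)) :=
        (measurable_blockG t (n + 1)).comp (MeasurableEquiv.measurable _)
      rw [lintegral_prod_symm' _ hm2]
      have h1 : ∀ (Y : Fin n → E) (x : E),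
          blockG t (n + 1) ((MeasurableEquiv.piFinSuccAbove (fun _ : Fin (n + 1) => E)
            (Fin.last n)).symm (x, Y))
            = blockG t n Y *
              (ENNReal.ofReal (‖gs (Function.update (ext Y) n x) n‖ ^ 2))⁻¹ ^ t := by
        intro Y x
        have hY : (MeasurableEquiv.piFinSuccAbove (fun _ : Fin (n + 1) => E)
            (Fin.last n)).symm (x, Y) = Fin.snoc Y x := by
          simp [MeasurableEquiv.piFinSuccAbove, Fin.insertNthEquiv]
        have e1 : ∀ i : Fin n, gs (ext (Fin.snoc (α := fun _ => E) Y x)) (i : ℕ) = gs (ext Y) i := by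
          intro i
          refine gs_congr fun j hj => ?_
          have hjn : j < n := lt_of_le_of_lt hj i.2
          simp only [ext]
          rw [dif_pos (by omega), dif_pos hjn]
          have : (⟨j, by omega⟩ : Fin (n + 1)) = Fin.castSucc ⟨j, hjn⟩ := rfl
          rw [this, Fin.snoc_castSucc]
        have e2 : gs (ext (Fin.snoc (α := fun _ => E) Y x)) n = gs (Function.update (ext Y) n x) n := by
          refine gs_congr fun j hj => ?_
          rcases Nat.lt_or_ge j n with hjn | hjn
          · rw [Function.update_of_ne (by omega)]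
            simp only [ext]
            rw [dif_pos (by omega), dif_pos hjn]
            have : (⟨j, by omega⟩ : Fin (n + 1)) = Fin.castSucc ⟨j, hjn⟩ := rfl
            rw [this, Fin.snoc_castSucc]
          · have hj' : j = n := by omega
            subst hj'
            rw [Function.update_self]
            simp only [ext]
            rw [dif_pos (by omega)]
            have : (⟨j, by omega⟩ : Fin (j + 1)) = Fin.last j := rfl
            rw [this, Fin.snoc_last]
        rw [hY, blockG, Fin.prod_univ_castSucc, blockG]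
        simp only [Fin.val_castSucc, Fin.val_last, e1, e2]
      simp_rw [h1]
      have hrow : ∀ Y : Fin n → E, Measurable fun x : E =>
          (ENNReal.ofReal (‖gs (Function.update (ext Y) n x) n‖ ^ 2))⁻¹ ^ t := by
        intro Y
        refine Measurable.pow_const ?_ _
        refine Measurable.inv (ENNReal.measurable_ofReal.comp ?_)
        refine ((measurable_gs (F := fun x => Function.update (ext Y) n x) ?_ n).norm).pow_const 2
        intro i
        by_cases hi : i = n
        · subst hi
          simp only [Function.update_self]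
          exact measurable_id
        · simp only [Function.update_of_ne hi]
          exact measurable_const
      simp_rw [lintegral_const_mul _ (hrow _)]
      obtain ⟨b, rfl⟩ : ∃ b, t = b + 1 := ⟨t - 1, by omega⟩
      calc ∫⁻ Y, blockG (b + 1) n Y * ∫⁻ x, (ENNReal.ofReal
              (‖gs (Function.update (ext Y) n x) n‖ ^ 2))⁻¹ ^ (b + 1) ∂(stdGaussian E)
            ∂(Measure.pi fun _ : Fin n => stdGaussian E)
          ≤ ∫⁻ Y, blockG (b + 1) n Y * wt (b + 1)
            ∂(Measure.pi fun _ : Fin n => stdGaussian E) := by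
            refine lintegral_mono fun Y => ?_
            gcongr
            exact row_moment (ext Y) (by omega)
        _ = (∫⁻ Y, blockG (b + 1) n Y ∂(Measure.pi fun _ : Fin n => stdGaussian E)) * wt (b + 1) :=
            lintegral_mul_const _ (measurable_blockG _ _)
        _ ≤ wt (b + 1) ^ n * wt (b + 1) := by
            gcongr
            exact ih (by omega)
        _ = wt (b + 1) ^ (n + 1) := (pow_succ _ _).symm

/-- Almost all blocks of rows are linearly independent. -/
theorem ae_gs_ne_zero {t n : ℕ} (ht : 0 < t) (hn : n + 2 * t + 1 ≤ Module.finrank ℝ E) :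
    ∀ᵐ Y ∂(Measure.pi fun _ : Fin n => stdGaussian E), ∀ i : Fin n, gs (ext Y) i ≠ 0 := by
  have hfin : ∫⁻ Y, blockG (E := E) t n Y ∂(Measure.pi fun _ : Fin n => stdGaussian E) ≠ ∞ := by
    refine ne_top_of_le_ne_top ?_ (block_moment ht n hn)
    refine ENNReal.pow_ne_top ENNReal.ofReal_ne_top
  filter_upwards [ae_lt_top (measurable_blockG t n) hfin] with Y hY i hi
  have h1 : blockG t n Y = ∞ := by
    rw [blockG, ← Finset.mul_prod_erase _ _ (Finset.mem_univ i)]
    have h2 : (ENNReal.ofReal (‖gs (ext Y) i‖ ^ 2))⁻¹ ^ t = ∞ := by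
      rw [hi]
      simp [ht.ne']
    rw [h2]
    refine ENNReal.top_mul ?_
    rw [Finset.prod_ne_zero_iff]
    intro j _
    refine pow_ne_zero _ ?_
    simp
  exact absurd hY (by simp [h1])

end Vale.Agent.Lib.P309
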