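import Mathlib

open MeasureTheory ProbabilityTheory Real
open scoped ENNReal

namespace Vale.Agent.Lib.P309

/-- Sum of squares of the coordinates. -/
noncomputable def sq {ι : Type*} [Fintype ι] (x : ι → ℝ) : ℝ := ∑ i, x i ^ 2

lemma sq_nonneg' {ι : Type*} [Fintype ι] (x : ι → ℝ) : 0 ≤ sq x :=
  Finset.sum_nonneg fun _ _ => sq_nonneg _

lemma measurable_sq {ι : Type*} [Fintype ι] : Measurable (sq : (ι → ℝ) → ℝ) := by
  unfold sq; fun_prop

/-- The standard Gaussian on coordinates. -/
noncomputable def P (ι : Type*) [Fintype ι] : Measure (ι → ℝ) :=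
  Measure.pi fun _ => gaussianReal 0 1

instance (ι : Type*) [Fintype ι] : IsProbabilityMeasure (P ι) := by
  unfold P; infer_instance

/-- Fubini for products over `Fin n` (lower integrals). -/
theorem lintegral_pi_prod {α : Type*} [MeasurableSpace α] (μ : Measure α) [SigmaFinite μ] :
    ∀ (n : ℕ) (f : Fin n → α → ℝ≥0∞), (∀ i, Measurable (f i)) →
      ∫⁻ x, ∏ i, f i (x i) ∂(Measure.pi fun _ : Fin n => μ) = ∏ i, ∫⁻ y, f i y ∂μ := by
  intro n
  induction n with
  | zero =>
      intro f _
      simp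
  | succ n ih =>
      intro f hf
      have mp := (measurePreserving_piFinSuccAbove (fun _ : Fin (n+1) => μ) 0).symm
      have hm : Measurable (fun x : Fin (n+1) → α => ∏ i, f i (x i)) :=
        Finset.measurable_prod _ fun i _ => (hf i).comp (measurable_pi_apply i)
      rw [← mp.lintegral_comp hm]
      simp_rw [MeasurableEquiv.piFinSuccAbove_symm_apply, Fin.insertNthEquiv,
        Fin.prod_univ_succ, Fin.insertNth_zero, Equiv.coe_fn_mk, Fin.cons_succ,
        Fin.cons_zero]
      simp only [cast_eq]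
      rw [lintegral_prod_mul (f := f 0) (g := fun y : Fin n → α => ∏ x, f x.succ (y x))
        (hf 0).aemeasurable
        (Measurable.aemeasurable (Finset.measurable_prod _ fun i _ =>
          (hf i.succ).comp (measurable_pi_apply i))),
        ih (fun i => f i.succ) (fun i => hf i.succ)]

/-- Density of the coordinate Gaussian. -/
noncomputable def Gd (m : ℕ) (x : Fin m → ℝ) : ℝ :=
  ((√(2 * π))⁻¹) ^ m * exp (- sq x / 2)

lemma Gd_nonneg (m : ℕ) (x : Fin m → ℝ) : 0 ≤ Gd m x := by
  unfold Gd; positivity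

lemma measurable_Gd (m : ℕ) : Measurable (Gd m) := by
  unfold Gd
  exact measurable_const.mul (Real.measurable_exp.comp (measurable_sq.neg.div_const 2))

lemma gaussianPDF_zero_one (x : ℝ) :
    gaussianPDF 0 1 x = ENNReal.ofReal ((√(2 * π))⁻¹ * exp (- x ^ 2 / 2)) := by
  simp [gaussianPDF, gaussianPDFReal]

lemma Gd_eq_prod (m : ℕ) (x : Fin m → ℝ) :
    ENNReal.ofReal (Gd m x) = ∏ i, gaussianPDF 0 1 (x i) := by
  simp_rw [gaussianPDF_zero_one]
  rw [← ENNReal.ofReal_prod_of_nonneg (fun i _ => by positivity)]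
  congr 1
  rw [Finset.prod_mul_distrib, Finset.prod_const, Finset.card_univ, Fintype.card_fin,
    ← Real.exp_sum, Gd, sq, ← Finset.sum_div, Finset.sum_neg_distrib]

theorem P_eq_withDensity (m : ℕ) :
    P (Fin m) = volume.withDensity fun x => ENNReal.ofReal (Gd m x) := by
  refine Measure.pi_eq fun s hs => ?_
  rw [withDensity_apply _ (MeasurableSet.univ_pi hs)]
  have h1 : ∀ x : Fin m → ℝ, (Set.univ.pi s).indicator (fun x => ENNReal.ofReal (Gd m x)) x
      = ∏ i, (s i).indicator (gaussianPDF 0 1) (x i) := by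
    intro x
    by_cases hx : x ∈ Set.univ.pi s
    · rw [Set.indicator_of_mem hx, Gd_eq_prod]
      refine Finset.prod_congr rfl fun i _ => ?_
      rw [Set.indicator_of_mem (hx i (Set.mem_univ i))]
    · rw [Set.indicator_of_notMem hx]
      symm
      simp only [Set.mem_pi, Set.mem_univ, forall_true_left, not_forall] at hx
      obtain ⟨i, hi⟩ := hx
      exact Finset.prod_eq_zero (Finset.mem_univ i) (Set.indicator_of_notMem hi _)
  rw [← lintegral_indicator (MeasurableSet.univ_pi hs)]
  simp_rw [h1]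
  have h2 := lintegral_pi_prod (volume : Measure ℝ) m
    (fun i => (s i).indicator (gaussianPDF 0 1))
    (fun i => (measurable_gaussianPDF 0 1).indicator (hs i))
  rw [volume_pi, h2]
  refine Finset.prod_congr rfl fun i _ => ?_
  rw [lintegral_indicator (hs i), gaussianReal_of_var_ne_zero 0 one_ne_zero,
    withDensity_apply _ (hs i)]

/-- one dimensional exponential moment -/
lemma gauss1d_exp (a : ℝ) (ha : -1 < a) :
    ∫⁻ x, ENNReal.ofReal (exp (- a * x ^ 2 / 2)) ∂(gaussianReal 0 1)
      = ENNReal.ofReal ((√(1 + a))⁻¹) := by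
  have hm : Measurable (fun x : ℝ => ENNReal.ofReal (exp (- a * x ^ 2 / 2))) := by fun_prop
  rw [gaussianReal_of_var_ne_zero 0 one_ne_zero,
    lintegral_withDensity_eq_lintegral_mul _ (measurable_gaussianPDF 0 1) hm]
  have hb : 0 < (1 + a) / 2 := by linarith
  have h1 : ∀ x : ℝ, (gaussianPDF 0 1 * fun x => ENNReal.ofReal (exp (-a * x ^ 2 / 2))) x
      = ENNReal.ofReal ((√(2 * π))⁻¹ * exp (- ((1 + a) / 2) * x ^ 2)) := by
    intro x
    simp only [Pi.mul_apply]
    rw [gaussianPDF_zero_one, ← ENNReal.ofReal_mul (by positivity), mul_assoc, ← Real.exp_add]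
    congr 3
    ring
  simp_rw [h1]
  have hi : Integrable (fun x : ℝ => (√(2 * π))⁻¹ * exp (- ((1 + a) / 2) * x ^ 2)) :=
    (integrable_exp_neg_mul_sq hb).const_mul _
  rw [← ofReal_integral_eq_lintegral_ofReal hi
    (Filter.Eventually.of_forall fun x => by positivity)]
  congr 1
  rw [integral_const_mul, integral_gaussian]
  have h2pi : 0 < 2 * π := by positivity
  have h1a : 0 < 1 + a := by linarith
  rw [show π / ((1 + a) / 2) = (2 * π) / (1 + a) by field_simp, Real.sqrt_div h2pi.le]
  field_simp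

/-- Exponential moments of the sum of squares. -/
theorem lintegral_exp_sq (m : ℕ) (a : ℝ) (ha : -1 < a) :
    ∫⁻ x, ENNReal.ofReal (exp (- a * sq x / 2)) ∂(P (Fin m))
      = ENNReal.ofReal (((√(1 + a))⁻¹) ^ m) := by
  have h := lintegral_pi_prod (gaussianReal 0 1) m
    (fun _ x => ENNReal.ofReal (exp (- a * x ^ 2 / 2)))
    (fun _ => ENNReal.measurable_ofReal.comp (Real.measurable_exp.comp (by fun_prop)))
  have h1 : ∀ x : Fin m → ℝ, ENNReal.ofReal (exp (- a * sq x / 2))
      = ∏ i, ENNReal.ofReal (exp (- a * x i ^ 2 / 2)) := by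
    intro x
    rw [← ENNReal.ofReal_prod_of_nonneg (fun i _ => by positivity), ← Real.exp_sum]
    congr 2
    rw [sq, Finset.mul_sum, Finset.sum_div]
  simp_rw [h1]
  rw [P, h]
  simp_rw [gauss1d_exp a ha]
  rw [Finset.prod_const, Finset.card_univ, Fintype.card_fin, ENNReal.ofReal_pow (by positivity)]

end Vale.Agent.Lib.P309
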