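import Vale.Agent.Lib.P309.GSMoment

open MeasureTheory ProbabilityTheory Real Set Filter Topology Matrix
open scoped ENNReal Nat RealInnerProductSpace

namespace Vale.Agent.Lib.P309

variable {E : Type*} [NormedAddCommGroup E] [InnerProductSpace ℝ E] [FiniteDimensional ℝ E]
  [MeasurableSpace E] [BorelSpace E]

lemma Gd_le (m : ℕ) (x : Fin m → ℝ) : Gd m x ≤ ((√(2 * π))⁻¹) ^ m := by
  unfold Gd
  have h1 : exp (- sq x / 2) ≤ 1 := by
    rw [Real.exp_le_one_iff]
    have := sq_nonneg' x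
    linarith
  have h2 : 0 ≤ ((√(2 * π))⁻¹) ^ m := by positivity
  nlinarith

/-- Density bound for the coordinates of a Gaussian vector in an orthonormal family. -/
theorem gauss_orthonormal {p n : ℕ} (hd : Module.finrank ℝ E = p + n) {e : Fin p → E}
    (he : Orthonormal ℝ e) {F : (Fin p → ℝ) → ℝ≥0∞} (hF : Measurable F) :
    ∫⁻ g, F (fun i => ⟪e i, g⟫) ∂(stdGaussian E)
      ≤ ENNReal.ofReal (((√(2 * π))⁻¹) ^ p) * ∫⁻ u, F u := by
  classical
  let v : Fin p ⊕ Fin n → E := Sum.elim e (fun _ => 0)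
  have hv : Orthonormal ℝ ((range (Sum.inl : Fin p → Fin p ⊕ Fin n)).domRestrict v) := by
    constructor
    · rintro ⟨_, i, rfl⟩
      simpa [v] using he.1 i
    · rintro ⟨_, i, rfl⟩ ⟨_, j, rfl⟩ hij
      have hij' : i ≠ j := fun h => hij (by rw [h])
      simpa [v] using he.2 hij'
  obtain ⟨b, hb⟩ := hv.exists_orthonormalBasis_extension_of_card_eq (by simp [hd])
  have hbe : ∀ i, b (Sum.inl i) = e i := fun i => by
    simpa [v] using hb (Sum.inl i) ⟨i, rfl⟩
  have hG : Measurable (fun g : E => F (fun i => ⟪e i, g⟫)) := by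
    apply hF.comp
    refine measurable_pi_lambda _ fun i => ?_
    exact measurable_const.inner measurable_id
  rw [lintegral_stdGaussian_basis b hG]
  have h1 : ∀ x : Fin p ⊕ Fin n → ℝ,
      F (fun i => ⟪e i, ∑ j, x j • b j⟫) = F (fun i => x (Sum.inl i)) := by
    intro x
    congr 1
    funext i
    rw [← hbe i, inner_basis_sum]
  simp_rw [h1]
  have hG2 : Measurable (fun x : Fin p ⊕ Fin n → ℝ => F (fun i => x (Sum.inl i))) := by
    apply hF.comp
    exact measurable_pi_lambda _ fun i => measurable_pi_apply _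
  rw [lintegral_P_sum hG2]
  simp only [Sum.elim_inl, lintegral_const, measure_univ, mul_one]
  rw [P_eq_withDensity, lintegral_withDensity_eq_lintegral_mul _ (measurable_ofReal_Gd p) hF]
  rw [← lintegral_const_mul _ hF]
  refine lintegral_mono fun u => ?_
  simp only [Pi.mul_apply]
  gcongr
  exact Gd_le p u

/-- Density bound for general rows (Gaussian, not normalised). -/
theorem gauss_rows {p n : ℕ} (hd : Module.finrank ℝ E = p + n)
    {f : ℕ → E} (hf : ∀ i < p, gs f i ≠ 0) {F : (Fin p → ℝ) → ℝ≥0∞} (hF : Measurable F) :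
    ∫⁻ g, F (fun i : Fin p => ⟪f i, g⟫) ∂(stdGaussian E)
      ≤ ENNReal.ofReal (((√(2 * π))⁻¹) ^ p) *
        (ENNReal.ofReal (∏ i : Fin p, ‖gs f i‖⁻¹) * ∫⁻ u, F u) := by
  classical
  let L : Matrix (Fin p) (Fin p) ℝ := Matrix.of fun i j => ⟪ee f j, f i⟫
  have hLlow : L.IsLowerTriangular := by
    intro i j hij
    have hlt : (i:ℕ) < j := hij
    simp only [L, Matrix.of_apply]
    rw [ee, inner_smul_left, InnerProductSpace.gramSchmidt_inv_triangular ℝ f hlt]
    simp
  have hLdiag : ∀ i, L i i = ‖gs f i‖ := by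
    intro i
    have hi : ‖gs f i‖ ≠ 0 := norm_ne_zero_iff.2 (hf i i.2)
    simp only [L, Matrix.of_apply]
    rw [ee, inner_smul_left, inner_gs_self]
    simp only [conj_trivial]
    field_simp
  have hdet : L.det = ∏ i : Fin p, ‖gs f i‖ := by
    rw [Matrix.det_of_isLowerTriangular L hLlow]
    exact Finset.prod_congr rfl fun i _ => hLdiag i
  have hdetpos : 0 < L.det := by
    rw [hdet]
    exact Finset.prod_pos fun i _ => norm_pos_iff.2 (hf i i.2)
  have hexp : ∀ (g : E) (i : Fin p),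
      ⟪f i, g⟫ = (L.mulVec fun j : Fin p => ⟪ee f j, g⟫) i := by
    intro g i
    rw [inner_row_expand i.2 hf, ← Fin.sum_univ_eq_sum_range (fun j => ⟪ee f j, f i⟫ * ⟪ee f j, g⟫)]
    simp [Matrix.mulVec, dotProduct, L]
  have hFL : Measurable (fun u : Fin p → ℝ => F (L.mulVec u)) :=
    hF.comp (Matrix.toLin' L).continuous_of_finiteDimensional.measurable
  have h1 := gauss_orthonormal hd (orthonormal_ee hf) hFL
  have h2 : ∫⁻ u, F (L.mulVec u) = ENNReal.ofReal (∏ i : Fin p, ‖gs f i‖⁻¹) * ∫⁻ u, F u := by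
    have hmap := Real.map_matrix_volume_pi_eq_smul_volume_pi hdetpos.ne'
    have h3 : ∫⁻ u, F (L.mulVec u) = ∫⁻ u, F u ∂(Measure.map (Matrix.toLin' L) volume) := by
      rw [lintegral_map hF (Matrix.toLin' L).continuous_of_finiteDimensional.measurable]
      rfl
    rw [h3, hmap, lintegral_smul_measure, smul_eq_mul, hdet, abs_of_pos (by
      have : 0 < ∏ i : Fin p, ‖gs f i‖ := Finset.prod_pos fun i _ => norm_pos_iff.2 (hf i i.2)
      positivity), Finset.prod_inv_distrib]
  rw [h2] at h1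
  simp_rw [hexp]
  exact h1

end Vale.Agent.Lib.P309
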