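import Vale.Agent.Lib.P309.Energy

open MeasureTheory ProbabilityTheory Real Set Filter Topology
open scoped ENNReal Nat RealInnerProductSpace

namespace Vale.Agent.Lib.P309

variable {E : Type*} [NormedAddCommGroup E] [InnerProductSpace ℝ E] [FiniteDimensional ℝ E]
  [MeasurableSpace E] [BorelSpace E]

/-- The mollified density of the labels of a measure at the rows `Y`. -/
noncomputable def Dn (ν : Measure E) (η : ℝ) {k : ℕ} (Y : Fin k → E) (w : Fin k → ℝ) : ℝ≥0∞ :=
  ∫⁻ v, ∏ l, kap η (⟪Y l, v⟫ - w l) ∂ν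

lemma measurable_kap_prod (η : ℝ) (k : ℕ) :
    Measurable (fun q : ((Fin k → E) × (Fin k → ℝ)) × E =>
      ∏ l, kap η (⟪q.1.1 l, q.2⟫ - q.1.2 l)) := by
  refine Finset.measurable_prod _ fun l _ => ?_
  refine (measurable_kap η).comp (Measurable.sub ?_ ?_)
  · exact ((measurable_pi_apply l).comp (measurable_fst.comp measurable_fst)).inner measurable_snd
  · exact (measurable_pi_apply l).comp (measurable_snd.comp measurable_fst)

lemma measurable_Dn (ν : Measure E) [SFinite ν] (η : ℝ) (k : ℕ) :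
    Measurable (fun q : (Fin k → E) × (Fin k → ℝ) => Dn ν η q.1 q.2) :=
  (measurable_kap_prod (E := E) η k).lintegral_prod_right'

lemma measurable_Hov_joint (η : ℝ) (p : ℕ) :
    Measurable (fun q : (Fin (p + 1) → E) × E => Hov η q.1 q.2) := by
  unfold Hov
  have h : Measurable (fun r : ((Fin (p + 1) → E) × E) × ℝ =>
      ∏ i, kap η (⟪r.1.2, r.1.1 i⟫ - r.2)) := by
    refine Finset.measurable_prod _ fun i _ => ?_
    refine (measurable_kap η).comp (Measurable.sub ?_ measurable_snd)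
    exact (measurable_snd.comp measurable_fst).inner
      ((measurable_pi_apply i).comp (measurable_fst.comp measurable_fst))
  exact h.lintegral_prod_right'

/-- The integral over the mollification variable factorises over the rows. -/
lemma integral_rows (η : ℝ) {k p : ℕ} (Y : Fin k → E) (v : Fin (p + 1) → E) :
    ∫⁻ w : Fin k → ℝ, ∏ i, ∏ l, kap η (⟪Y l, v i⟫ - w l) = ∏ l, Hov η v (Y l) := by
  have h1 : ∀ w : Fin k → ℝ, ∏ i, ∏ l, kap η (⟪Y l, v i⟫ - w l)
      = ∏ l, (fun l w' => ∏ i, kap η (⟪Y l, v i⟫ - w')) l (w l) := by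
    intro w
    rw [Finset.prod_comm]
  simp_rw [h1]
  rw [volume_pi, lintegral_pi_prod (volume : Measure ℝ) k
    (fun l w' => ∏ i, kap η (⟪Y l, v i⟫ - w'))
    (fun l => Finset.measurable_prod _ fun i _ =>
      (measurable_kap η).comp (measurable_const.sub measurable_id))]
  rfl

/-- The power of the mollified density, as an integral over several independent points. -/
lemma Dn_pow (ν : Measure E) [IsProbabilityMeasure ν] (η : ℝ) {k : ℕ} (p : ℕ) (Y : Fin k → E)
    (w : Fin k → ℝ) :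
    (Dn ν η Y w) ^ (p + 1)
      = ∫⁻ v, ∏ i, ∏ l, kap η (⟪Y l, v i⟫ - w l) ∂(Measure.pi fun _ : Fin (p + 1) => ν) := by
  have hm : Measurable (fun v : E => ∏ l, kap η (⟪Y l, v⟫ - w l)) := by
    refine Finset.measurable_prod _ fun l _ => ?_
    exact (measurable_kap η).comp ((measurable_const.inner measurable_id).sub measurable_const)
  rw [lintegral_pi_prod ν (p + 1) (fun _ v => ∏ l, kap η (⟪Y l, v⟫ - w l)) (fun _ => hm)]
  simp [Dn]

lemma Jq_inner (ν : Measure E) [IsProbabilityMeasure ν] (η : ℝ) {k : ℕ} (p : ℕ) (Y : Fin k → E) :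
    ∫⁻ w, (Dn ν η Y w) ^ (p + 1)
      = ∫⁻ v, ∏ l, Hov η v (Y l) ∂(Measure.pi fun _ : Fin (p + 1) => ν) := by
  have hBg : Measurable (fun q : (Fin k → ℝ) × (Fin (p + 1) → E) =>
      ∏ i, ∏ l, kap η (⟪Y l, q.2 i⟫ - q.1 l)) := by
    refine Finset.measurable_prod _ fun i _ => Finset.measurable_prod _ fun l _ => ?_
    refine (measurable_kap η).comp (Measurable.sub ?_ ?_)
    · exact measurable_const.inner ((measurable_pi_apply i).comp measurable_snd)
    · exact (measurable_pi_apply l).comp measurable_fst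
  simp_rw [Dn_pow ν η p Y]
  rw [lintegral_lintegral_swap hBg.aemeasurable]
  simp_rw [integral_rows]

lemma measurable_Hov (η : ℝ) {p : ℕ} (v : Fin (p + 1) → E) : Measurable (fun y => Hov η v y) := by
  have h1 : Measurable (fun y : E => (v, y)) := measurable_const.prodMk measurable_id
  have h2 := (measurable_Hov_joint (E := E) η p).comp h1
  exact h2

lemma Jq_row (η : ℝ) {k p : ℕ} (v : Fin (p + 1) → E) :
    ∫⁻ Y, ∏ l, Hov η v (Y l) ∂(Measure.pi fun _ : Fin k => stdGaussian E)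
      = (∫⁻ y, Hov η v y ∂(stdGaussian E)) ^ k := by
  have h := lintegral_pi_prod (stdGaussian E) k (fun _ y => Hov η v y) (fun _ => measurable_Hov η v)
  rw [Finset.prod_const, Finset.card_univ, Fintype.card_fin] at h
  exact h

lemma Jq_swap (ν : Measure E) [IsProbabilityMeasure ν] (η : ℝ) {k : ℕ} (p : ℕ) :
    ∫⁻ Y, ∫⁻ v, ∏ l, Hov η v (Y l) ∂(Measure.pi fun _ : Fin (p + 1) => ν)
        ∂(Measure.pi fun _ : Fin k => stdGaussian E)
      = ∫⁻ v, (∫⁻ y, Hov η v y ∂(stdGaussian E)) ^ k ∂(Measure.pi fun _ : Fin (p + 1) => ν) := by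
  have hjoint : Measurable (fun q : (Fin k → E) × (Fin (p + 1) → E) => ∏ l, Hov η q.2 (q.1 l)) := by
    refine Finset.measurable_prod _ fun l _ => ?_
    have h1 : Measurable (fun q : (Fin k → E) × (Fin (p + 1) → E) => (q.2, q.1 l)) :=
      by fun_prop
    have h2 := (measurable_Hov_joint (E := E) η p).comp h1
    exact h2
  have h3 : AEMeasurable (Function.uncurry fun (Y : Fin k → E) (v : Fin (p + 1) → E) =>
    ∏ l, Hov η v (Y l)) ((Measure.pi fun _ : Fin k => stdGaussian E).prod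
      (Measure.pi fun _ : Fin (p + 1) => ν)) := hjoint.aemeasurable
  have hswap := lintegral_lintegral_swap h3
  refine hswap.trans ?_
  exact lintegral_congr fun v => Jq_row η v

/-- The energy integral, splitting off the first point. -/
lemma energy_dif {ν : Measure E} [IsProbabilityMeasure ν] {K : ℝ≥0∞} {a : ℕ}
    (hν : ∀ x ρ, 0 < ρ → ν (Metric.closedBall x ρ) ≤ K * ENNReal.ofReal (ρ ^ a))
    (hsupp : ∀ᵐ v ∂ν, ‖v‖ ≤ 1) {k p : ℕ} (hka : k + p ≤ a) :
    ∫⁻ v, blockE k p (dif v) ∂(Measure.pi fun _ : Fin (p + 1) => ν)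
      ≤ (1 + K * ENNReal.ofReal (2 ^ (2 * a))) ^ p := by
  have hmdif : Measurable (fun v : Fin (p + 1) → E => blockE k p (dif v)) := by
    refine (measurable_blockE k p).comp ?_
    exact measurable_pi_lambda _ fun j => (measurable_pi_apply _).sub (measurable_pi_apply _)
  have mp := (measurePreserving_piFinSuccAbove (fun _ : Fin (p + 1) => ν) 0).symm
  rw [← mp.lintegral_comp hmdif]
  have hm2 : Measurable (fun q : E × (Fin p → E) =>
      blockE k p (dif ((MeasurableEquiv.piFinSuccAbove (fun _ : Fin (p + 1) => E) 0).symm q))) :=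
    hmdif.comp (MeasurableEquiv.measurable _)
  rw [lintegral_prod _ hm2.aemeasurable]
  have h5 : ∀ (x₀ : E) (w : Fin p → E),
      dif ((MeasurableEquiv.piFinSuccAbove (fun _ : Fin (p + 1) => E) 0).symm (x₀, w))
        = fun j => w j - x₀ := by
    intro x₀ w
    have hY : (MeasurableEquiv.piFinSuccAbove (fun _ : Fin (p + 1) => E) 0).symm (x₀, w)
        = Fin.cons x₀ w := by
      simp [MeasurableEquiv.piFinSuccAbove, Fin.insertNthEquiv]
    rw [hY]
    funext j
    simp [dif]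
  simp_rw [h5]
  calc ∫⁻ x₀, ∫⁻ w, blockE k p (fun j => w j - x₀) ∂(Measure.pi fun _ : Fin p => ν) ∂ν
      ≤ ∫⁻ _, (1 + K * ENNReal.ofReal (2 ^ (2 * a))) ^ p ∂ν :=
        lintegral_mono fun x₀ => energy_moment hν hsupp x₀ k p hka
    _ = _ := by simp

/-- The `L^q` bound for the mollified densities, averaged over the rows. -/
theorem Jq_bound {ν : Measure E} [IsProbabilityMeasure ν] {K : ℝ≥0∞} {a : ℕ}
    (hν : ∀ x ρ, 0 < ρ → ν (Metric.closedBall x ρ) ≤ K * ENNReal.ofReal (ρ ^ a))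
    (hsupp : ∀ᵐ v ∂ν, ‖v‖ ≤ 1) {k p n : ℕ} (hd : Module.finrank ℝ E = p + n) (hka : k + p ≤ a)
    {η : ℝ} (hη : 0 < η) :
    ∫⁻ Y, ∫⁻ w, (Dn ν η Y w) ^ (p + 1) ∂(volume : Measure (Fin k → ℝ))
        ∂(Measure.pi fun _ : Fin k => stdGaussian E)
      ≤ (1 + K * ENNReal.ofReal (2 ^ (2 * a))) ^ p := by
  simp_rw [Jq_inner ν η p]
  rw [Jq_swap ν η p]
  refine le_trans (lintegral_mono fun v => ?_) (energy_dif hν hsupp hka)
  have h4 := lintegral_Hov_le hd hη v
  rw [blockE, Finset.prod_pow]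
  gcongr

end Vale.Agent.Lib.P309
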