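import Vale.Agent.Lib.P309.NodeStep

open MeasureTheory ProbabilityTheory Real Set Filter Topology
open scoped ENNReal Nat RealInnerProductSpace

namespace Vale.Agent.Lib.P309

variable {d : ℕ} {𝓐 : Type*} [Fintype 𝓐] [DecidableEq 𝓐]

/-- The invariant of a level: each state law is a finite sum of good nodes plus an error. -/
def LevelInv (a : ℕ) (Q err : ℝ≥0∞) (F : 𝓐 → Sph d → ℝ≥0∞) : Prop :=
  ∃ S E : 𝓐 → Sph d → ℝ≥0∞, (∀ b s, F b s = S b s + E b s) ∧ (∀ b, SumGood a Q (S b)) ∧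
    (∀ b, Measurable (E b)) ∧ ∑ b, ∫⁻ s, E b s ∂(unifSphere d) ≤ err

variable {t₂ n₂ a : ℕ}

/-- The initial level. -/
theorem level_init (ht₂ : 0 < t₂) (hd : d = 2 * t₂ + n₂) (hn2 : 2 ≤ n₂) (hn3 : n₂ ≤ 3)
    (ha : a < 2 * t₂) {ι₀ : 𝓐 → ℝ≥0∞} (hι : ∑ b, ι₀ b = 1) {δ : ℝ≥0∞} (hδ0 : δ ≠ 0) (hδT : δ ≠ ∞) :
    LevelInv a (2 / δ) δ (fun b (_ : Sph d) => ι₀ b) := by
  have hd0 : 0 < d := by omega
  have hpr := unifSphere_prob hd0
  have hιT : ∀ b, ι₀ b ≠ ∞ := fun b => by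
    refine ne_top_of_le_ne_top (ENNReal.one_ne_top) ?_
    rw [← hι]
    exact Finset.single_le_sum (f := ι₀) (fun _ _ => bot_le) (Finset.mem_univ b)
  have key : ∀ b, ∃ S E : Sph d → ℝ≥0∞, (∀ s, ι₀ b = S s + E s) ∧ SumGood a (2 / δ) S ∧
      Measurable E ∧ ∫⁻ s, E s ∂(unifSphere d) ≤ δ * ι₀ b := by
    intro b
    by_cases h0 : ι₀ b = 0
    · refine ⟨0, 0, fun s => by simp [h0], SumGood.zero, measurable_const, by simp⟩
    · have hmass : ∫⁻ _ : Sph d, ι₀ b ∂(unifSphere d) = ι₀ b := by simp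
      have hsupp : ∀ s : Sph d, s ∉ ballS (0 : Rd d) 1 → ι₀ b = 0 := by
        intro s hs
        exfalso
        apply hs
        show ‖(s : Rd d) - 0‖ ≤ 1
        rw [sub_zero]
        exact le_of_eq (by simp)
      obtain ⟨S, E, h1, h2, h3, h4⟩ := decomp (G := fun _ : Sph d => ι₀ b) (c := (0 : Rd d)) (r := 1)
        (g := ι₀ b) (a := a) ht₂ hd hn2 hn3 ha one_pos le_rfl measurable_const hsupp (fun _ => le_rfl)
        (hιT b) hδ0 hδT (by rw [hmass]; exact h0)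
      rw [hmass] at h2 h4
      refine ⟨S, E, h1, h2.mono ?_, h3, h4⟩
      have e : ι₀ b * ENNReal.ofReal ((1:ℝ) ^ a) / ι₀ b = 1 := by
        simp only [one_pow, ENNReal.ofReal_one, mul_one]
        exact ENNReal.div_self h0 (hιT b)
      rw [e, mul_one]
  choose S E h1 h2 h3 h4 using key
  refine ⟨S, E, fun b s => h1 b s, h2, h3, ?_⟩
  calc ∑ b, ∫⁻ s, E b s ∂(unifSphere d) ≤ ∑ b, δ * ι₀ b := Finset.sum_le_sum fun b _ => h4 b
    _ = δ := by rw [← Finset.mul_sum, hι, mul_one]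

variable {t p n n' : ℕ} {Φ : 𝓐 → 𝓐 → (Fin t → Rd d) → (Fin t → ℝ) → ℝ≥0∞}

/-- The step of a level. -/
theorem level_step [NeZero d] (ht₂ : 0 < t₂) (hd₂ : d = 2 * t₂ + n₂) (hn2 : 2 ≤ n₂) (hn3 : n₂ ≤ 3)
    (ha : a < 2 * t₂) (ht : 0 < t) (hd' : d = 2 * t + n') (hn' : 2 * t + 1 ≤ n') (hp : 1 < p)
    (hd : d = p + n) (hka : 2 * t + p ≤ a)
    (hΦ : ∀ b a', Measurable (Function.uncurry (Φ b a'))) (hΦ1 : ∀ b X y, ∑ a', Φ b a' X y = 1)
    {Q err : ℝ≥0∞} {F : 𝓐 → Sph d → ℝ≥0∞} (hF : LevelInv a Q err F) (hF1 : ∀ s, ∑ b, F b s = 1)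
    {τ δ : ℝ≥0∞} (hτ0 : τ ≠ 0) (hτT : τ ≠ ∞) (hδ0 : δ ≠ 0) (hδT : δ ≠ ∞)
    (hτ : (CGL 2 a p * ENNReal.ofReal (Vt t) ^ (2 - alp p)) * (Fintype.card 𝓐 : ℝ≥0∞) ^ alp p ≤ δ * τ) :
    LevelInv a ((2 / δ) * ((τ / δ) * Q)) (err + (ENNReal.ofReal (exp (-t) * (√2) ^ t) + 3 * δ))
      (fun a' (s : Sph d) => ∑ b, F b s * Kf (Φ b) a' (s : Rd d)) := by
  classical
  have hd0 : 0 < d := Nat.pos_of_ne_zero (NeZero.ne d)
  have hpr := unifSphere_prob hd0
  obtain ⟨S, E, h1, h2, h3, h4⟩ := hF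
  have hstep := fun b => sum_step ht₂ hd₂ hn2 hn3 ha ht hd' hn' hp hd hka (hΦ b) (hΦ1 b) (h2 b)
    hτ0 hτT hδ0 hδT hτ
  choose S' E' h5 h6 h7 h8 using hstep
  have hKm : ∀ b a', Measurable (fun s : Sph d => Kf (Φ b) a' (s : Rd d)) := fun b a' =>
    (measurable_Kf (hΦ b) a').comp measurable_subtype_coe
  have hEK : ∀ b a', Measurable (fun s : Sph d => E b s * Kf (Φ b) a' (s : Rd d)) := fun b a' =>
    (h3 b).mul (hKm b a')
  have hEK2 : ∀ b a', Measurable (fun s : Sph d => E b s * Kf (Φ b) a' (s : Rd d) + E' b a' s) :=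
    fun b a' => (hEK b a').add (h7 b a')
  refine ⟨fun a' => ∑ b, S' b a', fun a' s => ∑ b, (E b s * Kf (Φ b) a' (s : Rd d) + E' b a' s),
    ?_, fun a' => SumGood.finset_sum _ fun b => h6 b a', ?_, ?_⟩
  · intro a' s
    show ∑ b, F b s * Kf (Φ b) a' (s : Rd d) = (∑ b, S' b a') s +
      ∑ b, (E b s * Kf (Φ b) a' (s : Rd d) + E' b a' s)
    rw [Finset.sum_apply, ← Finset.sum_add_distrib]
    refine Finset.sum_congr rfl fun b _ => ?_
    rw [h1, add_mul, h5]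
    ring
  · intro a'
    exact Finset.measurable_sum _ fun b _ => hEK2 b a'
  · have e1 : ∀ a', ∫⁻ s, ∑ b, (E b s * Kf (Φ b) a' (s : Rd d) + E' b a' s) ∂(unifSphere d)
        = ∑ b, (∫⁻ s, E b s * Kf (Φ b) a' (s : Rd d) ∂(unifSphere d) + ∫⁻ s, E' b a' s ∂(unifSphere d)) := by
      intro a'
      rw [lintegral_finsetSum _ fun b _ => hEK2 b a']
      refine Finset.sum_congr rfl fun b _ => ?_
      exact lintegral_add_left (hEK b a') _
    simp_rw [e1]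
    rw [Finset.sum_comm]
    simp_rw [Finset.sum_add_distrib]
    have e2 : ∀ b, ∑ a', ∫⁻ s, E b s * Kf (Φ b) a' (s : Rd d) ∂(unifSphere d)
        = ∫⁻ s, E b s ∂(unifSphere d) := by
      intro b
      rw [← lintegral_finsetSum _ fun a' _ => hEK b a']
      refine lintegral_congr fun s => ?_
      rw [← Finset.mul_sum, sum_Kf (hΦ b) (hΦ1 b), mul_one]
    simp_rw [e2]
    refine add_le_add h4 ?_
    calc ∑ b, ∑ a', ∫⁻ s, E' b a' s ∂(unifSphere d)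
        ≤ ∑ b, (ENNReal.ofReal (exp (-t) * (√2) ^ t) + 3 * δ) * ∫⁻ s, S b s ∂(unifSphere d) :=
          Finset.sum_le_sum fun b _ => h8 b
      _ = (ENNReal.ofReal (exp (-t) * (√2) ^ t) + 3 * δ) * ∑ b, ∫⁻ s, S b s ∂(unifSphere d) := by
          rw [Finset.mul_sum]
      _ ≤ (ENNReal.ofReal (exp (-t) * (√2) ^ t) + 3 * δ) * 1 := by
          gcongr
          rw [← lintegral_finsetSum _ fun b _ => (h2 b).measurable]
          calc ∫⁻ s, ∑ b, S b s ∂(unifSphere d) ≤ ∫⁻ _, 1 ∂(unifSphere d) := by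
                refine lintegral_mono fun s => ?_
                rw [← hF1 s]
                refine Finset.sum_le_sum fun b _ => ?_
                rw [h1]
                exact le_self_add
            _ = 1 := by simp
      _ = _ := mul_one _

end Vale.Agent.Lib.P309
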