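import Vale.Agent.Lib.P309.Numerics

open MeasureTheory ProbabilityTheory Real Set Filter Topology
open scoped ENNReal Nat RealInnerProductSpace

namespace Vale.Agent.Lib.P309

/-- Arithmetic of the chain case. -/
lemma arith_chain {D m tR sR x Lg a J2 : ℝ} (hD100 : 100 ≤ D) (hm0 : 0 ≤ m) (htR5 : D ≤ 5 * tR)
    (hsR3 : D ≤ 3 * sR) (hx1 : 1 ≤ x) (ha : a = 5 * D + (m + 1) / tR) (hJ2 : J2 ≤ 2 * x)
    (hexp : -2 ≤ a * (J2 - 1) + (2 + (3 - 2 * Lg) * sR)) :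
    Lg ≤ 20 * (1 + m / D ^ 2) * x := by
  have hD0 : 0 < D := by linarith
  have htR0 : 0 < tR := by linarith
  have hsR0 : 0 < sR := by linarith
  set R : ℝ := m / D ^ 2 with hR
  have hR0 : 0 ≤ R := by positivity
  have hDR : D * R = m / D := by
    rw [hR]
    field_simp
  have ha0 : 0 ≤ a := by
    rw [ha]
    positivity
  have h1 : a * (J2 - 1) ≤ a * (2 * x) :=
    mul_le_mul_of_nonneg_left (by linarith) ha0
  have e1 : (3 - 2 * Lg) * sR = 3 * sR - 2 * (Lg * sR) := by ring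
  have h2 : 2 * (Lg * sR) ≤ a * (2 * x) + 3 * sR + 4 := by
    rw [e1] at hexp
    linarith
  have hq : (m + 1) / tR ≤ 5 * (m + 1) / D := by
    rw [div_le_div_iff₀ htR0 hD0]
    have : (m + 1) * D ≤ (m + 1) * (5 * tR) :=
      mul_le_mul_of_nonneg_left htR5 (by linarith)
    linarith
  have h3 : 5 * (m + 1) / D = 5 * (m / D) + 5 / D := by
    field_simp
  have h4 : 5 / D ≤ 1 / 20 := by
    rw [div_le_div_iff₀ hD0 (by norm_num)]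
    linarith
  have h5 : a * 3 ≤ D * (16 + 15 * R) := by
    rw [ha, mul_add D, ← mul_assoc D, mul_comm D 15, mul_assoc 15, hDR]
    rw [h3] at hq
    linarith
  have h6 : a ≤ sR * (16 + 15 * R) := by
    have h7 : D * (16 + 15 * R) ≤ (3 * sR) * (16 + 15 * R) :=
      mul_le_mul_of_nonneg_right hsR3 (by positivity)
    linarith
  have h8 : a * (2 * x) ≤ sR * (16 + 15 * R) * (2 * x) :=
    mul_le_mul_of_nonneg_right h6 (by positivity)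
  have h9 : Lg ≤ (16 + 15 * R) * x + 2 := by
    have h10 : 2 * sR * Lg ≤ 2 * sR * ((16 + 15 * R) * x + 2) := by
      have e2 : 2 * sR * ((16 + 15 * R) * x + 2) = sR * (16 + 15 * R) * (2 * x) + 4 * sR := by ring
      have e3 : 2 * sR * Lg = 2 * (Lg * sR) := by ring
      rw [e2, e3]
      linarith
    exact le_of_mul_le_mul_left h10 (by positivity)
  have h11 : 4 * 1 ≤ (4 + 5 * R) * x :=
    mul_le_mul (by linarith) hx1 zero_le_one (by positivity)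
  have e4 : 20 * (1 + R) * x = (16 + 15 * R) * x + (4 + 5 * R) * x := by ring
  rw [e4]
  linarith

/-- Arithmetic of the counting case. -/
lemma arith_count {D m sR x Lg : ℝ} (hD100 : 100 ≤ D) (hm0 : 0 ≤ m)
    (hsR3 : D ≤ 3 * sR) (hDx : D ≤ x)
    (hexp : -1 ≤ (m + 1) + (2 + (3 - 2 * Lg) * sR)) :
    Lg ≤ 20 * (1 + m / D ^ 2) * x := by
  have hD0 : 0 < D := by linarith
  have hsR0 : 0 < sR := by linarith
  have hx0 : 0 < x := by linarith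
  set R : ℝ := m / D ^ 2 with hR
  have hR0 : 0 ≤ R := by positivity
  have hmR : m = R * D ^ 2 := by
    rw [hR]
    field_simp
  have e1 : (3 - 2 * Lg) * sR = 3 * sR - 2 * (Lg * sR) := by ring
  have h2 : 2 * (Lg * sR) ≤ (m + 1) + 3 * sR + 3 := by
    rw [e1] at hexp
    linarith
  have h3 : D ^ 2 ≤ 3 * sR * x := by
    rw [pow_two]
    exact mul_le_mul hsR3 hDx hD0.le (by positivity)
  have h4 : (1:ℝ) ≤ D ^ 2 := by
    have : (1:ℝ) ≤ D := by linarith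
    exact one_le_pow₀ this
  have h5 : m + 1 ≤ (1 + R) * (3 * sR * x) := by
    have h6 : m + 1 ≤ (1 + R) * D ^ 2 := by
      rw [hmR]
      linarith
    have h7 : (1 + R) * D ^ 2 ≤ (1 + R) * (3 * sR * x) :=
      mul_le_mul_of_nonneg_left h3 (by positivity)
    linarith
  have h9 : Lg ≤ (3 / 2 * (1 + R)) * x + 2 := by
    have h10 : 2 * sR * Lg ≤ 2 * sR * ((3 / 2 * (1 + R)) * x + 2) := by
      have e2 : 2 * sR * ((3 / 2 * (1 + R)) * x + 2) = (1 + R) * (3 * sR * x) + 4 * sR := by ring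
      have e3 : 2 * sR * Lg = 2 * (Lg * sR) := by ring
      rw [e2, e3]
      linarith
    exact le_of_mul_le_mul_left h10 (by positivity)
  have h11 : 1 * 1 ≤ (1 + R) * x :=
    mul_le_mul (by linarith) (by linarith) zero_le_one (by positivity)
  have e4 : 20 * (1 + R) * x = (3 / 2 * (1 + R)) * x + (37 / 2) * ((1 + R) * x) := by ring
  rw [e4]
  linarith

/-- The error terms of the chain. -/
lemma err_chain {t J : ℕ} (hJ0 : 0 < J) (hbig : 6 * J ≤ 2 ^ (t / 2)) :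
    (J : ℝ≥0∞) * (ENNReal.ofReal (exp (-(t:ℝ)) * (√2) ^ t) + ENNReal.ofReal ((6 * (J:ℝ))⁻¹))
      ≤ ENNReal.ofReal (1 / 3) := by
  have hJR : (0:ℝ) < J := by exact_mod_cast hJ0
  have h1 : exp (-(t:ℝ)) * (√2) ^ t ≤ (6 * (J:ℝ))⁻¹ := by
    have h2 : (6 * (J:ℝ)) ≤ 2 ^ (t / 2) := by exact_mod_cast hbig
    have h3 : (2:ℝ) ^ (t / 2) ≤ (√2) ^ t := by
      have h4 : (2:ℝ) = (√2) ^ 2 := by rw [Real.sq_sqrt (by norm_num)]
      conv_lhs => rw [h4]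
      rw [← pow_mul]
      refine pow_le_pow_right₀ ?_ (by omega)
      rw [Real.le_sqrt] <;> norm_num
    have h5 : (√2) ^ t * (√2) ^ t ≤ exp (t:ℝ) := by
      rw [← mul_pow, Real.mul_self_sqrt (by norm_num)]
      exact two_pow_le_exp_nat t
    rw [Real.exp_neg, ← div_eq_inv_mul, le_inv_comm₀ (by positivity) (by positivity), inv_div]
    have h6 : (0:ℝ) < (√2) ^ t := by positivity
    rw [le_div_iff₀ h6]
    calc 6 * (J:ℝ) * (√2) ^ t ≤ (√2) ^ t * (√2) ^ t := by gcongr; linarith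
      _ ≤ exp (t:ℝ) := h5
  have h2 : ENNReal.ofReal (exp (-(t:ℝ)) * (√2) ^ t) + ENNReal.ofReal ((6 * (J:ℝ))⁻¹)
      ≤ ENNReal.ofReal (2 * (6 * (J:ℝ))⁻¹) := by
    rw [two_mul, ENNReal.ofReal_add (by positivity) (by positivity)]
    gcongr
  calc (J : ℝ≥0∞) * (ENNReal.ofReal (exp (-(t:ℝ)) * (√2) ^ t) + ENNReal.ofReal ((6 * (J:ℝ))⁻¹))
      ≤ (J : ℝ≥0∞) * ENNReal.ofReal (2 * (6 * (J:ℝ))⁻¹) := by gcongr
    _ = ENNReal.ofReal ((J:ℝ) * (2 * (6 * (J:ℝ))⁻¹)) := by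
        rw [ENNReal.ofReal_mul (by positivity)]
        simp
    _ = ENNReal.ofReal (1 / 3) := by
        congr 1
        field_simp
        norm_num

/-- The Hölder constant. -/
lemma Abound {d M t n J : ℕ} (ht : 0 < t) (h4t : 4 * t + 1 ≤ d) (hnd : n ≤ d) (hJ0 : 0 < J)
    (h6J : (6 * (J:ℝ)) ≤ 2 ^ d) :
    C2 t n * (2 ^ (M + 1) : ℝ≥0∞) ^ (1 / (t:ℝ)) ≤ ENNReal.ofReal ((6 * (J:ℝ))⁻¹) *
      ENNReal.ofReal ((2:ℝ) ^ (5 * (d:ℝ) + ((M:ℝ) + 1) / (t:ℝ))) := by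
  have hJR : (0:ℝ) < J := by exact_mod_cast hJ0
  have htR : (0:ℝ) < t := by exact_mod_cast ht
  have h1 : (2 ^ (M + 1) : ℝ≥0∞) ^ (1 / (t:ℝ)) = ENNReal.ofReal ((2:ℝ) ^ (((M:ℝ) + 1) / (t:ℝ))) := by
    have h2 : (2 ^ (M + 1) : ℝ≥0∞) = ENNReal.ofReal ((2:ℝ) ^ ((M:ℝ) + 1)) := by
      have : ((M:ℝ) + 1) = ((M + 1 : ℕ) : ℝ) := by push_cast; ring
      rw [this, Real.rpow_natCast, ENNReal.ofReal_pow (by norm_num)]
      simp
    rw [h2, ENNReal.ofReal_rpow_of_pos (by positivity), ← Real.rpow_mul (by norm_num)]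
    congr 2
    ring
  rw [h1, ← ENNReal.ofReal_mul (by positivity)]
  refine (mul_le_mul' (C2_le h4t hnd) le_rfl).trans ?_
  rw [← ENNReal.ofReal_mul (by positivity)]
  apply ENNReal.ofReal_le_ofReal
  have h2 : (2:ℝ) ^ (5 * (d:ℝ) + ((M:ℝ) + 1) / (t:ℝ))
      = 2 ^ (4 * d) * 2 ^ d * 2 ^ (((M:ℝ) + 1) / (t:ℝ)) := by
    rw [Real.rpow_add (by norm_num)]
    congr 1
    rw [← pow_add, show 4 * d + d = 5 * d by ring, ← Real.rpow_natCast]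
    congr 1
    push_cast
    ring
  rw [h2]
  have h3 : (6 * (J:ℝ))⁻¹ * 2 ^ d ≥ 1 := by
    rw [ge_iff_le, ← div_eq_inv_mul, one_le_div (by positivity)]
    exact h6J
  have h4 : (0:ℝ) < 2 ^ (4 * d) * 2 ^ (((M:ℝ) + 1) / (t:ℝ)) := by positivity
  calc (2:ℝ) ^ (4 * d) * 2 ^ (((M:ℝ) + 1) / (t:ℝ))
      = 1 * ((2:ℝ) ^ (4 * d) * 2 ^ (((M:ℝ) + 1) / (t:ℝ))) := (one_mul _).symm
    _ ≤ ((6 * (J:ℝ))⁻¹ * 2 ^ d) * ((2:ℝ) ^ (4 * d) * 2 ^ (((M:ℝ) + 1) / (t:ℝ))) := by gcongr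
    _ = _ := by ring

/-- The chain case, in exponents. -/
lemma case_chain {d M T t n t₂ n₂ J : ℕ} (ht : 1 < t) (h4t : 4 * t + 1 ≤ d) (hdn : d = 2 * t + n)
    (hn2t : 2 * t + 1 ≤ n) (hnd : n ≤ d) (hdn₂ : d = 2 * t₂ + n₂) (hn₂2 : 2 ≤ n₂)
    {ε : ℝ} (hε0 : 0 < ε) (hε1 : ε ≤ 1) (L : Learner d M) (hL : (2 / 3 : ℝ≥0∞) ≤ L.success T ε)
    {K : ℝ} (hκ : ENNReal.ofReal (((2 * π)⁻¹) ^ t₂) * Mom n₂ t₂ *
      volume {u : Fin (2 * t₂) → ℝ | sq u ≤ ε ^ 2} ≤ ENNReal.ofReal ((2:ℝ) ^ K))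
    (hJ0 : 0 < J) (hJT : T ≤ J * t) (hbig : 6 * J ≤ 2 ^ (t / 2)) :
    -2 ≤ (5 * (d:ℝ) + ((M:ℝ) + 1) / (t:ℝ)) * (2 ^ J - 1) + K := by
  set a : ℝ := 5 * (d:ℝ) + ((M:ℝ) + 1) / (t:ℝ) with ha
  have h6J : (6 * (J:ℝ)) ≤ 2 ^ d := by
    have h1 : 6 * J ≤ 2 ^ d := hbig.trans (Nat.pow_le_pow_right (by norm_num : 0 < 2) (by omega : t / 2 ≤ d))
    exact_mod_cast h1
  have hJR : (0:ℝ) < J := by exact_mod_cast hJ0
  have hA0 : ENNReal.ofReal ((2:ℝ) ^ a) ≠ 0 := by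
    simp only [ne_eq, ENNReal.ofReal_eq_zero, not_le]
    positivity
  have hmain := L.success_le T (t := t) (n := n) (t₂ := t₂) (n₂ := n₂) ht hdn hn2t hdn₂ hn₂2
    hε0 hε1 hA0 ENNReal.ofReal_ne_top (Abound (by omega) h4t hnd hJ0 h6J) hJT
  have herr := err_chain (t := t) hJ0 hbig
  have h23 : (2 / 3 : ℝ≥0∞) = ENNReal.ofReal (2 / 3) := by
    rw [ENNReal.ofReal_div_of_pos (by norm_num)]
    norm_num
  have hmain2 : (2 / 3 : ℝ≥0∞) ≤ ENNReal.ofReal ((2:ℝ) ^ (a * (2 ^ J - 1)) * 2 ^ K + 1 / 3) := by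
    refine hL.trans (hmain.trans ?_)
    have hLam : Lam (ENNReal.ofReal ((2:ℝ) ^ a)) J = ENNReal.ofReal ((2:ℝ) ^ (a * (2 ^ J - 1))) :=
      Lam_eq J
    rw [hLam, ENNReal.ofReal_add (by positivity) (by norm_num),
      ENNReal.ofReal_mul (p := (2:ℝ) ^ (a * (2 ^ J - 1))) (by positivity)]
    exact add_le_add (mul_le_mul' le_rfl hκ) herr
  rw [h23, ENNReal.ofReal_le_ofReal_iff (by positivity)] at hmain2
  have hpow : (2:ℝ) ^ (-(2:ℝ)) ≤ 2 ^ (a * (2 ^ J - 1) + K) := by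
    rw [Real.rpow_add (by norm_num)]
    have : (2:ℝ) ^ (-(2:ℝ)) = 1 / 4 := by
      rw [Real.rpow_neg (by norm_num)]
      norm_num
    rw [this]
    linarith
  exact (Real.rpow_le_rpow_left_iff (by norm_num)).1 hpow

/-- The counting case, in exponents. -/
lemma case_count {d M T t₂ n₂ : ℕ} (hdn₂ : d = 2 * t₂ + n₂) (hn₂2 : 2 ≤ n₂)
    {ε : ℝ} (hε0 : 0 < ε) (hε1 : ε ≤ 1) (L : Learner d M) (hL : (2 / 3 : ℝ≥0∞) ≤ L.success T ε)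
    {K : ℝ} (hκ : ENNReal.ofReal (((2 * π)⁻¹) ^ t₂) * Mom n₂ t₂ *
      volume {u : Fin (2 * t₂) → ℝ | sq u ≤ ε ^ 2} ≤ ENNReal.ofReal ((2:ℝ) ^ K)) :
    -1 ≤ ((M:ℝ) + 1) + K := by
  have hmain := L.success_le_count T (t₂ := t₂) (n₂ := n₂) hdn₂ hn₂2 hε0 hε1
  have h23 : (2 / 3 : ℝ≥0∞) = ENNReal.ofReal (2 / 3) := by
    rw [ENNReal.ofReal_div_of_pos (by norm_num)]
    norm_num
  have hmain2 : (2 / 3 : ℝ≥0∞) ≤ ENNReal.ofReal ((2:ℝ) ^ (M + 1) * 2 ^ K) := by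
    refine hL.trans (hmain.trans ?_)
    rw [ENNReal.ofReal_mul (p := (2:ℝ) ^ (M + 1)) (by positivity),
      ENNReal.ofReal_pow (p := (2:ℝ)) (by norm_num)]
    simp only [ENNReal.ofReal_ofNat]
    exact mul_le_mul' le_rfl hκ
  rw [h23, ENNReal.ofReal_le_ofReal_iff (by positivity)] at hmain2
  have hpow : (2:ℝ) ^ (-(1:ℝ)) ≤ 2 ^ (((M:ℝ) + 1) + K) := by
    rw [Real.rpow_add (by norm_num)]
    have h1 : ((M:ℝ) + 1) = ((M + 1 : ℕ) : ℝ) := by push_cast; ring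
    rw [h1, Real.rpow_natCast, Real.rpow_neg_one]
    linarith
  exact (Real.rpow_le_rpow_left_iff (by norm_num)).1 hpow

/-- The cap in terms of `log₂ (1 / ε)`. -/
lemma cap_exp {t₂ : ℕ} {ε : ℝ} (hε0 : 0 < ε) :
    (3 * (6 * ε ^ 2) ^ t₂ : ℝ) ≤ 2 ^ (2 + (3 - 2 * Real.logb 2 (1 / ε)) * (t₂ : ℝ)) := by
  set Lg : ℝ := Real.logb 2 (1 / ε) with hLg
  have hε2 : ε ^ 2 = 2 ^ (- 2 * Lg) := by
    have h1 : (2:ℝ) ^ Lg = 1 / ε := Real.rpow_logb (by norm_num) (by norm_num) (by positivity)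
    have h2 : (2:ℝ) ^ (- 2 * Lg) = ((2:ℝ) ^ Lg) ^ (-2:ℝ) := by
      rw [← Real.rpow_mul (by norm_num)]
      congr 1
      ring
    rw [h2, h1, Real.rpow_neg (by positivity), one_div]
    rw [show (2:ℝ) = ((2:ℕ):ℝ) by norm_num, Real.rpow_natCast]
    field_simp
  have h1 : (6:ℝ) ≤ 2 ^ (3:ℝ) := by norm_num
  have h2 : 6 * ε ^ 2 ≤ 2 ^ (3 - 2 * Lg) := by
    rw [hε2, sub_eq_add_neg, Real.rpow_add (by norm_num), show - (2 * Lg) = -2 * Lg by ring]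
    gcongr
  have h3 : (6 * ε ^ 2) ^ t₂ ≤ (2:ℝ) ^ ((3 - 2 * Lg) * (t₂ : ℝ)) := by
    rw [Real.rpow_mul (by norm_num), Real.rpow_natCast]
    gcongr
  rw [Real.rpow_add (by norm_num)]
  have h4 : (3:ℝ) ≤ 2 ^ (2:ℝ) := by norm_num
  gcongr

/-- **Main theorem**: a learner with `M` bits and horizon `T` succeeding at accuracy `ε`
has `log₂(1/ε) ≤ 20 (1 + M/d²) 2^(5T/d)`. -/
theorem main_bound {d M T : ℕ} (hd : 100 ≤ d) {ε : ℝ} (hε0 : 0 < ε) (hε1 : ε < 1)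
    (L : Learner d M) (hL : (2 / 3 : ℝ≥0∞) ≤ L.success T ε) :
    Real.logb 2 (1 / ε) ≤ 20 * (1 + (M : ℝ) / (d : ℝ) ^ 2) * 2 ^ (5 * (T : ℝ) / (d : ℝ)) := by
  -- parameters
  obtain ⟨t, ht⟩ : ∃ t : ℕ, t = (d - 1) / 4 := ⟨_, rfl⟩
  obtain ⟨n, hn⟩ : ∃ n : ℕ, n = d - 2 * t := ⟨_, rfl⟩
  obtain ⟨t₂, ht₂⟩ : ∃ t₂ : ℕ, t₂ = (d - 2) / 2 := ⟨_, rfl⟩
  obtain ⟨n₂, hn₂⟩ : ∃ n₂ : ℕ, n₂ = d - 2 * t₂ := ⟨_, rfl⟩
  have h4t : 4 * t + 1 ≤ d := by omega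
  have h4t' : d ≤ 4 * t + 4 := by omega
  have ht24 : 24 ≤ t := by omega
  have hdn : d = 2 * t + n := by omega
  have hn2t : 2 * t + 1 ≤ n := by omega
  have hnd : n ≤ d := by omega
  have hdn₂ : d = 2 * t₂ + n₂ := by omega
  have hn₂2 : 2 ≤ n₂ := by omega
  have hn₂3 : n₂ ≤ 3 := by omega
  have ht₂0 : 0 < t₂ := by omega
  have ht₂3 : d ≤ 3 * t₂ := by omega
  have ht5 : d ≤ 5 * t := by omega
  obtain ⟨q, hq⟩ : ∃ q : ℕ, q = T / t := ⟨_, rfl⟩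
  obtain ⟨J, hJ⟩ : ∃ J : ℕ, J = q + 1 := ⟨_, rfl⟩
  have hJ0 : 0 < J := by omega
  have hJT : T ≤ J * t := by
    have := Nat.lt_mul_div_succ T (show 0 < t by omega)
    rw [hJ, hq, mul_comm]
    exact this.le
  -- real versions
  have hD100 : (100:ℝ) ≤ (d:ℝ) := by exact_mod_cast hd
  have hD0 : (0:ℝ) < (d:ℝ) := by linarith
  have htR5 : (d:ℝ) ≤ 5 * (t:ℝ) := by exact_mod_cast ht5
  have htR0 : (0:ℝ) < (t:ℝ) := by linarith
  have hsR3 : (d:ℝ) ≤ 3 * (t₂:ℝ) := by exact_mod_cast ht₂3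
  have hm0 : (0:ℝ) ≤ (M:ℝ) := Nat.cast_nonneg _
  have hdivle : ((q : ℕ) : ℝ) ≤ 5 * (T : ℝ) / (d:ℝ) := by
    have h1 : ((q : ℕ) : ℝ) ≤ (T : ℝ) / (t:ℝ) := by
      rw [hq]
      exact Nat.cast_div_le
    refine h1.trans ?_
    rw [div_le_div_iff₀ htR0 hD0]
    have hT0 : (0:ℝ) ≤ T := Nat.cast_nonneg _
    have := mul_le_mul_of_nonneg_left htR5 hT0
    linarith
  have hx1 : (1:ℝ) ≤ 2 ^ (5 * (T : ℝ) / (d:ℝ)) := Real.one_le_rpow (by norm_num) (by positivity)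
  have hpowle : (2:ℝ) ^ q ≤ 2 ^ (5 * (T : ℝ) / (d:ℝ)) := by
    rw [← Real.rpow_natCast]
    exact Real.rpow_le_rpow_of_exponent_le (by norm_num) hdivle
  have hJ2 : (2:ℝ) ^ J ≤ 2 * 2 ^ (5 * (T : ℝ) / (d:ℝ)) := by
    rw [hJ, pow_succ, mul_comm]
    gcongr
  have hκ := (kappa_le ht₂0 hn₂3 hε0).trans (ENNReal.ofReal_le_ofReal (cap_exp (t₂ := t₂) hε0))
  by_cases hbig : 6 * J ≤ 2 ^ (t / 2)
  · have hexp := case_chain (by omega) h4t hdn hn2t hnd hdn₂ hn₂2 hε0 hε1.le L hL hκ hJ0 hJT hbig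
    exact arith_chain hD100 hm0 htR5 hsR3 hx1 rfl hJ2 hexp
  · have hDx : (d:ℝ) ≤ 2 ^ (5 * (T : ℝ) / (d:ℝ)) := by
      have h1 : d ≤ 2 ^ q := by
        by_contra hcon
        push Not at hcon
        have h2 : q < 2 ^ q := Nat.lt_two_pow_self
        have h3 : J ≤ d := by omega
        have h4 := nat_pow_big (t / 2) (by omega)
        omega
      have h2 : (d:ℝ) ≤ (2:ℝ) ^ q := by exact_mod_cast h1
      exact h2.trans hpowle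
    have hexp := case_count hdn₂ hn₂2 hε0 hε1.le L hL hκ
    exact arith_count hD100 hm0 hsR3 hDx hexp

end Vale.Agent.Lib.P309
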