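import Vale.Agent.Lib.P309.Final2
import Vale.Agent.Lib.P309.Main

open MeasureTheory ProbabilityTheory Real Set Filter Topology
open scoped ENNReal Nat RealInnerProductSpace

namespace Vale.Agent.Lib.P309

/-- The constant of the smoothing bound, for the ball constant `2`. -/
lemma CGL_le (a p : ℕ) : CGL 2 a p ≤ ENNReal.ofReal (2 ^ (2 * a + 2)) := by
  unfold CGL
  set x : ℝ≥0∞ := ENNReal.ofReal (2 ^ (2 * a + 2)) with hx
  have hx1 : 1 ≤ x := by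
    rw [hx, ← ENNReal.ofReal_one]
    apply ENNReal.ofReal_le_ofReal
    exact one_le_pow₀ (by norm_num)
  have h1 : 1 + 2 * ENNReal.ofReal (2 ^ (2 * a)) ≤ x := by
    have h2 : (2 : ℝ≥0∞) = ENNReal.ofReal 2 := by simp
    rw [h2, ← ENNReal.ofReal_mul (by norm_num), ← ENNReal.ofReal_one,
      ← ENNReal.ofReal_add (by norm_num) (by positivity), hx]
    apply ENNReal.ofReal_le_ofReal
    have h3 : (1:ℝ) ≤ 2 ^ (2 * a) := one_le_pow₀ (by norm_num)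
    rw [pow_add]
    norm_num
    linarith
  have hq : (0:ℝ) < ((p + 1 : ℕ) : ℝ) := by positivity
  calc ((1 + 2 * ENNReal.ofReal (2 ^ (2 * a))) ^ p) ^ (1 / ((p + 1 : ℕ) : ℝ))
      ≤ (x ^ (p + 1)) ^ (1 / ((p + 1 : ℕ) : ℝ)) := by
        refine ENNReal.rpow_le_rpow ?_ (by positivity)
        calc (1 + 2 * ENNReal.ofReal (2 ^ (2 * a))) ^ p ≤ x ^ p := by gcongr
          _ ≤ x ^ (p + 1) := pow_le_pow_right₀ hx1 (by omega)
    _ = x := by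
        rw [← ENNReal.rpow_natCast, ← ENNReal.rpow_mul, mul_one_div_cancel hq.ne', ENNReal.rpow_one]

lemma Vt_ge_one (t : ℕ) : 1 ≤ Vt t := by
  unfold Vt
  have h1 : (1:ℝ) ≤ exp (1 / 2 * (4 * t)) := Real.one_le_exp (by positivity)
  have h2 : (1:ℝ) ≤ √(π / (1 / 2)) := by
    rw [Real.one_le_sqrt]
    have := Real.pi_gt_three
    linarith
  have h3 : (1:ℝ) ≤ √(π / (1 / 2)) ^ t := one_le_pow₀ h2
  nlinarith

lemma Vt_sq_le (t : ℕ) : Vt t * Vt t ≤ 2 ^ (11 * t) := by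
  have hpi : 0 < π := Real.pi_pos
  have hVsq : Vt t * Vt t = exp (4 * t) * (2 * π) ^ t := by
    unfold Vt
    have h1 : √(π / (1 / 2)) * √(π / (1 / 2)) = 2 * π := by
      rw [Real.mul_self_sqrt (by positivity)]
      ring
    calc exp (1 / 2 * (4 * t)) * √(π / (1 / 2)) ^ t * (exp (1 / 2 * (4 * t)) * √(π / (1 / 2)) ^ t)
        = (exp (1 / 2 * (4 * t)) * exp (1 / 2 * (4 * t))) *
            (√(π / (1 / 2)) * √(π / (1 / 2))) ^ t := by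
          rw [mul_pow]; ring
      _ = exp (4 * t) * (2 * π) ^ t := by
          rw [h1, ← Real.exp_add]
          congr 2
          ring
  rw [hVsq]
  have h6 : exp (4 * t) ≤ 2 ^ (8 * t) := by
    have h7 : exp (4 * (t:ℝ)) = exp ((4 * t : ℕ) : ℝ) := by push_cast; rfl
    rw [h7]
    refine (exp_nat_le_pow _).trans ?_
    rw [pow_mul 2 8 t, pow_mul 3 4 t]
    gcongr
    norm_num
  have h8 : (2 * π) ^ t ≤ 2 ^ (3 * t) := by
    rw [pow_mul]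
    gcongr
    have := Real.pi_lt_four
    norm_num
    linarith
  calc exp (4 * t) * (2 * π) ^ t ≤ 2 ^ (8 * t) * 2 ^ (3 * t) := by gcongr
    _ = 2 ^ (11 * t) := by rw [← pow_add]; congr 1; omega

lemma V_pow_le {t p : ℕ} :
    ENNReal.ofReal (Vt t) ^ (2 - alp p) ≤ ENNReal.ofReal (2 ^ (11 * t)) := by
  have hV1 : (1 : ℝ≥0∞) ≤ ENNReal.ofReal (Vt t) := by
    rw [← ENNReal.ofReal_one]
    exact ENNReal.ofReal_le_ofReal (Vt_ge_one t)
  have hα := alp_pos p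
  calc ENNReal.ofReal (Vt t) ^ (2 - alp p) ≤ ENNReal.ofReal (Vt t) ^ (2:ℝ) :=
        ENNReal.rpow_le_rpow_of_exponent_le hV1 (by linarith)
    _ = ENNReal.ofReal (Vt t * Vt t) := by
        rw [ENNReal.rpow_two, pow_two, ENNReal.ofReal_mul (Vt_pos t).le]
    _ ≤ _ := ENNReal.ofReal_le_ofReal (Vt_sq_le t)

lemma card_pow_alp (M p : ℕ) :
    (Fintype.card (Fin (2 ^ M) × Bool) : ℝ≥0∞) ^ alp p
      = ENNReal.ofReal ((2:ℝ) ^ (((M:ℝ) + 1) * alp p)) := by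
  have hcard : (Fintype.card (Fin (2 ^ M) × Bool) : ℝ≥0∞) = 2 ^ (M + 1) := by
    simp [pow_succ]
  have h2 : (2 ^ (M + 1) : ℝ≥0∞) = ENNReal.ofReal ((2:ℝ) ^ ((M:ℝ) + 1)) := by
    have : ((M:ℝ) + 1) = ((M + 1 : ℕ) : ℝ) := by push_cast; ring
    rw [this, Real.rpow_natCast, ENNReal.ofReal_pow (by norm_num)]
    simp
  rw [hcard, h2, ENNReal.ofReal_rpow_of_pos (by positivity), ← Real.rpow_mul (by norm_num)]

/-- The ratios of the levels, in real numbers. -/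
lemma Qs_eq {δr τr : ℝ} (hδ : 0 < δr) (hτ : 0 < τr) (J : ℕ) :
    Qs (ENNReal.ofReal δr) (ENNReal.ofReal τr) J
      = ENNReal.ofReal ((2 / δr) * ((2 / δr) * (τr / δr)) ^ J) := by
  have e2 : (2 : ℝ≥0∞) / ENNReal.ofReal δr = ENNReal.ofReal (2 / δr) := by
    rw [ENNReal.ofReal_div_of_pos hδ]
    simp
  have e3 : ENNReal.ofReal τr / ENNReal.ofReal δr = ENNReal.ofReal (τr / δr) := by
    rw [ENNReal.ofReal_div_of_pos hδ]
  induction J with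
  | zero =>
      simp only [Qs, pow_zero, mul_one]
      exact e2
  | succ J ih =>
      simp only [Qs]
      rw [ih, e2, e3, ← ENNReal.ofReal_mul (by positivity), ← ENNReal.ofReal_mul (by positivity)]
      congr 1
      rw [pow_succ]
      ring

/-- The error terms of the chain. -/
lemma err_full {t u J : ℕ} (hu : u = t / 2) (hbig : 18 * (J + 1) ≤ 2 ^ u) :
    ENNReal.ofReal (1 / (18 * ((J:ℝ) + 1))) + (J : ℝ≥0∞) * (ENNReal.ofReal (exp (-t) * (√2) ^ t) +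
        3 * ENNReal.ofReal (1 / (18 * ((J:ℝ) + 1)))) ≤ ENNReal.ofReal (2 / 9) := by
  have hJR : (0:ℝ) < (J:ℝ) + 1 := by positivity
  set δr : ℝ := 1 / (18 * ((J:ℝ) + 1)) with hδr
  have hδ0 : 0 < δr := by positivity
  have h1 : exp (-(t:ℝ)) * (√2) ^ t ≤ δr := by
    have h2 : (18 * ((J:ℝ) + 1)) ≤ 2 ^ u := by exact_mod_cast hbig
    have h3 : (2:ℝ) ^ u ≤ (√2) ^ t := by
      have h4 : (2:ℝ) = (√2) ^ 2 := by rw [Real.sq_sqrt (by norm_num)]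
      conv_lhs => rw [h4]
      rw [← pow_mul]
      refine pow_le_pow_right₀ ?_ (by omega)
      rw [Real.le_sqrt] <;> norm_num
    have h5 : (√2) ^ t * (√2) ^ t ≤ exp (t:ℝ) := by
      rw [← mul_pow, Real.mul_self_sqrt (by norm_num)]
      exact two_pow_le_exp_nat t
    rw [Real.exp_neg, ← div_eq_inv_mul, hδr, div_le_div_iff₀ (by positivity) (by positivity)]
    calc (√2) ^ t * (18 * ((J:ℝ) + 1)) ≤ (√2) ^ t * (√2) ^ t := by
          gcongr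
          linarith
      _ ≤ exp (t:ℝ) := h5
      _ = 1 * exp (t:ℝ) := (one_mul _).symm
  have e3 : (3 : ℝ≥0∞) = ENNReal.ofReal 3 := by simp
  have eJ : (J : ℝ≥0∞) = ENNReal.ofReal (J:ℝ) := by simp
  have h2 : ENNReal.ofReal (exp (-(t:ℝ)) * (√2) ^ t) + 3 * ENNReal.ofReal δr ≤ ENNReal.ofReal (4 * δr) := by
    rw [e3, ← ENNReal.ofReal_mul (by norm_num), ← ENNReal.ofReal_add (by positivity) (by positivity)]
    apply ENNReal.ofReal_le_ofReal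
    linarith
  calc ENNReal.ofReal δr + (J : ℝ≥0∞) * (ENNReal.ofReal (exp (-(t:ℝ)) * (√2) ^ t) + 3 * ENNReal.ofReal δr)
      ≤ ENNReal.ofReal δr + (J : ℝ≥0∞) * ENNReal.ofReal (4 * δr) := by gcongr
    _ = ENNReal.ofReal (δr + (J:ℝ) * (4 * δr)) := by
        rw [ENNReal.ofReal_add hδ0.le (by positivity), ENNReal.ofReal_mul (p := (J:ℝ)) (by positivity),
          ← eJ]
    _ ≤ ENNReal.ofReal (2 / 9) := by
        apply ENNReal.ofReal_le_ofReal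
        rw [hδr]
        field_simp
        nlinarith

/-- The chain case, as an inequality of real numbers. -/
lemma case_chain2 {d M T t p n n' t₂ n₂ a u J : ℕ} (ht₂ : 0 < t₂) (hd₂ : d = 2 * t₂ + n₂) (hn2 : 2 ≤ n₂)
    (hn3 : n₂ ≤ 3) (ha : a < 2 * t₂) (ha4 : 4 ≤ a) (ht : 0 < t) (hd' : d = 2 * t + n')
    (hn' : 2 * t + 1 ≤ n') (hp : 1 < p) (hd : d = p + n) (hka : 2 * t + p ≤ a) (hu : u = t / 2)
    (hJT : T ≤ J * t) (hbig : 18 * (J + 1) ≤ 2 ^ u) {ε : ℝ} (hε0 : 0 < ε) (L : Learner d M)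
    (hL : (2 / 3 : ℝ≥0∞) ≤ L.success T ε) :
    (1:ℝ) ≤ (2 * (18 * ((J:ℝ) + 1))) * ((2 * (18 * ((J:ℝ) + 1))) * ((18 * ((J:ℝ) + 1)) *
        (18 * ((J:ℝ) + 1)) * ((2:ℝ) ^ (2 * a + 2) * 2 ^ (11 * t) * (2:ℝ) ^ (((M:ℝ) + 1) * alp p)))) ^ J *
      (3 * 6 ^ t₂) * (2 * ε) ^ (2 * t₂ - a) := by
  have hd0 : 0 < d := by omega
  have : NeZero d := ⟨hd0.ne'⟩
  set B : ℝ := (2:ℝ) ^ (2 * a + 2) * 2 ^ (11 * t) * (2:ℝ) ^ (((M:ℝ) + 1) * alp p) with hB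
  have hB0 : 0 < B := by positivity
  set δr : ℝ := 1 / (18 * ((J:ℝ) + 1)) with hδr
  have hδ0 : 0 < δr := by positivity
  set τr : ℝ := B / δr with hτr
  have hτ0 : 0 < τr := by positivity
  have hτ : (CGL 2 a p * ENNReal.ofReal (Vt t) ^ (2 - alp p)) *
      (Fintype.card (Fin (2 ^ M) × Bool) : ℝ≥0∞) ^ alp p ≤ ENNReal.ofReal δr * ENNReal.ofReal τr := by
    rw [card_pow_alp, ← ENNReal.ofReal_mul hδ0.le, hτr, mul_div_cancel₀ _ hδ0.ne', hB,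
      ENNReal.ofReal_mul (by positivity), ENNReal.ofReal_mul (by positivity)]
    gcongr
    · exact CGL_le a p
    · exact V_pow_le
  have hchain := level_chain (Qk := L.Qm T) (ι₀ := L.ι0) ht₂ hd₂ hn2 hn3 ha ht hd' hn' hp hd hka
    (L.Qm_meas T) (L.Qm_sum T) L.ι0_sum (τ := ENNReal.ofReal τr) (δ := ENNReal.ofReal δr)
    (by simpa using hτ0) ENNReal.ofReal_ne_top (by simpa using hδ0) ENNReal.ofReal_ne_top hτ J
  by_contra hcon
  push Not at hcon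
  -- the event is small
  have hsmall : Qs (ENNReal.ofReal δr) (ENNReal.ofReal τr) J * ENNReal.ofReal (3 * 6 ^ t₂) *
      ENNReal.ofReal ((2 * ε) ^ (2 * t₂ - a)) < 1 := by
    rw [Qs_eq hδ0 hτ0 J, ← ENNReal.ofReal_mul (by positivity), ← ENNReal.ofReal_mul (by positivity),
      ← ENNReal.ofReal_one]
    refine (ENNReal.ofReal_lt_ofReal_iff one_pos).2 ?_
    have e1 : 2 / δr = 2 * (18 * ((J:ℝ) + 1)) := by
      rw [hδr]
      field_simp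
    have e2 : τr / δr = 18 * ((J:ℝ) + 1) * (18 * ((J:ℝ) + 1)) * B := by
      rw [hτr, hδr]
      field_simp
    rw [e1, e2]
    exact hcon
  have hsucc := L.success_le_level T ht₂ hd₂ hn2 hn3 ha hJT hchain hε0 hsmall
  have herr := err_full hu hbig
  have h23 : (2 / 3 : ℝ≥0∞) = ENNReal.ofReal (2 / 3) := by
    rw [ENNReal.ofReal_div_of_pos (by norm_num)]
    norm_num
  have h1 : (2 / 3 : ℝ≥0∞) ≤ ENNReal.ofReal (2 * (1 / 2) ^ a + 2 / 9) := by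
    refine hL.trans (hsucc.trans ?_)
    rw [ENNReal.ofReal_add (by positivity) (by norm_num), ENNReal.ofReal_mul (p := (2:ℝ)) (by norm_num)]
    simp only [ENNReal.ofReal_ofNat]
    exact add_le_add le_rfl herr
  rw [h23, ENNReal.ofReal_le_ofReal_iff (by positivity)] at h1
  have h2 : ((1:ℝ) / 2) ^ a ≤ (1 / 2) ^ 4 := pow_le_pow_of_le_one (by norm_num) (by norm_num) ha4
  norm_num at h2
  norm_num at h1
  linarith

/-- Passing to exponents in the chain case. -/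
lemma exp_form {M t t₂ a u J e : ℕ} {αr : ℝ} {ε : ℝ} (hε0 : 0 < ε) (hbig : 18 * (J + 1) ≤ 2 ^ u)
    (h : (1:ℝ) ≤ (2 * (18 * ((J:ℝ) + 1))) * ((2 * (18 * ((J:ℝ) + 1))) * ((18 * ((J:ℝ) + 1)) *
        (18 * ((J:ℝ) + 1)) * ((2:ℝ) ^ (2 * a + 2) * 2 ^ (11 * t) * (2:ℝ) ^ (((M:ℝ) + 1) * αr)))) ^ J *
      (3 * 6 ^ t₂) * (2 * ε) ^ e) :
    0 ≤ ((u:ℝ) + 1) + (J:ℝ) * ((3 + 3 * (u:ℝ) + 2 * (a:ℝ) + 11 * (t:ℝ)) + ((M:ℝ) + 1) * αr) +
      (2 + 3 * (t₂:ℝ)) + (e:ℝ) * (1 - Real.logb 2 (1 / ε)) := by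
  set Lg : ℝ := Real.logb 2 (1 / ε) with hLg
  set x₂ : ℝ := (3 + 3 * (u:ℝ) + 2 * (a:ℝ) + 11 * (t:ℝ)) + ((M:ℝ) + 1) * αr with hx₂
  have hX : (18 * ((J:ℝ) + 1)) ≤ 2 ^ u := by exact_mod_cast hbig
  have hX0 : (0:ℝ) < 18 * ((J:ℝ) + 1) := by positivity
  have hpw : ∀ n : ℕ, (2:ℝ) ^ n = (2:ℝ) ^ (n:ℝ) := fun n => (Real.rpow_natCast 2 n).symm
  -- each factor
  have h1 : 2 * (18 * ((J:ℝ) + 1)) ≤ (2:ℝ) ^ ((u:ℝ) + 1) := by
    rw [Real.rpow_add (by norm_num), Real.rpow_one, ← hpw]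
    linarith
  have h2 : (2 * (18 * ((J:ℝ) + 1))) * ((18 * ((J:ℝ) + 1)) * (18 * ((J:ℝ) + 1)) *
      ((2:ℝ) ^ (2 * a + 2) * 2 ^ (11 * t) * (2:ℝ) ^ (((M:ℝ) + 1) * αr))) ≤ (2:ℝ) ^ x₂ := by
    have e1 : (2:ℝ) ^ x₂ = 2 * (2 ^ u * 2 ^ u * 2 ^ u) * (2 ^ (2 * a + 2) * 2 ^ (11 * t) *
        (2:ℝ) ^ (((M:ℝ) + 1) * αr)) := by
      rw [hx₂, Real.rpow_add (by norm_num)]
      have e2 : (3 + 3 * (u:ℝ) + 2 * (a:ℝ) + 11 * (t:ℝ)) = ((1 + (u + u + u) + (2 * a + 2) + 11 * t : ℕ) : ℝ) := by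
        push_cast
        ring
      rw [e2, ← hpw]
      rw [pow_add, pow_add, pow_add, pow_add, pow_add]
      ring
    rw [e1]
    have hB0 : (0:ℝ) < (2:ℝ) ^ (2 * a + 2) * 2 ^ (11 * t) * (2:ℝ) ^ (((M:ℝ) + 1) * αr) := by positivity
    calc (2 * (18 * ((J:ℝ) + 1))) * ((18 * ((J:ℝ) + 1)) * (18 * ((J:ℝ) + 1)) *
          ((2:ℝ) ^ (2 * a + 2) * 2 ^ (11 * t) * (2:ℝ) ^ (((M:ℝ) + 1) * αr)))
        = 2 * ((18 * ((J:ℝ) + 1)) * (18 * ((J:ℝ) + 1)) * (18 * ((J:ℝ) + 1))) *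
          ((2:ℝ) ^ (2 * a + 2) * 2 ^ (11 * t) * (2:ℝ) ^ (((M:ℝ) + 1) * αr)) := by ring
      _ ≤ _ := by gcongr
  have h3 : (3:ℝ) * 6 ^ t₂ ≤ (2:ℝ) ^ (2 + 3 * (t₂:ℝ)) := by
    have e1 : (2 + 3 * (t₂:ℝ)) = ((2 + 3 * t₂ : ℕ) : ℝ) := by push_cast; ring
    rw [e1, ← hpw, pow_add, pow_mul]
    gcongr
    · norm_num
    · norm_num
  have h4 : (2 * ε) ^ e = (2:ℝ) ^ ((e:ℝ) * (1 - Lg)) := by
    have h5 : (2:ℝ) ^ Lg = 1 / ε := Real.rpow_logb (by norm_num) (by norm_num) (by positivity)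
    have h6 : 2 * ε = (2:ℝ) ^ (1 - Lg) := by
      rw [Real.rpow_sub (by norm_num), Real.rpow_one, h5]
      field_simp
    rw [h6, ← Real.rpow_natCast, ← Real.rpow_mul (by norm_num)]
    congr 1
    ring
  have hpow : ((2 * (18 * ((J:ℝ) + 1))) * ((18 * ((J:ℝ) + 1)) * (18 * ((J:ℝ) + 1)) *
      ((2:ℝ) ^ (2 * a + 2) * 2 ^ (11 * t) * (2:ℝ) ^ (((M:ℝ) + 1) * αr)))) ^ J ≤ (2:ℝ) ^ ((J:ℝ) * x₂) := by
    have e : (2:ℝ) ^ ((J:ℝ) * x₂) = ((2:ℝ) ^ x₂) ^ J := by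
      rw [mul_comm (J:ℝ) x₂, Real.rpow_mul (by norm_num), Real.rpow_natCast]
    rw [e]
    exact pow_le_pow_left₀ (by positivity) h2 J
  have hfin : (1:ℝ) ≤ (2:ℝ) ^ (((u:ℝ) + 1) + (J:ℝ) * x₂ + (2 + 3 * (t₂:ℝ)) + (e:ℝ) * (1 - Lg)) := by
    rw [Real.rpow_add (by norm_num), Real.rpow_add (by norm_num), Real.rpow_add (by norm_num), ← h4]
    refine h.trans ?_
    gcongr
  have h00 : (2:ℝ) ^ (0:ℝ) ≤ (2:ℝ) ^ (((u:ℝ) + 1) + (J:ℝ) * x₂ + (2 + 3 * (t₂:ℝ)) + (e:ℝ) * (1 - Lg)) := by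
    rwa [Real.rpow_zero]
  exact (Real.rpow_le_rpow_left_iff (by norm_num)).1 h00

/-- The arithmetic of the chain case. -/
lemma arith_full {D tR uR pR sR mR JR y Lg : ℝ} (hD : 1000 ≤ D) (ht1 : 16 * tR ≤ D) (ht0 : 0 ≤ tR)
    (hu1 : 2 * uR ≤ tR) (hu0 : 0 ≤ uR)
    (hp1 : 8 * pR ≤ D) (hp2 : D ≤ 8 * (pR + 1)) (hp0 : 0 ≤ pR) (hs1 : 2 * sR ≤ D) (hs2 : D ≤ 2 * sR + 3)
    (hm0 : 0 ≤ mR) (hJ0 : 0 ≤ JR) (hJy : JR ≤ y) (hy1 : 1 ≤ y) (hLg : 0 ≤ Lg)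
    (hexp : 0 ≤ (uR + 1) + JR * ((3 + 3 * uR + 2 * (2 * tR + pR) + 11 * tR) + (mR + 1) * (2 / (pR + 1))) +
      (2 + 3 * sR) + (2 * sR - (2 * tR + pR)) * (1 - Lg)) :
    Lg ≤ 32 * (1 + mR / D ^ 2) * y := by
  have hD0 : 0 < D := by linarith
  set R : ℝ := mR / D ^ 2 with hR
  have hR0 : 0 ≤ R := by positivity
  have hmR : mR = R * D ^ 2 := by
    rw [hR]
    field_simp
  set eR : ℝ := 2 * sR - (2 * tR + pR) with heR
  have he1 : D / 2 ≤ eR := by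
    rw [heR]
    linarith
  have he2 : eR ≤ D := by
    rw [heR]
    linarith
  -- the exponent of the memory
  have hq : (mR + 1) * (2 / (pR + 1)) ≤ 16 * (D * R) + 16 / D := by
    have hp3 : (0:ℝ) < pR + 1 := by linarith
    have h1 : 2 / (pR + 1) ≤ 16 / D := by
      rw [div_le_div_iff₀ hp3 hD0]
      linarith
    have h2 : (mR + 1) * (16 / D) = 16 * (D * R) + 16 / D := by
      rw [hmR]
      field_simp
    calc (mR + 1) * (2 / (pR + 1)) ≤ (mR + 1) * (16 / D) := by gcongr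
      _ = _ := h2
  have h16 : 16 / D ≤ 1 := by
    rw [div_le_one hD0]
    linarith
  have hx : (3 + 3 * uR + 2 * (2 * tR + pR) + 11 * tR) + (mR + 1) * (2 / (pR + 1))
      ≤ D * (13 / 10 + 16 * R) := by
    have h1 : D * (13 / 10 + 16 * R) = 13 / 10 * D + 16 * (D * R) := by ring
    rw [h1]
    linarith
  have hDb : 0 ≤ D * (13 / 10 + 16 * R) := by positivity
  have h2 : JR * ((3 + 3 * uR + 2 * (2 * tR + pR) + 11 * tR) + (mR + 1) * (2 / (pR + 1)))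
      ≤ y * (D * (13 / 10 + 16 * R)) :=
    (mul_le_mul_of_nonneg_left hx hJ0).trans (mul_le_mul_of_nonneg_right hJy hDb)
  have h3 : eR * Lg ≤ eR + (uR + 1) + (2 + 3 * sR) + y * (D * (13 / 10 + 16 * R)) := by
    have e1 : eR * (1 - Lg) = eR - eR * Lg := by ring
    rw [e1] at hexp
    linarith
  have h4 : D / 2 * Lg ≤ eR * Lg := mul_le_mul_of_nonneg_right he1 hLg
  have h5 : D * Lg / 2 ≤ D * (3 + y * (13 / 10 + 16 * R)) := by
    have e2 : D * (3 + y * (13 / 10 + 16 * R)) = 3 * D + y * (D * (13 / 10 + 16 * R)) := by ring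
    rw [e2]
    have e3 : D * Lg / 2 = D / 2 * Lg := by ring
    rw [e3]
    linarith
  have h6 : Lg ≤ 2 * (3 + y * (13 / 10 + 16 * R)) := by
    have h7 : D * Lg ≤ D * (2 * (3 + y * (13 / 10 + 16 * R))) := by linarith
    exact le_of_mul_le_mul_left h7 hD0
  have h8 : (1:ℝ) * 1 ≤ y * (1 + R) := mul_le_mul hy1 (by linarith) zero_le_one (by linarith)
  have hyR : 0 ≤ y * R := by positivity
  have e5 : 2 * (3 + y * (13 / 10 + 16 * R)) = 6 + 13 / 5 * y + 32 * (y * R) := by ring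
  have e6 : 32 * (1 + R) * y = 32 * y + 32 * (y * R) := by ring
  rw [e6]
  rw [e5] at h6
  linarith

/-- The arithmetic of the counting case. -/
lemma arith_count2 {D sR mR TR Lg : ℝ} (hD : 1000 ≤ D) (hs1 : 2 * sR ≤ D) (hs2 : D ≤ 2 * sR + 3) (hm0 : 0 ≤ mR)
    (hT : D ^ 2 ≤ 100 * TR) (hLg : 0 ≤ Lg)
    (hexp : -1 ≤ (mR + 1) + (2 + (3 - 2 * Lg) * sR)) :
    Lg ≤ 544 * (1 + mR / D ^ 2) * (1 + TR / D) := by
  have hD0 : 0 < D := by linarith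
  have hs0 : D / 3 ≤ sR := by linarith
  set R : ℝ := mR / D ^ 2 with hR
  have hR0 : 0 ≤ R := by positivity
  have hmR : mR = R * D ^ 2 := by
    rw [hR]
    field_simp
  have hTD : D / 100 ≤ TR / D := by
    rw [div_le_div_iff₀ (by norm_num) hD0]
    nlinarith
  have h1 : 2 * (Lg * sR) ≤ mR + 4 + 3 * sR := by
    have e1 : (3 - 2 * Lg) * sR = 3 * sR - 2 * (Lg * sR) := by ring
    rw [e1] at hexp
    linarith
  have h2 : D / 3 * Lg ≤ sR * Lg := mul_le_mul_of_nonneg_right hs0 hLg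
  have h3 : D * (2 / 3 * Lg) ≤ D * (3 / 2 * (R * D) * (2 / 3) + 2) := by
    have e2 : D * (3 / 2 * (R * D) * (2 / 3) + 2) = mR + 2 * D := by
      rw [hmR]
      ring
    rw [e2]
    have e3 : D * (2 / 3 * Lg) = 2 * (D / 3 * Lg) := by ring
    rw [e3]
    linarith
  have h4 : 2 / 3 * Lg ≤ 3 / 2 * (R * D) * (2 / 3) + 2 := le_of_mul_le_mul_left h3 hD0
  have h5 : Lg ≤ 3 / 2 * (R * D) + 3 := by linarith
  have h6 : 544 * (1 + R) * (D / 100) ≤ 544 * (1 + R) * (1 + TR / D) := by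
    refine mul_le_mul_of_nonneg_left ?_ (by positivity)
    linarith
  have hRD : 0 ≤ R * D := by positivity
  have e7 : 544 * (1 + R) * (D / 100) = 136 / 25 * D + 136 / 25 * (R * D) := by ring
  rw [e7] at h6
  linarith

/-- The elementary estimates on the batches. -/
lemma pow_big2 : ∀ u : ℕ, 12 ≤ u → 128 * u + 288 ≤ 2 ^ u := by
  intro u hu
  induction u, hu using Nat.le_induction with
  | base => norm_num
  | succ u _ ih =>
      rw [pow_succ]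
      omega

/-- **Main theorem**: a learner with `M` bits and horizon `T` succeeding at accuracy `ε`
has `log₂(1/ε) ≤ 544 (1 + M/d²) (1 + T/d)`. -/
theorem main_full {d M T : ℕ} (hd : 1000 ≤ d) {ε : ℝ} (hε0 : 0 < ε) (hε1 : ε < 1)
    (L : Learner d M) (hL : (2 / 3 : ℝ≥0∞) ≤ L.success T ε) :
    Real.logb 2 (1 / ε) ≤ 544 * (1 + (M : ℝ) / (d : ℝ) ^ 2) * (1 + (T : ℝ) / (d : ℝ)) := by
  -- parameters
  obtain ⟨t, ht⟩ : ∃ t : ℕ, t = d / 16 := ⟨_, rfl⟩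
  obtain ⟨p, hp⟩ : ∃ p : ℕ, p = d / 8 := ⟨_, rfl⟩
  obtain ⟨a, ha⟩ : ∃ a : ℕ, a = 2 * t + p := ⟨_, rfl⟩
  obtain ⟨n', hn'⟩ : ∃ n' : ℕ, n' = d - 2 * t := ⟨_, rfl⟩
  obtain ⟨n, hn⟩ : ∃ n : ℕ, n = d - p := ⟨_, rfl⟩
  obtain ⟨t₂, ht₂⟩ : ∃ t₂ : ℕ, t₂ = (d - 2) / 2 := ⟨_, rfl⟩
  obtain ⟨n₂, hn₂⟩ : ∃ n₂ : ℕ, n₂ = d - 2 * t₂ := ⟨_, rfl⟩
  obtain ⟨u, hu⟩ : ∃ u : ℕ, u = t / 2 := ⟨_, rfl⟩
  obtain ⟨q, hq⟩ : ∃ q : ℕ, q = T / t := ⟨_, rfl⟩
  obtain ⟨J, hJ⟩ : ∃ J : ℕ, J = q + 1 := ⟨_, rfl⟩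
  have ht62 : 62 ≤ t := by omega
  have hp100 : 125 ≤ p := by omega
  have hu31 : 31 ≤ u := by omega
  have hJT : T ≤ J * t := by
    have := Nat.lt_mul_div_succ T (show 0 < t by omega)
    rw [hJ, hq, mul_comm]
    exact this.le
  -- real versions
  have hD : (1000:ℝ) ≤ (d:ℝ) := by exact_mod_cast hd
  have hD0 : (0:ℝ) < (d:ℝ) := by linarith
  have ht1 : 16 * (t:ℝ) ≤ (d:ℝ) := by
    have : 16 * t ≤ d := by omega
    exact_mod_cast this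
  have ht17 : (d:ℝ) ≤ 17 * (t:ℝ) := by
    have : d ≤ 17 * t := by omega
    exact_mod_cast this
  have htR0 : (0:ℝ) < (t:ℝ) := by
    have : 0 < t := by omega
    exact_mod_cast this
  have hu1 : 2 * (u:ℝ) ≤ (t:ℝ) := by
    have : 2 * u ≤ t := by omega
    exact_mod_cast this
  have hp1 : 8 * (p:ℝ) ≤ (d:ℝ) := by
    have : 8 * p ≤ d := by omega
    exact_mod_cast this
  have hp2 : (d:ℝ) ≤ 8 * ((p:ℝ) + 1) := by
    have : d ≤ 8 * (p + 1) := by omega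
    exact_mod_cast this
  have hs1 : 2 * (t₂:ℝ) ≤ (d:ℝ) := by
    have : 2 * t₂ ≤ d := by omega
    exact_mod_cast this
  have hs2 : (d:ℝ) ≤ 2 * (t₂:ℝ) + 3 := by
    have : d ≤ 2 * t₂ + 3 := by omega
    exact_mod_cast this
  have hm0 : (0:ℝ) ≤ (M:ℝ) := Nat.cast_nonneg _
  have hT0 : (0:ℝ) ≤ (T:ℝ) := Nat.cast_nonneg _
  have hLg : 0 ≤ Real.logb 2 (1 / ε) := by
    apply Real.logb_nonneg (by norm_num)
    rw [one_le_div hε0]
    exact hε1.le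
  have hT2 : (T:ℝ) / (d:ℝ) * 17 = 17 * (T:ℝ) / (d:ℝ) := by ring
  by_cases hbig : 18 * (J + 1) ≤ 2 ^ u
  · -- the chain case
    have hmain := case_chain2 (t := t) (p := p) (n := n) (n' := n') (t₂ := t₂) (n₂ := n₂) (a := a)
      (u := u) (J := J) (by omega) (by omega) (by omega) (by omega) (by omega) (by omega) (by omega)
      (by omega) (by omega) (by omega) (by omega) (by omega) hu hJT hbig hε0 L hL
    have hexp := exp_form hε0 hbig hmain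
    have hcast : ((2 * t₂ - a : ℕ) : ℝ) = 2 * (t₂:ℝ) - (2 * (t:ℝ) + (p:ℝ)) := by
      rw [Nat.cast_sub (by omega), ha]
      push_cast
      ring
    have halp : alp p = 2 / ((p:ℝ) + 1) := by
      unfold alp
      push_cast
      ring
    have haR : (a:ℝ) = 2 * (t:ℝ) + (p:ℝ) := by
      rw [ha]
      push_cast
      ring
    rw [hcast, halp, haR] at hexp
    -- the number of batches
    set y : ℝ := 1 + 17 * (T:ℝ) / (d:ℝ) with hy
    have hqR : (q:ℝ) ≤ (T:ℝ) / (t:ℝ) := by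
      rw [hq]
      exact Nat.cast_div_le
    have hJy : (J:ℝ) ≤ y := by
      have h1 : (T:ℝ) / (t:ℝ) ≤ 17 * (T:ℝ) / (d:ℝ) := by
        rw [div_le_div_iff₀ htR0 hD0]
        have := mul_le_mul_of_nonneg_left ht17 hT0
        linarith
      have e : (J:ℝ) = (q:ℝ) + 1 := by
        rw [hJ]
        push_cast
        rfl
      rw [e, hy]
      linarith
    have hy1 : (1:ℝ) ≤ y := by
      rw [hy]
      have : 0 ≤ 17 * (T:ℝ) / (d:ℝ) := by positivity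
      linarith
    have h1 := arith_full hD ht1 htR0.le hu1 (Nat.cast_nonneg _) hp1 hp2 (Nat.cast_nonneg _) hs1 hs2
      hm0 (Nat.cast_nonneg _) hJy hy1 hLg hexp
    refine h1.trans ?_
    have hR : 0 ≤ (1 + (M : ℝ) / (d : ℝ) ^ 2) := by positivity
    have hTd : 0 ≤ (T:ℝ) / (d:ℝ) := by positivity
    have e1 : y = 1 + 17 * ((T:ℝ) / (d:ℝ)) := by
      rw [hy]
      ring
    rw [e1]
    have h2 : 32 * (1 + (M : ℝ) / (d : ℝ) ^ 2) * (1 + 17 * ((T:ℝ) / (d:ℝ)))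
        ≤ 32 * (1 + (M : ℝ) / (d : ℝ) ^ 2) * (17 * (1 + (T:ℝ) / (d:ℝ))) := by
      refine mul_le_mul_of_nonneg_left ?_ (by positivity)
      linarith
    refine h2.trans (le_of_eq ?_)
    ring
  · -- the counting case
    have ht₂0 : 0 < t₂ := by omega
    have hκ := (kappa_le ht₂0 (by omega : n₂ ≤ 3) hε0).trans
      (ENNReal.ofReal_le_ofReal (cap_exp (t₂ := t₂) hε0))
    have hexp := case_count (t₂ := t₂) (n₂ := n₂) (by omega) (by omega) hε0 hε1.le L hL hκ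
    refine arith_count2 hD hs1 hs2 hm0 ?_ hLg hexp
    -- the horizon is very long
    have h1 := pow_big2 u (by omega)
    have h2 : 7 * u + 14 ≤ q := by omega
    have h3 : q * t ≤ T := by
      rw [hq]
      exact Nat.div_mul_le_self T t
    have h4 : d * d ≤ 100 * T := by
      have h5 : d ≤ 17 * t := by omega
      have h6 : d ≤ 32 * u + 47 := by omega
      have h7 : d * d ≤ (32 * u + 47) * (17 * t) := Nat.mul_le_mul h6 h5
      have h8 : (32 * u + 47) * (17 * t) ≤ 100 * (q * t) := by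
        have h9 : (32 * u + 47) * 17 ≤ 100 * q := by omega
        calc (32 * u + 47) * (17 * t) = ((32 * u + 47) * 17) * t := by ring
          _ ≤ (100 * q) * t := Nat.mul_le_mul_right _ h9
          _ = 100 * (q * t) := by ring
      have h10 : 100 * (q * t) ≤ 100 * T := Nat.mul_le_mul_left _ h3
      omega
    have h5 : ((d * d : ℕ) : ℝ) ≤ ((100 * T : ℕ) : ℝ) := by exact_mod_cast h4
    push_cast at h5
    rw [pow_two]
    exact h5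

end Vale.Agent.Lib.P309
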