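import Vale.Agent.Lib.P309.Batches

open MeasureTheory ProbabilityTheory Real Set Filter Topology
open scoped ENNReal Nat RealInnerProductSpace

namespace Vale.Agent.Lib.P309

lemma unifSphere_prob {d : ℕ} (hd : 0 < d) : IsProbabilityMeasure (unifSphere d) := by
  constructor
  have h1 := lintegral_unifSphere hd (f := fun _ => 1) measurable_const
  simpa using h1

/-- The typical labels. -/
def typ (t : ℕ) : Set (Fin t → ℝ) := {y | sq y ≤ 4 * t}

lemma measurableSet_typ (t : ℕ) : MeasurableSet (typ t) :=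
  measurableSet_le measurable_sq measurable_const

/-- Volume bound for the typical labels. -/
noncomputable def Vt (t : ℕ) : ℝ := exp (1 / 2 * (4 * t)) * (√(π / (1 / 2))) ^ t

lemma Vt_pos (t : ℕ) : 0 < Vt t := by
  unfold Vt
  have : 0 < √(π / (1 / 2)) := Real.sqrt_pos.2 (by positivity)
  positivity

lemma vol_typ (t : ℕ) : volume (typ t) ≤ ENNReal.ofReal (Vt t) :=
  vol_sublevel t (4 * t) (by norm_num)

section model

variable {d : ℕ} {𝓐 : Type*} [Fintype 𝓐] [DecidableEq 𝓐]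

/-- Typical part of the batch kernel. -/
noncomputable def Ktp (Q : ℕ → 𝓐 → 𝓐 → Rd d → ℝ → ℝ≥0∞) (t j : ℕ) (a a' : 𝓐) (s : Rd d) : ℝ≥0∞ :=
  ∫⁻ X, Phi Q t (j * t) a a' X (labels X s) * (typ t).indicator 1 (labels X s)
    ∂(Measure.pi fun _ : Fin t => stdGaussian (Rd d))

/-- Atypical part of the batch kernel. -/
noncomputable def Kat (Q : ℕ → 𝓐 → 𝓐 → Rd d → ℝ → ℝ≥0∞) (t j : ℕ) (a a' : 𝓐) (s : Rd d) : ℝ≥0∞ :=
  ∫⁻ X, Phi Q t (j * t) a a' X (labels X s) * (typ t)ᶜ.indicator 1 (labels X s)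
    ∂(Measure.pi fun _ : Fin t => stdGaussian (Rd d))

variable {Q : ℕ → 𝓐 → 𝓐 → Rd d → ℝ → ℝ≥0∞}

lemma measurable_labels2 {t : ℕ} :
    Measurable (fun p : Rd d × (Fin t → Rd d) => labels p.2 p.1) :=
  measurable_pi_lambda _ fun i =>
    ((measurable_pi_apply i).comp measurable_snd).inner measurable_fst

lemma measurable_Ktp (hQ : ∀ n a a', Measurable fun p : Rd d × ℝ => Q n a a' p.1 p.2)
    (t j : ℕ) (a a' : 𝓐) : Measurable (Ktp Q t j a a') := by
  unfold Ktp
  have h1 : Measurable (fun p : Rd d × (Fin t → Rd d) =>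
      Phi Q t (j * t) a a' p.2 (labels p.2 p.1) * (typ t).indicator 1 (labels p.2 p.1)) := by
    refine Measurable.mul ?_ ?_
    · exact (measurable_Phi hQ t (j * t) a a').comp (measurable_snd.prodMk measurable_labels2)
    · exact (measurable_one.indicator (measurableSet_typ t)).comp measurable_labels2
  exact h1.lintegral_prod_right'

lemma measurable_Kat (hQ : ∀ n a a', Measurable fun p : Rd d × ℝ => Q n a a' p.1 p.2)
    (t j : ℕ) (a a' : 𝓐) : Measurable (Kat Q t j a a') := by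
  unfold Kat
  have h1 : Measurable (fun p : Rd d × (Fin t → Rd d) =>
      Phi Q t (j * t) a a' p.2 (labels p.2 p.1) * (typ t)ᶜ.indicator 1 (labels p.2 p.1)) := by
    refine Measurable.mul ?_ ?_
    · exact (measurable_Phi hQ t (j * t) a a').comp (measurable_snd.prodMk measurable_labels2)
    · exact (measurable_one.indicator (measurableSet_typ t).compl).comp measurable_labels2
  exact h1.lintegral_prod_right'

lemma Ktp_add_Kat (hQ : ∀ n a a', Measurable fun p : Rd d × ℝ => Q n a a' p.1 p.2)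
    (t j : ℕ) (a a' : 𝓐) (s : Rd d) :
    Ktp Q t j a a' s + Kat Q t j a a' s
      = ∫⁻ X, Phi Q t (j * t) a a' X (labels X s)
        ∂(Measure.pi fun _ : Fin t => stdGaussian (Rd d)) := by
  have hlab : Measurable (fun X : Fin t → Rd d => labels X s) :=
    measurable_pi_lambda _ fun i => (measurable_pi_apply i).inner measurable_const
  have hm : Measurable (fun X : Fin t → Rd d => Phi Q t (j * t) a a' X (labels X s) *
      (typ t).indicator 1 (labels X s)) := by
    refine Measurable.mul ?_ ?_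
    · exact (measurable_Phi hQ t (j * t) a a').comp (measurable_id.prodMk hlab)
    · exact (measurable_one.indicator (measurableSet_typ t)).comp hlab
  rw [Ktp, Kat, ← lintegral_add_left hm]
  refine lintegral_congr fun X => ?_
  by_cases hX : labels X s ∈ typ t
  · simp [hX]
  · simp [hX]

lemma sum_Ktp_Kat (hQ : ∀ n a a', Measurable fun p : Rd d × ℝ => Q n a a' p.1 p.2)
    (hQ1 : ∀ n a x y, ∑ a', Q n a a' x y = 1) (t j : ℕ) (a : 𝓐) (s : Rd d) :
    ∑ a', (Ktp Q t j a a' s + Kat Q t j a a' s) = 1 := by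
  have hlab : Measurable (fun X : Fin t → Rd d => labels X s) :=
    measurable_pi_lambda _ fun i => (measurable_pi_apply i).inner measurable_const
  have hm : ∀ a', Measurable (fun X : Fin t → Rd d => Phi Q t (j * t) a a' X (labels X s)) := fun a' =>
    (measurable_Phi hQ t (j * t) a a').comp (measurable_id.prodMk hlab)
  simp_rw [Ktp_add_Kat hQ]
  rw [← lintegral_finsetSum _ fun a' _ => hm a']
  simp_rw [sum_Phi hQ1]
  simp

lemma sum_Kat_le (hQ : ∀ n a a', Measurable fun p : Rd d × ℝ => Q n a a' p.1 p.2)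
    (hQ1 : ∀ n a x y, ∑ a', Q n a a' x y = 1) (hd : 0 < d) (t j : ℕ) (a : 𝓐) {s : Rd d}
    (hs : ‖s‖ = 1) :
    ∑ a', Kat Q t j a a' s ≤ ENNReal.ofReal (exp (-t) * (√2) ^ t) := by
  have hlab : Measurable (fun X : Fin t → Rd d => labels X s) :=
    measurable_pi_lambda _ fun i => (measurable_pi_apply i).inner measurable_const
  have hm : ∀ a', Measurable (fun X : Fin t → Rd d => Phi Q t (j * t) a a' X (labels X s) *
      (typ t)ᶜ.indicator 1 (labels X s)) := by
    intro a'
    refine Measurable.mul ?_ ?_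
    · exact (measurable_Phi hQ t (j * t) a a').comp (measurable_id.prodMk hlab)
    · exact (measurable_one.indicator (measurableSet_typ t).compl).comp hlab
  unfold Kat
  rw [← lintegral_finsetSum _ fun a' _ => hm a']
  simp_rw [← Finset.sum_mul, sum_Phi hQ1, one_mul]
  have h1 := atyp_bound (E := Rd d) (t := t) hs (by simpa using hd)
  refine le_trans (le_of_eq ?_) h1
  have hset : MeasurableSet {X : Fin t → Rd d | ¬ sq (labels X s) ≤ 4 * t} :=
    (measurableSet_le (measurable_sq.comp hlab) measurable_const).compl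
  rw [← lintegral_indicator_one hset]
  refine lintegral_congr fun X => ?_
  by_cases hX : sq (labels X s) ≤ 4 * t
  · have h2 : labels X s ∉ (typ t)ᶜ := by
      simpa [typ] using hX
    have h3 : X ∉ {X : Fin t → Rd d | ¬ sq (labels X s) ≤ 4 * t} := by
      simpa using hX
    rw [Set.indicator_of_notMem h2, Set.indicator_of_notMem h3]
  · have h2 : labels X s ∈ (typ t)ᶜ := by
      simpa [typ] using hX
    have h3 : X ∈ {X : Fin t → Rd d | ¬ sq (labels X s) ≤ 4 * t} := by
      simpa using hX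
    rw [Set.indicator_of_mem h2, Set.indicator_of_mem h3]
    rfl

/-- The constant in the L² bound. -/
noncomputable def C2 (t n : ℕ) : ℝ≥0∞ :=
  ENNReal.ofReal (((2 * π)⁻¹) ^ t) * Mom n t * (wt t * ENNReal.ofReal (Vt t) * ENNReal.ofReal (Vt t))

/-- The L² estimate for the typical part of the batch kernel. -/
theorem Ktp_L2 (hQ : ∀ n a a', Measurable fun p : Rd d × ℝ => Q n a a' p.1 p.2)
    (hQ1 : ∀ n a x y, ∑ a', Q n a a' x y = 1) {t n : ℕ} (ht : 0 < t) (hd : d = 2 * t + n)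
    (hn : 2 * t + 1 ≤ n) (j : ℕ) (w : 𝓐 → ℝ≥0∞) (hw : ∑ a, w a ≤ 1) :
    ∃ h : 𝓐 → ℝ≥0∞, ∑ a', h a' ≤ 1 ∧ ∀ a', ∫⁻ s : Sph d, (∑ a, w a * Ktp Q t j a a' s) ^ 2 ∂(unifSphere d)
      ≤ C2 t n * h a' ^ (2 - 1 / (t : ℝ)) := by
  classical
  have hd0 : 0 < d := by omega
  have hfr : Module.finrank ℝ (Rd d) = 2 * t + n := by simpa using hd
  set ν := Measure.pi fun _ : Fin t => stdGaussian (Rd d) with hν
  let V : ℝ≥0∞ := ENNReal.ofReal (Vt t)
  have hV0 : V ≠ 0 := by simpa [V] using Vt_pos t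
  have hVT : V ≠ ∞ := ENNReal.ofReal_ne_top
  let Ψ : 𝓐 → (Fin t → Rd d) → (Fin t → ℝ) → ℝ≥0∞ := fun a' X y =>
    ∑ a, w a * (Phi Q t (j * t) a a' X y * (typ t).indicator 1 y)
  have hΨm : ∀ a', Measurable (Function.uncurry (Ψ a')) := by
    intro a'
    refine Finset.measurable_sum _ fun a _ => ?_
    refine Measurable.const_mul (Measurable.mul (measurable_Phi hQ t (j * t) a a') ?_) _
    exact (measurable_one.indicator (measurableSet_typ t)).comp measurable_snd
  let phi : 𝓐 → (Fin t → Rd d) → ℝ≥0∞ := fun a' X => ∫⁻ y, Ψ a' X y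
  have hphim : ∀ a', Measurable (phi a') := fun a' => (hΨm a').lintegral_prod_right'
  have hΨ1 : ∀ a' X, Measurable (Ψ a' X) := fun a' X => (hΨm a').of_uncurry_left
  -- total mass in the volume of the labels
  have hsumphi : ∀ X, ∑ a', phi a' X ≤ V := by
    intro X
    simp only [phi]
    rw [← lintegral_finsetSum _ fun a' _ => hΨ1 a' X]
    have h1 : ∀ y, ∑ a', Ψ a' X y ≤ (typ t).indicator 1 y := by
      intro y
      simp only [Ψ]
      rw [Finset.sum_comm]
      have h2 : ∀ a, ∑ a', w a * (Phi Q t (j * t) a a' X y * (typ t).indicator 1 y)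
          = w a * (typ t).indicator 1 y := by
        intro a
        rw [← Finset.mul_sum, ← Finset.sum_mul, sum_Phi hQ1, one_mul]
      simp_rw [h2, ← Finset.sum_mul]
      calc (∑ a, w a) * (typ t).indicator 1 y ≤ 1 * (typ t).indicator 1 y := by gcongr
        _ = (typ t).indicator 1 y := one_mul _
    calc ∫⁻ y, ∑ a', Ψ a' X y ≤ ∫⁻ y, (typ t).indicator 1 y := lintegral_mono h1
      _ = volume (typ t) := lintegral_indicator_one (measurableSet_typ t)
      _ ≤ V := vol_typ t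
  have hphiV : ∀ a' X, phi a' X ≤ V := fun a' X =>
    (Finset.single_le_sum (f := fun a' => phi a' X) (fun _ _ => bot_le) (Finset.mem_univ a')).trans
      (hsumphi X)
  refine ⟨fun a' => (∫⁻ X, phi a' X ∂ν) / V, ?_, ?_⟩
  · simp_rw [div_eq_mul_inv]
    rw [← Finset.sum_mul, ← lintegral_finsetSum _ fun a' _ => hphim a']
    have h2 : ∫⁻ X, ∑ a', phi a' X ∂ν ≤ V := by
      calc ∫⁻ X, ∑ a', phi a' X ∂ν ≤ ∫⁻ _, V ∂ν := lintegral_mono hsumphi
        _ = V := by simp [hν]
    calc (∫⁻ X, ∑ a', phi a' X ∂ν) * V⁻¹ ≤ V * V⁻¹ := by gcongr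
      _ = 1 := ENNReal.mul_inv_cancel hV0 hVT
  · intro a'
    -- the function on the whole space
    let f : Rd d → ℝ≥0∞ := fun v => (∑ a, w a * Ktp Q t j a a' v) ^ 2
    have hf : Measurable f :=
      (Finset.measurable_sum _ fun a _ => (measurable_Ktp hQ t j a a').const_mul _).pow_const 2
    have h1 : ∫⁻ s : Sph d, (∑ a, w a * Ktp Q t j a a' s) ^ 2 ∂(unifSphere d)
        = ∫⁻ g, f (‖g‖⁻¹ • g) ∂(stdGaussian (Rd d)) := lintegral_unifSphere hd0 hf
    rw [h1]
    have h2 : ∀ v : Rd d, ∑ a, w a * Ktp Q t j a a' v = ∫⁻ X, Ψ a' X (labels X v) ∂ν := by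
      intro v
      have hlab : Measurable (fun X : Fin t → Rd d => labels X v) :=
        measurable_pi_lambda _ fun i => (measurable_pi_apply i).inner measurable_const
      have hm : ∀ a, Measurable (fun X : Fin t → Rd d => Phi Q t (j * t) a a' X (labels X v) *
          (typ t).indicator 1 (labels X v)) := by
        intro a
        refine Measurable.mul ?_ ?_
        · exact (measurable_Phi hQ t (j * t) a a').comp (measurable_id.prodMk hlab)
        · exact (measurable_one.indicator (measurableSet_typ t)).comp hlab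
      simp only [Ψ, Ktp]
      rw [lintegral_finsetSum _ fun a _ => (hm a).const_mul _]
      refine Finset.sum_congr rfl fun a _ => ?_
      exact (lintegral_const_mul _ (hm a)).symm
    simp only [f, h2]
    have h3 := l2_smoothing (E := Rd d) ht hfr hn (hΨm a') (V := V) (hphiV a')
    refine h3.trans (le_of_eq ?_)
    have htR : (0:ℝ) < t := by exact_mod_cast ht
    have h1t : (1:ℝ) ≤ t := by exact_mod_cast ht
    have hpow : V ^ (1 / (t:ℝ)) * V ^ (2 - 1 / (t:ℝ)) = V * V := by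
      rw [← ENNReal.rpow_add _ _ hV0 hVT]
      have : 1 / (t:ℝ) + (2 - 1 / (t:ℝ)) = 2 := by ring
      rw [this, ENNReal.rpow_two, pow_two]
    have hexp : 0 ≤ 2 - 1 / (t:ℝ) := by
      have : 1 / (t:ℝ) ≤ 1 := by
        rw [div_le_one htR]
        exact h1t
      linarith
    change ENNReal.ofReal ((2 * π)⁻¹ ^ t) * Mom n t * (wt t * V ^ (1 / (t:ℝ)) *
      (∫⁻ X, phi a' X ∂ν) ^ (2 - 1 / (t:ℝ))) = C2 t n * ((∫⁻ X, phi a' X ∂ν) / V) ^ (2 - 1 / (t:ℝ))
    generalize (∫⁻ X, phi a' X ∂ν) = I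
    have h4 : I = (I / V) * V := (ENNReal.div_mul_cancel hV0 hVT).symm
    generalize I / V = B at h4 ⊢
    subst h4
    rw [ENNReal.mul_rpow_of_nonneg _ _ hexp]
    simp only [C2]
    calc ENNReal.ofReal ((2 * π)⁻¹ ^ t) * Mom n t * (wt t * V ^ (1 / (t:ℝ)) *
          (B ^ (2 - 1 / (t:ℝ)) * V ^ (2 - 1 / (t:ℝ))))
        = ENNReal.ofReal ((2 * π)⁻¹ ^ t) * Mom n t * (wt t * (V ^ (1 / (t:ℝ)) * V ^ (2 - 1 / (t:ℝ)))) *
          B ^ (2 - 1 / (t:ℝ)) := by ring
      _ = _ := by
        rw [hpow]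
        have e : ∀ a b c d e : ℝ≥0∞, a * (b * (c * d)) * e = a * (b * c * d) * e := by
          intro a b c d e; ring
        exact e _ _ _ _ _

/-- The sequence of bounds. -/
noncomputable def Lam (A : ℝ≥0∞) : ℕ → ℝ≥0∞
  | 0 => 1
  | J + 1 => Lam A J * Lam A J * A

lemma Lam_ne_zero {A : ℝ≥0∞} (h0 : A ≠ 0) : ∀ J, Lam A J ≠ 0
  | 0 => by simp [Lam]
  | J + 1 => by
      simp only [Lam]
      exact mul_ne_zero (mul_ne_zero (Lam_ne_zero h0 J) (Lam_ne_zero h0 J)) h0

lemma Lam_ne_top {A : ℝ≥0∞} (h0 : A ≠ ∞) : ∀ J, Lam A J ≠ ∞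
  | 0 => by simp [Lam]
  | J + 1 => by
      simp only [Lam]
      exact ENNReal.mul_ne_top (ENNReal.mul_ne_top (Lam_ne_top h0 J) (Lam_ne_top h0 J)) h0

/-- The chain for a Markov model on the uniform signal. -/
theorem model_chain (hQ : ∀ n a a', Measurable fun p : Rd d × ℝ => Q n a a' p.1 p.2)
    (hQ1 : ∀ n a x y, ∑ a', Q n a a' x y = 1) {t n : ℕ} (ht : 1 < t) (hd : d = 2 * t + n)
    (hn : 2 * t + 1 ≤ n) {ι₀ : 𝓐 → ℝ≥0∞} (hι : ∑ a, ι₀ a = 1) {A δ : ℝ≥0∞} (hA0 : A ≠ 0) (hAT : A ≠ ∞)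
    (hA : C2 t n * (Fintype.card 𝓐 : ℝ≥0∞) ^ (1 / (t:ℝ)) ≤ δ * A) :
    ∀ J : ℕ, @Inv (Sph d) _ 𝓐 _ (unifSphere d) (fun a s => Fl Q ι₀ (s : Rd d) (J * t) a) (Lam A J)
      (J * (ENNReal.ofReal (exp (-t) * (√2) ^ t) + δ)) := by
  have hd0 : 0 < d := by omega
  have := unifSphere_prob hd0
  have ht0 : 0 < t := by omega
  have htR : (1:ℝ) < t := by exact_mod_cast ht
  intro J
  induction J with
  | zero =>
      simp only [Nat.cast_zero, zero_mul]
      exact Inv.init ι₀ hι
  | succ J ih =>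
      have h1 := Inv.step ih (Kt := fun a a' s => Ktp Q t J a a' s)
        (Ka := fun a a' s => Kat Q t J a a' s)
        (fun a a' => (measurable_Ktp hQ t J a a').comp measurable_subtype_coe)
        (fun a a' => (measurable_Kat hQ t J a a').comp measurable_subtype_coe)
        (fun a s => sum_Ktp_Kat hQ hQ1 t J a s)
        (fun a s => sum_Kat_le hQ hQ1 hd0 t J a (by simpa using s.2))
        (C₂ := C2 t n) (α := 1 / (t:ℝ)) (by positivity)
        (by rw [div_lt_one (by linarith)]; exact htR)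
        (fun w hw => Ktp_L2 hQ hQ1 ht0 hd hn J w hw)
        (Λ' := Lam A (J + 1)) (δ := δ) (Lam_ne_zero hA0 _) (Lam_ne_top hAT _)
        (by
          simp only [Lam]
          calc Lam A J * Lam A J * C2 t n * (Fintype.card 𝓐 : ℝ≥0∞) ^ (1 / (t:ℝ))
              = Lam A J * Lam A J * (C2 t n * (Fintype.card 𝓐 : ℝ≥0∞) ^ (1 / (t:ℝ))) := by ring
            _ ≤ Lam A J * Lam A J * (δ * A) := by gcongr
            _ = _ := by ring)
      have h2 : (fun (a' : 𝓐) (s : Sph d) => Fl Q ι₀ (s : Rd d) ((J + 1) * t) a')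
          = fun (a' : 𝓐) (s : Sph d) => ∑ a, Fl Q ι₀ (s : Rd d) (J * t) a *
              (Ktp Q t J a a' s + Kat Q t J a a' s) := by
        funext a' s
        have e : (J + 1) * t = J * t + t := by ring
        rw [e, Fl_add hQ ι₀ (s : Rd d) t (J * t) a']
        simp_rw [Ktp_add_Kat hQ]
      have h3 : ((J + 1 : ℕ) : ℝ≥0∞) * (ENNReal.ofReal (exp (-t) * (√2) ^ t) + δ)
          = (J : ℝ≥0∞) * (ENNReal.ofReal (exp (-t) * (√2) ^ t) + δ) +
            ENNReal.ofReal (exp (-t) * (√2) ^ t) + δ := by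
        push_cast
        ring
      rw [h2, h3]
      exact h1

end model

end Vale.Agent.Lib.P309
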