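import Vale.Agent.Lib.P309.GaussRows

open MeasureTheory ProbabilityTheory Real Set Filter Topology
open scoped ENNReal Nat RealInnerProductSpace

namespace Vale.Agent.Lib.P309

/-- The box kernel of width `2 η` on the line. -/
noncomputable def kap (η x : ℝ) : ℝ≥0∞ :=
  (ENNReal.ofReal (2 * η))⁻¹ * (Set.Icc (-η) η).indicator 1 x

lemma measurable_kap (η : ℝ) : Measurable (kap η) :=
  (measurable_one.indicator measurableSet_Icc).const_mul _

lemma lintegral_kap {η : ℝ} (hη : 0 < η) : ∫⁻ x, kap η x = 1 := by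
  unfold kap
  rw [lintegral_const_mul _ (measurable_one.indicator measurableSet_Icc),
    lintegral_indicator_one measurableSet_Icc, Real.volume_Icc]
  have h1 : η - -η = 2 * η := by ring
  rw [h1]
  exact ENNReal.inv_mul_cancel (by simpa using by positivity) ENNReal.ofReal_ne_top

lemma lintegral_kap_sub {η : ℝ} (hη : 0 < η) (w : ℝ) : ∫⁻ z, kap η (z - w) = 1 := by
  rw [lintegral_sub_right_eq_self (kap η) w]
  exact lintegral_kap hη

lemma lintegral_kap_neg {η : ℝ} (hη : 0 < η) : ∫⁻ w, kap η (- w) = 1 := by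
  rw [lintegral_neg_eq_self (kap η)]
  exact lintegral_kap hη

/-- The convolution of boxes, after the translation which removes the first point. -/
noncomputable def Atil (η : ℝ) (p : ℕ) (z : Fin p → ℝ) : ℝ≥0∞ :=
  ∫⁻ w, kap η (- w) * ∏ i, kap η (z i - w)

lemma measurable_Atil_aux (η : ℝ) (p : ℕ) :
    Measurable (fun q : (Fin p → ℝ) × ℝ => kap η (- q.2) * ∏ i, kap η (q.1 i - q.2)) := by
  refine Measurable.mul ((measurable_kap η).comp measurable_snd.neg) ?_
  refine Finset.measurable_prod _ fun i _ => ?_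
  exact (measurable_kap η).comp (((measurable_pi_apply i).comp measurable_fst).sub measurable_snd)

lemma measurable_Atil (η : ℝ) (p : ℕ) : Measurable (Atil η p) :=
  (measurable_Atil_aux η p).lintegral_prod_right'

lemma lintegral_Atil {η : ℝ} (hη : 0 < η) (p : ℕ) : ∫⁻ z, Atil η p z = 1 := by
  unfold Atil
  rw [lintegral_lintegral_swap (measurable_Atil_aux η p).aemeasurable]
  have h1 : ∀ w : ℝ, ∫⁻ z : Fin p → ℝ, kap η (- w) * ∏ i, kap η (z i - w) = kap η (- w) := by
    intro w
    rw [lintegral_const_mul]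
    · have h2 := lintegral_pi_prod (volume : Measure ℝ) p (fun _ z => kap η (z - w))
        (fun _ => (measurable_kap η).comp (measurable_id.sub measurable_const))
      rw [volume_pi, h2]
      simp_rw [lintegral_kap_sub hη]
      simp
    · refine Finset.measurable_prod _ fun i _ => ?_
      exact (measurable_kap η).comp ((measurable_pi_apply i).sub measurable_const)
  simp_rw [h1]
  exact lintegral_kap_neg hη

variable {E : Type*} [NormedAddCommGroup E] [InnerProductSpace ℝ E] [FiniteDimensional ℝ E]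
  [MeasurableSpace E] [BorelSpace E]

/-- The overlap of the boxes of one row at `p + 1` points. -/
noncomputable def Hov {p : ℕ} (η : ℝ) (v : Fin (p + 1) → E) (y : E) : ℝ≥0∞ :=
  ∫⁻ w, ∏ i, kap η (⟪y, v i⟫ - w)

lemma Hov_eq {p : ℕ} (η : ℝ) (v : Fin (p + 1) → E) (y : E) :
    Hov η v y = Atil η p (fun i => ⟪v i.succ - v 0, y⟫) := by
  unfold Hov Atil
  rw [← lintegral_add_right_eq_self _ (⟪y, v 0⟫)]
  refine lintegral_congr fun w => ?_
  rw [Fin.prod_univ_succ]
  congr 1
  · congr 1
    ring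
  · refine Finset.prod_congr rfl fun i _ => ?_
    congr 1
    show ⟪y, v i.succ⟫ - (w + ⟪y, v 0⟫) = ⟪v i.succ - v 0, y⟫ - w
    rw [inner_sub_left, real_inner_comm y (v i.succ), real_inner_comm y (v 0)]
    ring

/-- Differences from the first point. -/
def dif {p : ℕ} (v : Fin (p + 1) → E) : Fin p → E := fun i => v i.succ - v 0

omit [FiniteDimensional ℝ E] [MeasurableSpace E] [BorelSpace E] in
lemma prod_inv_ne_zero {p : ℕ} (f : Fin p → ℝ) :
    ∏ i, (ENNReal.ofReal (f i))⁻¹ ≠ 0 := by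
  rw [Finset.prod_ne_zero_iff]
  intro i _
  simp

/-- The overlap integral of one Gaussian row at `p + 1` points. -/
theorem lintegral_Hov_le {p n : ℕ} (hd : Module.finrank ℝ E = p + n) {η : ℝ} (hη : 0 < η)
    (v : Fin (p + 1) → E) :
    ∫⁻ y, Hov η v y ∂(stdGaussian E)
      ≤ ∏ i : Fin p, (ENNReal.ofReal ‖gs (ext (dif v)) i‖)⁻¹ := by
  classical
  simp_rw [Hov_eq]
  by_cases hne : ∀ i < p, gs (ext (dif v)) i ≠ 0
  · have h1 := gauss_rows hd hne (measurable_Atil η p)
    have h2 : (fun y : E => Atil η p (fun i => ⟪v i.succ - v 0, y⟫))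
        = fun y : E => Atil η p (fun i : Fin p => ⟪ext (dif v) i, y⟫) := by
      funext y
      congr 1
      funext i
      rw [ext_coe]
      rfl
    rw [h2]
    refine h1.trans ?_
    rw [lintegral_Atil hη, mul_one]
    have h3 : ENNReal.ofReal (∏ i : Fin p, ‖gs (ext (dif v)) i‖⁻¹)
        = ∏ i : Fin p, (ENNReal.ofReal ‖gs (ext (dif v)) i‖)⁻¹ := by
      rw [ENNReal.ofReal_prod_of_nonneg (fun _ _ => by positivity)]
      refine Finset.prod_congr rfl fun i _ => ?_
      exact ENNReal.ofReal_inv_of_pos (norm_pos_iff.2 (hne i i.2))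
    rw [h3]
    have h4 : ENNReal.ofReal (((√(2 * π))⁻¹) ^ p) ≤ 1 := by
      rw [← ENNReal.ofReal_one]
      apply ENNReal.ofReal_le_ofReal
      apply pow_le_one₀ (by positivity)
      rw [inv_le_one₀ (by positivity)]
      rw [Real.one_le_sqrt]
      have := Real.pi_gt_three
      linarith
    calc ENNReal.ofReal (((√(2 * π))⁻¹) ^ p) * ∏ i : Fin p, (ENNReal.ofReal ‖gs (ext (dif v)) i‖)⁻¹
        ≤ 1 * ∏ i : Fin p, (ENNReal.ofReal ‖gs (ext (dif v)) i‖)⁻¹ := by gcongr
      _ = _ := one_mul _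
  · push Not at hne
    obtain ⟨i, hi, h0⟩ := hne
    have h1 : ∏ i : Fin p, (ENNReal.ofReal ‖gs (ext (dif v)) i‖)⁻¹ = ∞ := by
      rw [← Finset.mul_prod_erase _ _ (Finset.mem_univ (⟨i, hi⟩ : Fin p))]
      have h2 : (ENNReal.ofReal ‖gs (ext (dif v)) (⟨i, hi⟩ : Fin p)‖)⁻¹ = ∞ := by
        simp [h0]
      rw [h2]
      refine ENNReal.top_mul ?_
      rw [Finset.prod_ne_zero_iff]
      intro j _
      simp
    rw [h1]
    exact le_top

end Vale.Agent.Lib.P309
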