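import Vale.Agent.Lib.P309.Gauss

open MeasureTheory ProbabilityTheory Real Set Filter Topology
open scoped ENNReal Nat

namespace Vale.Agent.Lib.P309

/-- Gamma integral with natural exponent. -/
lemma integral_pow_mul_exp (b : ℕ) {r : ℝ} (hr : 0 < r) :
    ∫ t in Ioi (0:ℝ), t ^ b * exp (- (r * t)) = (r⁻¹) ^ (b + 1) * (b ! : ℝ) := by
  have h := Real.integral_rpow_mul_exp_neg_mul_Ioi (a := (b:ℝ) + 1) (r := r)
    (by positivity) hr
  rw [Real.Gamma_nat_eq_factorial] at h
  simp only [add_sub_cancel_right] at h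
  have h1 : ∀ t : ℝ, t ^ (b:ℝ) * exp (- (r * t)) = t ^ b * exp (- (r * t)) := by
    intro t; rw [Real.rpow_natCast]
  simp_rw [h1] at h
  rw [h]
  congr 1
  rw [one_div]
  exact_mod_cast Real.rpow_natCast r⁻¹ (b + 1)

lemma integrableOn_pow_mul_exp (b : ℕ) {r : ℝ} (hr : 0 < r) :
    IntegrableOn (fun t : ℝ => t ^ b * exp (- (r * t))) (Ioi 0) := by
  by_contra h
  have h0 := integral_undef h
  rw [integral_pow_mul_exp b hr] at h0
  have : 0 < (r⁻¹) ^ (b + 1) * (b ! : ℝ) := by positivity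
  exact this.ne' h0

/-- Representation of inverse powers by a Laplace transform. -/
lemma inv_pow_eq_lintegral (b : ℕ) {r : ℝ} (hr : 0 < r) :
    (ENNReal.ofReal r)⁻¹ ^ (b + 1)
      = ENNReal.ofReal ((b ! : ℝ)⁻¹) *
        ∫⁻ t in Ioi (0:ℝ), ENNReal.ofReal (t ^ b * exp (- (r * t))) := by
  rw [← ofReal_integral_eq_lintegral_ofReal (integrableOn_pow_mul_exp b hr)
    (by
      filter_upwards [ae_restrict_mem measurableSet_Ioi] with t ht
      have : (0:ℝ) < t := ht
      positivity), integral_pow_mul_exp b hr,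
    ← ENNReal.ofReal_mul (by positivity), ← ENNReal.ofReal_inv_of_pos hr,
    ← ENNReal.ofReal_pow (by positivity)]
  congr 1
  have : (b ! : ℝ) ≠ 0 := by positivity
  field_simp

/-- The beta type integral we need. -/
lemma beta_integral (b : ℕ) :
    ∫⁻ t in Ioi (0:ℝ), ENNReal.ofReal (t ^ b * ((1 + 2 * t)⁻¹) ^ (b + 2))
      = ENNReal.ofReal (((2:ℝ) ^ (b + 1) * ((b:ℝ) + 1))⁻¹) := by
  have hderiv : ∀ x ∈ Ioi (0:ℝ), HasDerivAt (fun t : ℝ => (t / (1 + 2 * t)) ^ (b + 1) / ((b:ℝ) + 1))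
      (x ^ b * ((1 + 2 * x)⁻¹) ^ (b + 2)) x := by
    intro x hx
    have hx0 : (0:ℝ) < x := hx
    have h1 : (1 + 2 * x) ≠ 0 := by positivity
    have h2 : HasDerivAt (fun t : ℝ => t / (1 + 2 * t)) (1 / (1 + 2 * x) ^ 2) x := by
      have h0 : HasDerivAt (fun t : ℝ => 1 + 2 * t) 2 x := by
        simpa using ((hasDerivAt_id' x).const_mul (2:ℝ)).const_add 1
      have := (hasDerivAt_id' x).fun_div h0 h1
      refine this.congr_deriv ?_
      field_simp
      ring
    have h3 := ((h2.fun_pow (b + 1)).div_const ((b:ℝ) + 1))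
    refine h3.congr_deriv ?_
    have hb : ((b:ℝ) + 1) ≠ 0 := by positivity
    simp only [Nat.cast_add, Nat.cast_one, add_tsub_cancel_right]
    rw [inv_pow, div_pow]
    field_simp
    ring
  have hnn : ∀ x ∈ Ioi (0:ℝ), 0 ≤ x ^ b * ((1 + 2 * x)⁻¹) ^ (b + 2) := by
    intro x hx
    have hx0 : (0:ℝ) < x := hx
    positivity
  have hcont : ContinuousWithinAt (fun t : ℝ => (t / (1 + 2 * t)) ^ (b + 1) / ((b:ℝ) + 1))
      (Ici 0) 0 := by
    apply ContinuousAt.continuousWithinAt
    have h1 : (1 + 2 * (0:ℝ)) ≠ 0 := by norm_num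
    fun_prop (disch := simp)
  have hlim : Tendsto (fun t : ℝ => t / (1 + 2 * t)) atTop (𝓝 (1/2)) := by
    have h1 : Tendsto (fun t : ℝ => (1 + 2 * t)⁻¹) atTop (𝓝 0) := by
      apply Tendsto.inv_tendsto_atTop
      exact tendsto_atTop_add_const_left _ _ (tendsto_id.const_mul_atTop (by norm_num))
    have h2 : Tendsto (fun t : ℝ => 1/2 - (1/2) * (1 + 2 * t)⁻¹) atTop (𝓝 (1/2 - (1/2) * 0)) :=
      tendsto_const_nhds.sub (h1.const_mul _)
    simp only [mul_zero, sub_zero] at h2
    refine h2.congr' ?_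
    filter_upwards [eventually_gt_atTop 0] with t ht
    have : (1 + 2 * t) ≠ 0 := by positivity
    field_simp
    ring
  have hlimg : Tendsto (fun t : ℝ => (t / (1 + 2 * t)) ^ (b + 1) / ((b:ℝ) + 1)) atTop
      (𝓝 ((1/2) ^ (b + 1) / ((b:ℝ) + 1))) :=
    (hlim.pow (b + 1)).div_const _
  have hint := integrableOn_Ioi_deriv_of_nonneg hcont hderiv hnn hlimg
  have hval := integral_Ioi_of_hasDerivAt_of_nonneg hcont hderiv hnn hlimg
  rw [← ofReal_integral_eq_lintegral_ofReal hint (by
    filter_upwards [ae_restrict_mem measurableSet_Ioi] with t ht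
    exact hnn t ht)]
  congr 1
  rw [hval]
  have hb : ((b:ℝ) + 1) ≠ 0 := by positivity
  norm_num
  field_simp
  rw [← mul_pow]
  norm_num

/-- Inverse moments of the sum of squares under the Gaussian. -/
theorem inv_moment (m b : ℕ) (hm : 2 * (b + 1) + 2 ≤ m) :
    ∫⁻ x, (ENNReal.ofReal (sq x))⁻¹ ^ (b + 1) ∂(P (Fin m))
      ≤ ENNReal.ofReal (((2:ℝ) ^ (b + 1) * ((b + 1) ! : ℝ))⁻¹) := by
  -- almost surely the sum of squares is positive
  have hpos : ∀ᵐ x ∂(P (Fin m)), 0 < sq x := by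
    have : Nonempty (Fin m) := ⟨⟨0, by omega⟩⟩
    have hac : P (Fin m) ≪ volume := by
      rw [P_eq_withDensity]; exact withDensity_absolutelyContinuous _ _
    have h0 : ∀ᵐ x ∂(volume : Measure (Fin m → ℝ)), x ≠ 0 := by
      have : ({0}ᶜ : Set (Fin m → ℝ)) ∈ ae (volume : Measure (Fin m → ℝ)) :=
        compl_mem_ae_iff.2 (measure_singleton _)
      exact this
    filter_upwards [hac.ae_le h0] with x hx
    by_contra hn
    apply hx
    have h1 : sq x = 0 := le_antisymm (not_lt.1 hn) (sq_nonneg' x)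
    funext i
    have := (Finset.sum_eq_zero_iff_of_nonneg (fun i _ => sq_nonneg (x i))).1 h1 i (Finset.mem_univ i)
    simpa using this
  have hmeas : Measurable (Function.uncurry fun (x : Fin m → ℝ) (t : ℝ) =>
      ENNReal.ofReal (t ^ b * exp (- (sq x * t)))) := by
    apply ENNReal.measurable_ofReal.comp
    apply Measurable.mul
    · exact (measurable_snd).pow_const b
    · exact Real.measurable_exp.comp ((measurable_sq.comp measurable_fst).mul measurable_snd).neg
  calc ∫⁻ x, (ENNReal.ofReal (sq x))⁻¹ ^ (b + 1) ∂(P (Fin m))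
      = ∫⁻ x, ENNReal.ofReal ((b ! : ℝ)⁻¹) *
        (∫⁻ t in Ioi (0:ℝ), ENNReal.ofReal (t ^ b * exp (- (sq x * t)))) ∂(P (Fin m)) := by
        refine lintegral_congr_ae ?_
        filter_upwards [hpos] with x hx
        exact inv_pow_eq_lintegral b hx
    _ = ENNReal.ofReal ((b ! : ℝ)⁻¹) *
        ∫⁻ x, (∫⁻ t in Ioi (0:ℝ), ENNReal.ofReal (t ^ b * exp (- (sq x * t)))) ∂(P (Fin m)) := by
        rw [lintegral_const_mul]
        exact hmeas.lintegral_prod_right'
    _ = ENNReal.ofReal ((b ! : ℝ)⁻¹) *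
        ∫⁻ t in Ioi (0:ℝ), ∫⁻ x, ENNReal.ofReal (t ^ b * exp (- (sq x * t))) ∂(P (Fin m)) := by
        congr 1
        exact lintegral_lintegral_swap hmeas.aemeasurable
    _ ≤ ENNReal.ofReal ((b ! : ℝ)⁻¹) *
        ∫⁻ t in Ioi (0:ℝ), ENNReal.ofReal (t ^ b * ((1 + 2 * t)⁻¹) ^ (b + 2)) := by
        refine mul_le_mul_right ?_ _
        refine setLIntegral_mono' measurableSet_Ioi fun t ht => ?_
        have ht0 : (0:ℝ) < t := ht
        have h1 : ∀ x : Fin m → ℝ, ENNReal.ofReal (t ^ b * exp (- (sq x * t)))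
            = ENNReal.ofReal (t ^ b) * ENNReal.ofReal (exp (- (2 * t) * sq x / 2)) := by
          intro x
          rw [← ENNReal.ofReal_mul (by positivity)]
          congr 3
          ring
        simp_rw [h1]
        rw [lintegral_const_mul _ (by
            exact ENNReal.measurable_ofReal.comp (Real.measurable_exp.comp
              ((measurable_sq.const_mul _).div_const _))),
          lintegral_exp_sq m (2 * t) (by linarith),
          ENNReal.ofReal_mul (by positivity : (0:ℝ) ≤ t ^ b) ]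
        refine mul_le_mul_right (ENNReal.ofReal_le_ofReal ?_) _
        have hu : (1:ℝ) ≤ 1 + 2 * t := by linarith
        have h2 : (√(1 + 2 * t))⁻¹ ^ m ≤ (√(1 + 2 * t))⁻¹ ^ (2 * (b + 2)) := by
          apply pow_le_pow_of_le_one (by positivity)
          · apply inv_le_one_of_one_le₀
            rw [Real.one_le_sqrt]
            exact hu
          · omega
        refine h2.trans (le_of_eq ?_)
        rw [pow_mul, inv_pow, Real.sq_sqrt (by positivity)]
    _ = ENNReal.ofReal (((2:ℝ) ^ (b + 1) * ((b + 1) ! : ℝ))⁻¹) := by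
        rw [beta_integral, ← ENNReal.ofReal_mul (by positivity)]
        congr 1
        rw [Nat.factorial_succ]
        push_cast
        have h1 : ((b:ℝ) + 1) ≠ 0 := by positivity
        have h2 : (b ! : ℝ) ≠ 0 := by positivity
        field_simp

end Vale.Agent.Lib.P309
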