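import Vale.Agent.Lib.P309.NuB

open MeasureTheory ProbabilityTheory Real Set Filter Topology
open scoped ENNReal Nat RealInnerProductSpace

namespace Vale.Agent.Lib.P309

variable {d : ℕ} {𝓐 : Type*} [Fintype 𝓐] {t : ℕ}

/-- An atypical set of rows for vectors in the unit ball. -/
lemma atyp_bound_le [NeZero d] {v : Rd d} (hv : ‖v‖ ≤ 1) :
    (Measure.pi fun _ : Fin t => stdGaussian (Rd d)) {X | ¬ sq (labels X v) ≤ 4 * t}
      ≤ ENNReal.ofReal (exp (-t) * (√2) ^ t) := by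
  have hd0 : 0 < Module.finrank ℝ (Rd d) := by
    simpa using Nat.pos_of_ne_zero (NeZero.ne d)
  obtain ⟨u, hu, hvu, huc⟩ : ∃ u : Rd d, ‖u‖ = 1 ∧ v = ‖v‖ • u ∧ True := by
    by_cases h0 : v = 0
    · obtain ⟨u, hu⟩ := exists_norm_eq (E := Rd d) (c := 1) zero_le_one
      exact ⟨u, hu, by simp [h0], trivial⟩
    · refine ⟨‖v‖⁻¹ • v, ?_, ?_, trivial⟩
      · rw [norm_smul, norm_inv, norm_norm, inv_mul_cancel₀ (norm_ne_zero_iff.2 h0)]
      · rw [smul_smul, mul_inv_cancel₀ (norm_ne_zero_iff.2 h0), one_smul]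
  refine le_trans (measure_mono ?_) (atyp_bound hu hd0)
  intro X hX h2
  apply hX
  have h3 : sq (labels X v) ≤ sq (labels X u) := by
    unfold sq labels
    refine Finset.sum_le_sum fun i _ => ?_
    rw [hvu, inner_smul_right, mul_pow]
    have h4 : ‖v‖ ^ 2 ≤ 1 := pow_le_one₀ (norm_nonneg _) hv
    have h5 := sq_nonneg ⟪X i, u⟫
    simpa [hvu.symm] using mul_le_of_le_one_left h5 h4
  linarith

variable (Φ : 𝓐 → (Fin t → Rd d) → (Fin t → ℝ) → ℝ≥0∞)

/-- The test function of the typical labels, at a ball. -/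
noncomputable def psiT (c : Rd d) (r : ℝ) (a' : 𝓐) (X : Fin t → Rd d) (y : Fin t → ℝ) : ℝ≥0∞ :=
  Φ a' X (labels X c + r • y) * (typ t).indicator 1 y

/-- The typical part of the kernel, in rescaled coordinates. -/
noncomputable def Kt (c : Rd d) (r : ℝ) (a' : 𝓐) (v : Rd d) : ℝ≥0∞ :=
  ∫⁻ X, psiT Φ c r a' X (labels X v) ∂(Measure.pi fun _ : Fin t => stdGaussian (Rd d))

/-- The atypical part of the kernel, in rescaled coordinates. -/
noncomputable def Ka (c : Rd d) (r : ℝ) (a' : 𝓐) (v : Rd d) : ℝ≥0∞ :=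
  ∫⁻ X, Φ a' X (labels X c + r • labels X v) * (typ t)ᶜ.indicator 1 (labels X v)
    ∂(Measure.pi fun _ : Fin t => stdGaussian (Rd d))

/-- The kernel at a signal. -/
noncomputable def Kf (a' : 𝓐) (s : Rd d) : ℝ≥0∞ :=
  ∫⁻ X, Φ a' X (labels X s) ∂(Measure.pi fun _ : Fin t => stdGaussian (Rd d))

variable {Φ}

lemma measurable_labelsX (v : Rd d) : Measurable (fun X : Fin t → Rd d => labels X v) :=
  measurable_pi_lambda _ fun i => (measurable_pi_apply i).inner measurable_const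

lemma measurable_shift (c : Rd d) (r : ℝ) :
    Measurable (fun p : (Fin t → Rd d) × (Fin t → ℝ) => labels p.1 c + r • p.2) := by
  refine Measurable.add ((measurable_labelsX c).comp measurable_fst) ?_
  fun_prop

lemma measurable_psiT (hΦ : ∀ a', Measurable (Function.uncurry (Φ a'))) (c : Rd d) (r : ℝ) (a' : 𝓐) :
    Measurable (Function.uncurry (psiT Φ c r a')) := by
  refine Measurable.mul ?_ ?_
  · exact (hΦ a').comp (measurable_fst.prodMk (measurable_shift c r))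
  · exact (measurable_one.indicator (measurableSet_typ t)).comp measurable_snd

lemma Φ_le_one [DecidableEq 𝓐] (hΦ1 : ∀ X y, ∑ a', Φ a' X y = 1) (a' : 𝓐) (X : Fin t → Rd d) (y : Fin t → ℝ) :
    Φ a' X y ≤ 1 := by
  rw [← hΦ1 X y]
  exact Finset.single_le_sum (f := fun a' => Φ a' X y) (fun _ _ => bot_le) (Finset.mem_univ a')

lemma psiT_le_one [DecidableEq 𝓐] (hΦ1 : ∀ X y, ∑ a', Φ a' X y = 1) (c : Rd d) (r : ℝ) (a' : 𝓐)
    (X : Fin t → Rd d) (y : Fin t → ℝ) : psiT Φ c r a' X y ≤ 1 := by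
  unfold psiT
  refine mul_le_one' (Φ_le_one hΦ1 a' X _) ?_
  by_cases hy : y ∈ typ t
  · rw [Set.indicator_of_mem hy]
    exact le_rfl
  · rw [Set.indicator_of_notMem hy]
    exact zero_le_one

lemma measurable_psiT_lab (hΦ : ∀ a', Measurable (Function.uncurry (Φ a'))) (c : Rd d) (r : ℝ) (a' : 𝓐)
    (v : Rd d) : Measurable (fun X : Fin t → Rd d => psiT Φ c r a' X (labels X v)) :=
  (measurable_psiT hΦ c r a').comp (measurable_id.prodMk (measurable_labelsX v))

lemma measurable_labels_joint :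
    Measurable (fun p : Rd d × (Fin t → Rd d) => labels p.2 p.1) :=
  measurable_labels2

lemma measurable_Kt (hΦ : ∀ a', Measurable (Function.uncurry (Φ a'))) (c : Rd d) (r : ℝ) (a' : 𝓐) :
    Measurable (Kt Φ c r a') := by
  unfold Kt
  have h1 : Measurable (fun p : Rd d × (Fin t → Rd d) => psiT Φ c r a' p.2 (labels p.2 p.1)) :=
    (measurable_psiT hΦ c r a').comp (measurable_snd.prodMk measurable_labels2)
  exact h1.lintegral_prod_right'

lemma measurable_Ka (hΦ : ∀ a', Measurable (Function.uncurry (Φ a'))) (c : Rd d) (r : ℝ) (a' : 𝓐) :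
    Measurable (Ka Φ c r a') := by
  unfold Ka
  have h0 : Measurable (fun p : Rd d × (Fin t → Rd d) => (p.2, labels p.2 p.1)) :=
    measurable_snd.prodMk measurable_labels2
  have h1 : Measurable (fun p : Rd d × (Fin t → Rd d) =>
      Φ a' p.2 (labels p.2 c + r • labels p.2 p.1) * (typ t)ᶜ.indicator 1 (labels p.2 p.1)) := by
    refine Measurable.mul ?_ ?_
    · exact (hΦ a').comp (measurable_fst.prodMk (measurable_shift c r)) |>.comp h0
    · exact (measurable_one.indicator (measurableSet_typ t).compl).comp measurable_labels2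
  exact h1.lintegral_prod_right'

lemma measurable_Kf (hΦ : ∀ a', Measurable (Function.uncurry (Φ a'))) (a' : 𝓐) :
    Measurable (Kf Φ a') := by
  unfold Kf
  have h1 : Measurable (fun p : Rd d × (Fin t → Rd d) => Φ a' p.2 (labels p.2 p.1)) :=
    (hΦ a').comp (measurable_snd.prodMk measurable_labels2)
  exact h1.lintegral_prod_right'

lemma labels_add_smul (X : Fin t → Rd d) (c v : Rd d) (r : ℝ) :
    labels X (c + r • v) = labels X c + r • labels X v := by
  funext i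
  simp only [labels, inner_add_right, inner_smul_right, Pi.add_apply, Pi.smul_apply, smul_eq_mul]

lemma measurable_Ka_integrand (hΦ : ∀ a', Measurable (Function.uncurry (Φ a'))) (c : Rd d) (r : ℝ) (a' : 𝓐)
    (v : Rd d) : Measurable (fun X : Fin t → Rd d =>
      Φ a' X (labels X c + r • labels X v) * (typ t)ᶜ.indicator 1 (labels X v)) := by
  have h0 : Measurable (fun X : Fin t → Rd d => (X, labels X v)) :=
    measurable_id.prodMk (measurable_labelsX v)
  refine Measurable.mul ?_ ?_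
  · exact ((hΦ a').comp (measurable_fst.prodMk (measurable_shift c r))).comp h0
  · exact (measurable_one.indicator (measurableSet_typ t).compl).comp (measurable_labelsX v)

lemma Kf_eq (hΦ : ∀ a', Measurable (Function.uncurry (Φ a'))) (c : Rd d) (r : ℝ) (a' : 𝓐) (v : Rd d) :
    Kf Φ a' (c + r • v) = Kt Φ c r a' v + Ka Φ c r a' v := by
  unfold Kf Kt Ka
  rw [← lintegral_add_left (measurable_psiT_lab hΦ c r a' v)]
  refine lintegral_congr fun X => ?_
  rw [labels_add_smul]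
  unfold psiT
  by_cases hX : labels X v ∈ typ t
  · simp [hX]
  · simp [hX]

lemma sum_Kf (hΦ : ∀ a', Measurable (Function.uncurry (Φ a'))) (hΦ1 : ∀ X y, ∑ a', Φ a' X y = 1)
    (s : Rd d) : ∑ a', Kf Φ a' s = 1 := by
  unfold Kf
  have hm : ∀ a', Measurable (fun X : Fin t → Rd d => Φ a' X (labels X s)) := fun a' =>
    (hΦ a').comp (measurable_id.prodMk (measurable_labelsX s))
  rw [← lintegral_finsetSum _ fun a' _ => hm a']
  simp_rw [hΦ1]
  simp

lemma sum_Ka_le [NeZero d] (hΦ : ∀ a', Measurable (Function.uncurry (Φ a')))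
    (hΦ1 : ∀ X y, ∑ a', Φ a' X y = 1) (c : Rd d) (r : ℝ) {v : Rd d} (hv : ‖v‖ ≤ 1) :
    ∑ a', Ka Φ c r a' v ≤ ENNReal.ofReal (exp (-t) * (√2) ^ t) := by
  unfold Ka
  rw [← lintegral_finsetSum _ fun a' _ => measurable_Ka_integrand hΦ c r a' v]
  simp_rw [← Finset.sum_mul, hΦ1, one_mul]
  refine le_trans (le_of_eq ?_) (atyp_bound_le hv)
  have hset : MeasurableSet {X : Fin t → Rd d | ¬ sq (labels X v) ≤ 4 * t} :=
    (measurableSet_le (measurable_sq.comp (measurable_labelsX v)) measurable_const).compl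
  rw [← lintegral_indicator_one hset]
  refine lintegral_congr fun X => ?_
  by_cases hX : sq (labels X v) ≤ 4 * t
  · have h2 : labels X v ∉ (typ t)ᶜ := by
      simpa [typ] using hX
    have h3 : X ∉ {X : Fin t → Rd d | ¬ sq (labels X v) ≤ 4 * t} := by
      simpa using hX
    rw [Set.indicator_of_notMem h2, Set.indicator_of_notMem h3]
  · have h2 : labels X v ∈ (typ t)ᶜ := by
      simpa [typ] using hX
    have h3 : X ∈ {X : Fin t → Rd d | ¬ sq (labels X v) ≤ 4 * t} := by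
      simpa using hX
    rw [Set.indicator_of_mem h2, Set.indicator_of_mem h3]
    rfl

lemma sum_Kt_le (hΦ : ∀ a', Measurable (Function.uncurry (Φ a'))) (hΦ1 : ∀ X y, ∑ a', Φ a' X y = 1)
    (c : Rd d) (r : ℝ) (v : Rd d) : ∑ a', Kt Φ c r a' v ≤ 1 := by
  have h1 : ∑ a', Kt Φ c r a' v ≤ ∑ a', Kf Φ a' (c + r • v) :=
    Finset.sum_le_sum fun a' _ => by
      rw [Kf_eq hΦ]
      exact le_self_add
  rwa [sum_Kf hΦ hΦ1] at h1

/-- The mass of a test function. -/
noncomputable def phiT (Φ : 𝓐 → (Fin t → Rd d) → (Fin t → ℝ) → ℝ≥0∞) (c : Rd d) (r : ℝ) (a' : 𝓐)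
    (X : Fin t → Rd d) : ℝ≥0∞ := ∫⁻ y, psiT Φ c r a' X y

lemma measurable_phiT (hΦ : ∀ a', Measurable (Function.uncurry (Φ a'))) (c : Rd d) (r : ℝ) (a' : 𝓐) :
    Measurable (phiT Φ c r a') :=
  (measurable_psiT hΦ c r a').lintegral_prod_right'

lemma sum_phiT_le (hΦ : ∀ a', Measurable (Function.uncurry (Φ a')))
    (hΦ1 : ∀ X y, ∑ a', Φ a' X y = 1) (c : Rd d) (r : ℝ) (X : Fin t → Rd d) :
    ∑ a', phiT Φ c r a' X ≤ ENNReal.ofReal (Vt t) := by
  unfold phiT
  rw [← lintegral_finsetSum _ fun a' _ => (measurable_psiT hΦ c r a').of_uncurry_left]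
  have h1 : ∀ y, ∑ a', psiT Φ c r a' X y = (typ t).indicator 1 y := by
    intro y
    unfold psiT
    rw [← Finset.sum_mul, hΦ1, one_mul]
  simp_rw [h1]
  rw [lintegral_indicator_one (measurableSet_typ t)]
  exact vol_typ t

/-- The constant of the smoothing bound. -/
noncomputable def CGL (K : ℝ≥0∞) (a p : ℕ) : ℝ≥0∞ :=
  ((1 + K * ENNReal.ofReal (2 ^ (2 * a))) ^ p) ^ (1 / ((p + 1 : ℕ) : ℝ))

/-- The exponent of the smoothing bound. -/
noncomputable def alp (p : ℕ) : ℝ := 2 / ((p + 1 : ℕ) : ℝ)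

lemma alp_pos (p : ℕ) : 0 < alp p := by
  unfold alp
  positivity

lemma alp_lt_one {p : ℕ} (hp : 1 < p) : alp p < 1 := by
  unfold alp
  have h : (1:ℝ) < p := by exact_mod_cast hp
  rw [div_lt_one (by positivity)]
  push_cast
  linarith

/-- The `L²` estimate for the typical part of the kernel. -/
theorem Kt_L2 [DecidableEq 𝓐] (hΦ : ∀ a', Measurable (Function.uncurry (Φ a')))
    (hΦ1 : ∀ X y, ∑ a', Φ a' X y = 1) (c : Rd d) (r : ℝ)
    {ν : Measure (Rd d)} [IsProbabilityMeasure ν] {K : ℝ≥0∞} {a : ℕ}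
    (hν : ∀ x ρ, 0 < ρ → ν (Metric.closedBall x ρ) ≤ K * ENNReal.ofReal (ρ ^ a))
    (hsupp : ∀ᵐ v ∂ν, ‖v‖ ≤ 1) {p n : ℕ} (hp : 1 < p) (hd : d = p + n) (hka : 2 * t + p ≤ a)
    (hac : ∀ᵐ Y ∂(Measure.pi fun _ : Fin (2 * t) => stdGaussian (Rd d)), ν.map (labels Y) ≪ volume) :
    ∃ h : 𝓐 → ℝ≥0∞, ∑ a', h a' ≤ 1 ∧ ∀ a', ∫⁻ v, (Kt Φ c r a' v) ^ 2 ∂ν
      ≤ (CGL K a p * ENNReal.ofReal (Vt t) ^ (2 - alp p)) * h a' ^ (1 + (1 - alp p)) := by
  have hfr : Module.finrank ℝ (Rd d) = p + n := by simpa using hd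
  have hV0 : ENNReal.ofReal (Vt t) ≠ 0 := by simpa using Vt_pos t
  have hVT : ENNReal.ofReal (Vt t) ≠ ∞ := ENNReal.ofReal_ne_top
  refine ⟨fun a' => (∫⁻ X, phiT Φ c r a' X ∂(Measure.pi fun _ : Fin t => stdGaussian (Rd d))) /
    ENNReal.ofReal (Vt t), ?_, fun a' => ?_⟩
  · simp_rw [div_eq_mul_inv]
    rw [← Finset.sum_mul, ← lintegral_finsetSum _ fun a' _ => measurable_phiT hΦ c r a']
    have h2 : ∫⁻ X, ∑ a', phiT Φ c r a' X ∂(Measure.pi fun _ : Fin t => stdGaussian (Rd d))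
        ≤ ENNReal.ofReal (Vt t) := by
      calc ∫⁻ X, ∑ a', phiT Φ c r a' X ∂(Measure.pi fun _ : Fin t => stdGaussian (Rd d))
          ≤ ∫⁻ _, ENNReal.ofReal (Vt t) ∂(Measure.pi fun _ : Fin t => stdGaussian (Rd d)) :=
            lintegral_mono (sum_phiT_le hΦ hΦ1 c r)
        _ = _ := by simp
    calc _ ≤ ENNReal.ofReal (Vt t) * (ENNReal.ofReal (Vt t))⁻¹ := by gcongr
      _ = 1 := ENNReal.mul_inv_cancel hV0 hVT
  · have h1 := gl_smoothing hν hsupp (by omega : 0 < p) hfr hka (measurable_psiT hΦ c r a')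
      (psiT_le_one hΦ1 c r a') hac
    unfold Kt
    refine h1.trans (le_of_eq ?_)
    have e0 : (2 : ℝ) - 2 / ((p + 1 : ℕ) : ℝ) = 2 - alp p := rfl
    have e1 : 1 + (1 - alp p) = 2 - alp p := by ring
    have hexp : 0 ≤ 2 - alp p := by
      have := alp_lt_one hp
      linarith
    rw [e0, e1]
    change CGL K a p * (∫⁻ X, phiT Φ c r a' X ∂(Measure.pi fun _ : Fin t => stdGaussian (Rd d))) ^ (2 - alp p) =
      (CGL K a p * ENNReal.ofReal (Vt t) ^ (2 - alp p)) *
        ((∫⁻ X, phiT Φ c r a' X ∂(Measure.pi fun _ : Fin t => stdGaussian (Rd d))) / ENNReal.ofReal (Vt t)) ^ (2 - alp p)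
    generalize (∫⁻ X, phiT Φ c r a' X ∂(Measure.pi fun _ : Fin t => stdGaussian (Rd d))) = I
    have h4 : I = (I / ENNReal.ofReal (Vt t)) * ENNReal.ofReal (Vt t) :=
      (ENNReal.div_mul_cancel hV0 hVT).symm
    generalize I / ENNReal.ofReal (Vt t) = B at h4 ⊢
    subst h4
    rw [ENNReal.mul_rpow_of_nonneg _ _ hexp]
    ring

end Vale.Agent.Lib.P309
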