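import Vale.Agent.Lib.P309.NodeKer

open MeasureTheory ProbabilityTheory Real Set Filter Topology
open scoped ENNReal Nat RealInnerProductSpace

namespace Vale.Agent.Lib.P309

variable {d : ℕ}

lemma Good.mono {a : ℕ} {Q Q' : ℝ≥0∞} {G : Sph d → ℝ≥0∞} (h : Good a Q G) (hQ : Q ≤ Q') :
    Good a Q' G := by
  obtain ⟨c, r, g, hn⟩ := h
  exact ⟨c, r, g, hn.meas, hn.r_pos, hn.r_le, hn.supp, hn.bound, hn.g_ne, hn.mass_ne, hn.frost,
    hn.ratio.trans (by gcongr)⟩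

lemma SumGood.mono {a : ℕ} {Q Q' : ℝ≥0∞} {S : Sph d → ℝ≥0∞} (h : SumGood a Q S) (hQ : Q ≤ Q') :
    SumGood a Q' S := by
  induction h with
  | zero => exact SumGood.zero
  | add hG _ ih => exact SumGood.add (hG.mono hQ) ih

section child

variable {t₂ n₂ a : ℕ} {Q : ℝ≥0∞} {G : Sph d → ℝ≥0∞} {c : Rd d} {r : ℝ} {g : ℝ≥0∞}

/-- The next generation of a node, for one new state. -/
lemma child_step (ht₂ : 0 < t₂) (hd : d = 2 * t₂ + n₂) (hn2 : 2 ≤ n₂) (hn3 : n₂ ≤ 3)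
    (ha : a < 2 * t₂) (hn : IsNode a Q G c r g) {T : Sph d → ℝ≥0∞} (hT : Measurable T)
    {τ h δ : ℝ≥0∞} (hτT : τ ≠ ∞) (hhT : h ≠ ∞) (hδ0 : δ ≠ 0) (hδT : δ ≠ ∞)
    (hTb : ∀ s, T s ≤ τ * h) :
    ∃ S E₁ : Sph d → ℝ≥0∞, (∀ s, G s * T s = S s + E₁ s) ∧
      SumGood a ((2 / δ) * ((τ / δ) * Q)) S ∧ Measurable E₁ ∧
      ∫⁻ s, E₁ s ∂(unifSphere d) ≤ δ * ∫⁻ s, G s * T s ∂(unifSphere d) +
        δ * h * ∫⁻ s, G s ∂(unifSphere d) := by
  have hGT : Measurable (fun s => G s * T s) := hn.meas.mul hT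
  set M := ∫⁻ s, G s ∂(unifSphere d) with hM
  set M' := ∫⁻ s, G s * T s ∂(unifSphere d) with hM'
  by_cases hcase : M' ≠ 0 ∧ δ * h * M ≤ M'
  · obtain ⟨hM'0, hM'le⟩ := hcase
    have hsupp' : ∀ s, s ∉ ballS c r → G s * T s = 0 := fun s hs => by
      rw [hn.supp s hs, zero_mul]
    have hb' : ∀ s, G s * T s ≤ g * (τ * h) := fun s => mul_le_mul' (hn.bound s) (hTb s)
    have hgT' : g * (τ * h) ≠ ∞ := ENNReal.mul_ne_top hn.g_ne (ENNReal.mul_ne_top hτT hhT)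
    obtain ⟨S, E, h1, h2, h3, h4⟩ := decomp ht₂ hd hn2 hn3 ha hn.r_pos hn.r_le hGT hsupp' hb' hgT'
      hδ0 hδT hM'0
    refine ⟨S, E, h1, h2.mono ?_, h3, h4.trans le_self_add⟩
    gcongr
    refine ENNReal.div_le_of_le_mul ?_
    have h5 : (τ / δ) * Q * (δ * h * M) = τ * h * (Q * M) := by
      calc (τ / δ) * Q * (δ * h * M) = ((τ / δ) * δ) * h * (Q * M) := by ring
        _ = _ := by rw [ENNReal.div_mul_cancel hδ0 hδT]
    calc g * (τ * h) * ENNReal.ofReal (r ^ a) = τ * h * (g * ENNReal.ofReal (r ^ a)) := by ring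
      _ ≤ τ * h * (Q * M) := mul_le_mul' le_rfl hn.ratio
      _ = (τ / δ) * Q * (δ * h * M) := h5.symm
      _ ≤ (τ / δ) * Q * M' := by gcongr
  · refine ⟨0, fun s => G s * T s, fun s => by simp, SumGood.zero, hGT, ?_⟩
    refine le_trans ?_ le_add_self
    by_cases h0 : M' = 0
    · rw [← hM', h0]
      exact bot_le
    · push Not at hcase
      exact (hcase h0).le

end child

section step

variable {𝓐 : Type*} [Fintype 𝓐] [DecidableEq 𝓐] {t a p : ℕ}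
  {Φ : 𝓐 → (Fin t → Rd d) → (Fin t → ℝ) → ℝ≥0∞}

/-- The mass of the large part of the kernels is small. -/
lemma tail_sum {ν : Measure (Rd d)} (hΦ : ∀ a', Measurable (Function.uncurry (Φ a'))) (c : Rd d)
    (r : ℝ) (hp : 1 < p) {h : 𝓐 → ℝ≥0∞} (hh : ∑ a', h a' ≤ 1) {D τ δ : ℝ≥0∞} (hτ0 : τ ≠ 0)
    (hτT : τ ≠ ∞)
    (hL2 : ∀ a', ∫⁻ v, (Kt Φ c r a' v) ^ 2 ∂ν ≤ D * h a' ^ (1 + (1 - alp p)))
    (hD : D * (Fintype.card 𝓐 : ℝ≥0∞) ^ alp p ≤ δ * τ) :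
    ∑ a', ∫⁻ v in {v | τ * h a' < Kt Φ c r a' v}, Kt Φ c r a' v ∂ν ≤ δ := by
  have hα1 := alp_lt_one hp
  have hα0 := alp_pos p
  have hβ0 : 0 < 1 - alp p := by linarith
  have hβ1 : 1 - alp p < 1 := by linarith
  have hhT : ∀ a', h a' ≠ ∞ := fun a' => by
    refine ne_top_of_le_ne_top (ENNReal.one_ne_top) ?_
    exact (Finset.single_le_sum (f := h) (fun _ _ => bot_le) (Finset.mem_univ a')).trans hh
  have h1 : ∀ a', τ * ∫⁻ v in {v | τ * h a' < Kt Φ c r a' v}, Kt Φ c r a' v ∂ν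
      ≤ D * h a' ^ (1 - alp p) := fun a' =>
    cheb_piece (measurable_Kt hΦ c r a') (hhT a') hβ0.le (hL2 a')
  have h2 : τ * ∑ a', ∫⁻ v in {v | τ * h a' < Kt Φ c r a' v}, Kt Φ c r a' v ∂ν ≤ τ * δ := by
    rw [Finset.mul_sum]
    calc ∑ a', τ * ∫⁻ v in {v | τ * h a' < Kt Φ c r a' v}, Kt Φ c r a' v ∂ν
        ≤ ∑ a', D * h a' ^ (1 - alp p) := Finset.sum_le_sum fun a' _ => h1 a'
      _ = D * ∑ a', h a' ^ (1 - alp p) := by rw [Finset.mul_sum]
      _ ≤ D * (Fintype.card 𝓐 : ℝ≥0∞) ^ (1 - (1 - alp p)) := by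
          gcongr
          exact sum_rpow_le hh hβ0 hβ1
      _ = D * (Fintype.card 𝓐 : ℝ≥0∞) ^ alp p := by rw [sub_sub_cancel]
      _ ≤ δ * τ := hD
      _ = τ * δ := mul_comm _ _
  exact (ENNReal.mul_le_mul_iff_right hτ0 hτT).1 h2

variable {t₂ n₂ n n' : ℕ} {Q : ℝ≥0∞} {G : Sph d → ℝ≥0∞} {c : Rd d} {r : ℝ} {g : ℝ≥0∞}

/-- **The step at a node.** -/
theorem node_step [NeZero d] (ht₂ : 0 < t₂) (hd₂ : d = 2 * t₂ + n₂) (hn2 : 2 ≤ n₂) (hn3 : n₂ ≤ 3)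
    (ha : a < 2 * t₂) (ht : 0 < t) (hd' : d = 2 * t + n') (hn' : 2 * t + 1 ≤ n') (hp : 1 < p)
    (hd : d = p + n) (hka : 2 * t + p ≤ a)
    (hΦ : ∀ a', Measurable (Function.uncurry (Φ a'))) (hΦ1 : ∀ X y, ∑ a', Φ a' X y = 1)
    (hn₀ : IsNode a Q G c r g) {τ δ : ℝ≥0∞} (hτ0 : τ ≠ 0) (hτT : τ ≠ ∞) (hδ0 : δ ≠ 0) (hδT : δ ≠ ∞)
    (hτ : (CGL 2 a p * ENNReal.ofReal (Vt t) ^ (2 - alp p)) * (Fintype.card 𝓐 : ℝ≥0∞) ^ alp p ≤ δ * τ) :
    ∃ S E : 𝓐 → Sph d → ℝ≥0∞, (∀ (a' : 𝓐) (s : Sph d), G s * Kf Φ a' (s : Rd d) = S a' s + E a' s) ∧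
      (∀ a', SumGood a ((2 / δ) * ((τ / δ) * Q)) (S a')) ∧ (∀ a', Measurable (E a')) ∧
      ∑ a', ∫⁻ s, E a' s ∂(unifSphere d)
        ≤ (ENNReal.ofReal (exp (-t) * (√2) ^ t) + 3 * δ) * ∫⁻ s, G s ∂(unifSphere d) := by
  classical
  have hd0 : 0 < d := Nat.pos_of_ne_zero (NeZero.ne d)
  have hpr := unifSphere_prob hd0
  have hMT := hn₀.mass_ne_top hd0
  have hM0 := hn₀.mass_ne
  have hGm := hn₀.meas
  set M := ∫⁻ s, G s ∂(unifSphere d) with hM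
  have hνp : IsProbabilityMeasure (nuB G c r) := nuB_prob hGm c r hM0 hMT
  obtain ⟨h, hh, hL2⟩ := Kt_L2 (ν := nuB G c r) (a := a) (K := 2) hΦ hΦ1 c r
    (fun x ρ hρ => hn₀.ball_le hd0 x ρ hρ) hn₀.ae_norm_le hp hd hka (hn₀.ae_ac ht hd' hn')
  have hhT : ∀ a', h a' ≠ ∞ := fun a' => by
    refine ne_top_of_le_ne_top (ENNReal.one_ne_top) ?_
    exact (Finset.single_le_sum (f := h) (fun _ _ => bot_le) (Finset.mem_univ a')).trans hh
  have htail := tail_sum hΦ c r hp hh hτ0 hτT hL2 hτ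
  have hKt := fun a' => measurable_Kt hΦ c r a'
  have hKa := fun a' => measurable_Ka hΦ c r a'
  have hrs := measurable_rsc c r
  -- the sets
  let U : 𝓐 → Set (Rd d) := fun a' => {v | τ * h a' < Kt Φ c r a' v}
  have hU : ∀ a', MeasurableSet (U a') := fun a' => measurableSet_lt measurable_const (hKt a')
  let T : 𝓐 → Sph d → ℝ≥0∞ := fun a' s => (U a')ᶜ.indicator (Kt Φ c r a') (rsc c r s)
  let R : 𝓐 → Sph d → ℝ≥0∞ := fun a' s => (U a').indicator (Kt Φ c r a') (rsc c r s)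
  have hTm : ∀ a', Measurable (T a') := fun a' => ((hKt a').indicator (hU a').compl).comp hrs
  have hRm : ∀ a', Measurable (R a') := fun a' => ((hKt a').indicator (hU a')).comp hrs
  have hTb : ∀ a' s, T a' s ≤ τ * h a' := by
    intro a' s
    by_cases hs : rsc c r s ∈ U a'
    · simp only [T]
      rw [Set.indicator_of_notMem (by simpa using hs)]
      exact bot_le
    · simp only [T]
      rw [Set.indicator_of_mem (by simpa using hs)]
      simpa [U] using hs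
  have hsplit : ∀ (a' : 𝓐) (s : Sph d), Kf Φ a' (s : Rd d) = T a' s + R a' s + Ka Φ c r a' (rsc c r s) := by
    intro a' s
    have e1 : Kf Φ a' (s : Rd d) = Kt Φ c r a' (rsc c r s) + Ka Φ c r a' (rsc c r s) := by
      rw [← Kf_eq hΦ, add_smul_rsc c hn₀.r_pos]
    rw [e1]
    congr 1
    by_cases hs : rsc c r s ∈ U a'
    · simp only [T, R]
      rw [Set.indicator_of_notMem (by simpa using hs), Set.indicator_of_mem hs, zero_add]
    · simp only [T, R]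
      rw [Set.indicator_of_mem (by simpa using hs), Set.indicator_of_notMem hs, add_zero]
  have hchild := fun a' => child_step ht₂ hd₂ hn2 hn3 ha hn₀ (hTm a') hτT (hhT a') hδ0 hδT (hTb a')
  choose S E₁ hSE hSg hE₁m hE₁ using hchild
  refine ⟨S, fun a' s => E₁ a' s + G s * R a' s + G s * Ka Φ c r a' (rsc c r s), ?_, hSg, ?_, ?_⟩
  · intro a' s
    rw [hsplit, mul_add, mul_add, hSE]
    ring
  · intro a'
    exact ((hE₁m a').add (hGm.mul (hRm a'))).add (hGm.mul ((hKa a').comp hrs))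
  -- the bound on the error
  have hGR : ∀ a', Measurable (fun s => G s * R a' s) := fun a' => hGm.mul (hRm a')
  have hGA : ∀ a', Measurable (fun s => G s * Ka Φ c r a' (rsc c r s)) := fun a' =>
    hGm.mul ((hKa a').comp hrs)
  have hGT : ∀ a', Measurable (fun s => G s * T a' s) := fun a' => hGm.mul (hTm a')
  have hint : ∀ a', ∫⁻ s, (E₁ a' s + G s * R a' s + G s * Ka Φ c r a' (rsc c r s)) ∂(unifSphere d)
      = ∫⁻ s, E₁ a' s ∂(unifSphere d) + ∫⁻ s, G s * R a' s ∂(unifSphere d) +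
        ∫⁻ s, G s * Ka Φ c r a' (rsc c r s) ∂(unifSphere d) := by
    intro a'
    rw [lintegral_add_right _ (hGA a'), lintegral_add_right _ (hGR a')]
  simp_rw [hint]
  rw [Finset.sum_add_distrib, Finset.sum_add_distrib]
  -- the tail
  have hR : ∑ a', ∫⁻ s, G s * R a' s ∂(unifSphere d) ≤ δ * M := by
    have h1 : ∀ a', ∫⁻ s, G s * R a' s ∂(unifSphere d)
        = M * ∫⁻ v in U a', Kt Φ c r a' v ∂(nuB G c r) := by
      intro a'
      rw [← lintegral_indicator (hU a'), lintegral_nuB hGm c r ((hKt a').indicator (hU a')),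
        ← mul_assoc, ENNReal.mul_inv_cancel hM0 hMT, one_mul]
    simp_rw [h1]
    rw [← Finset.mul_sum, mul_comm]
    gcongr
  -- the atypical part
  have hA : ∑ a', ∫⁻ s, G s * Ka Φ c r a' (rsc c r s) ∂(unifSphere d)
      ≤ ENNReal.ofReal (exp (-t) * (√2) ^ t) * M := by
    rw [← lintegral_finsetSum _ fun a' _ => hGA a']
    simp_rw [← Finset.mul_sum]
    rw [hM, ← lintegral_const_mul _ hGm]
    refine lintegral_mono fun s => ?_
    by_cases hs : s ∈ ballS c r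
    · rw [mul_comm]
      gcongr
      refine sum_Ka_le hΦ hΦ1 c r ?_
      unfold rsc
      have hs2 : ‖(s : Rd d) - c‖ ≤ r := hs
      rw [norm_smul, norm_inv, Real.norm_eq_abs, abs_of_pos hn₀.r_pos, inv_mul_le_iff₀ hn₀.r_pos,
        mul_one]
      exact hs2
    · rw [hn₀.supp s hs]
      simp
  -- the remainder
  have hE : ∑ a', ∫⁻ s, E₁ a' s ∂(unifSphere d) ≤ δ * M + δ * M := by
    refine (Finset.sum_le_sum fun a' _ => hE₁ a').trans ?_
    rw [Finset.sum_add_distrib]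
    refine add_le_add ?_ ?_
    · rw [← Finset.mul_sum]
      gcongr
      rw [← lintegral_finsetSum _ fun a' _ => hGT a']
      rw [hM]
      refine lintegral_mono fun s => ?_
      rw [← Finset.mul_sum]
      have h1 : ∑ a', T a' s ≤ 1 := by
        rw [← sum_Kf hΦ hΦ1 (s : Rd d)]
        refine Finset.sum_le_sum fun a' _ => ?_
        rw [hsplit a' s, add_assoc]
        exact le_self_add
      calc G s * ∑ a', T a' s ≤ G s * 1 := by gcongr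
        _ = G s := mul_one _
    · calc ∑ a', δ * h a' * M = δ * (∑ a', h a') * M := by
            rw [Finset.mul_sum, Finset.sum_mul]
        _ ≤ δ * 1 * M := by gcongr
        _ = δ * M := by rw [mul_one]
  calc ∑ a', ∫⁻ s, E₁ a' s ∂(unifSphere d) + ∑ a', ∫⁻ s, G s * R a' s ∂(unifSphere d) +
        ∑ a', ∫⁻ s, G s * Ka Φ c r a' (rsc c r s) ∂(unifSphere d)
      ≤ (δ * M + δ * M) + δ * M + ENNReal.ofReal (exp (-t) * (√2) ^ t) * M := by gcongr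
    _ = _ := by ring

/-- **The step for a finite sum of nodes.** -/
theorem sum_step [NeZero d] (ht₂ : 0 < t₂) (hd₂ : d = 2 * t₂ + n₂) (hn2 : 2 ≤ n₂) (hn3 : n₂ ≤ 3)
    (ha : a < 2 * t₂) (ht : 0 < t) (hd' : d = 2 * t + n') (hn' : 2 * t + 1 ≤ n') (hp : 1 < p)
    (hd : d = p + n) (hka : 2 * t + p ≤ a)
    (hΦ : ∀ a', Measurable (Function.uncurry (Φ a'))) (hΦ1 : ∀ X y, ∑ a', Φ a' X y = 1)
    {S₀ : Sph d → ℝ≥0∞} (hS₀ : SumGood a Q S₀) {τ δ : ℝ≥0∞} (hτ0 : τ ≠ 0) (hτT : τ ≠ ∞)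
    (hδ0 : δ ≠ 0) (hδT : δ ≠ ∞)
    (hτ : (CGL 2 a p * ENNReal.ofReal (Vt t) ^ (2 - alp p)) * (Fintype.card 𝓐 : ℝ≥0∞) ^ alp p ≤ δ * τ) :
    ∃ S E : 𝓐 → Sph d → ℝ≥0∞, (∀ (a' : 𝓐) (s : Sph d), S₀ s * Kf Φ a' (s : Rd d) = S a' s + E a' s) ∧
      (∀ a', SumGood a ((2 / δ) * ((τ / δ) * Q)) (S a')) ∧ (∀ a', Measurable (E a')) ∧
      ∑ a', ∫⁻ s, E a' s ∂(unifSphere d)
        ≤ (ENNReal.ofReal (exp (-t) * (√2) ^ t) + 3 * δ) * ∫⁻ s, S₀ s ∂(unifSphere d) := by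
  induction hS₀ with
  | zero =>
      refine ⟨0, 0, fun a' s => by simp, fun a' => SumGood.zero, fun a' => measurable_const, ?_⟩
      simp
  | @add G S' hG hS' ih =>
      obtain ⟨c, r, g, hnode⟩ := hG
      obtain ⟨S₁, E₁, h1, h2, h3, h4⟩ := node_step ht₂ hd₂ hn2 hn3 ha ht hd' hn' hp hd hka hΦ hΦ1 hnode
        hτ0 hτT hδ0 hδT hτ
      obtain ⟨S₂, E₂, h5, h6, h7, h8⟩ := ih
      refine ⟨fun a' => S₁ a' + S₂ a', fun a' => E₁ a' + E₂ a', fun a' s => ?_,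
        fun a' => (h2 a').add' (h6 a'), fun a' => (h3 a').add (h7 a'), ?_⟩
      · simp only [Pi.add_apply]
        rw [add_mul, h1, h5]
        ring
      · have e1 : ∀ a', ∫⁻ s, (E₁ a' + E₂ a') s ∂(unifSphere d)
            = ∫⁻ s, E₁ a' s ∂(unifSphere d) + ∫⁻ s, E₂ a' s ∂(unifSphere d) := fun a' =>
          lintegral_add_left (h3 a') _
        simp_rw [e1]
        rw [Finset.sum_add_distrib]
        have e2 : ∫⁻ s, (G + S') s ∂(unifSphere d)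
            = ∫⁻ s, G s ∂(unifSphere d) + ∫⁻ s, S' s ∂(unifSphere d) :=
          lintegral_add_left hnode.meas _
        rw [e2, mul_add]
        exact add_le_add h4 h8

end step

end Vale.Agent.Lib.P309
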