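import Vale.Agent.Lib.P309.Decomp
import Vale.Agent.Lib.P309.Model

open MeasureTheory ProbabilityTheory Real Set Filter Topology
open scoped ENNReal Nat RealInnerProductSpace

namespace Vale.Agent.Lib.P309

variable {d : ℕ}

/-- The rescaling map of a ball to the unit ball. -/
noncomputable def rsc (c : Rd d) (r : ℝ) (s : Sph d) : Rd d := r⁻¹ • ((s : Rd d) - c)

lemma measurable_rsc (c : Rd d) (r : ℝ) : Measurable (rsc c r) := by
  unfold rsc
  fun_prop

lemma add_smul_rsc (c : Rd d) {r : ℝ} (hr : 0 < r) (s : Sph d) :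
    c + r • rsc c r s = (s : Rd d) := by
  unfold rsc
  rw [smul_smul, mul_inv_cancel₀ hr.ne', one_smul]
  abel

/-- The rescaled law attached to a density on the sphere. -/
noncomputable def nuB (G : Sph d → ℝ≥0∞) (c : Rd d) (r : ℝ) : Measure (Rd d) :=
  (∫⁻ s, G s ∂(unifSphere d))⁻¹ • ((unifSphere d).withDensity G).map (rsc c r)

lemma lintegral_nuB {G : Sph d → ℝ≥0∞} (hG : Measurable G) (c : Rd d) (r : ℝ) {f : Rd d → ℝ≥0∞}
    (hf : Measurable f) :
    ∫⁻ v, f v ∂(nuB G c r)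
      = (∫⁻ s, G s ∂(unifSphere d))⁻¹ * ∫⁻ s, G s * f (rsc c r s) ∂(unifSphere d) := by
  unfold nuB
  rw [lintegral_smul_measure, lintegral_map hf (measurable_rsc c r)]
  have h1 := lintegral_withDensity_eq_lintegral_mul (unifSphere d) hG (hf.comp (measurable_rsc c r))
  simp only [Function.comp, Pi.mul_apply] at h1
  rw [h1]
  rfl

lemma nuB_apply {G : Sph d → ℝ≥0∞} (hG : Measurable G) (c : Rd d) (r : ℝ) {S : Set (Rd d)}
    (hS : MeasurableSet S) :
    nuB G c r S = (∫⁻ s, G s ∂(unifSphere d))⁻¹ * ∫⁻ s in rsc c r ⁻¹' S, G s ∂(unifSphere d) := by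
  rw [← lintegral_indicator_one hS, lintegral_nuB hG c r (measurable_one.indicator hS),
    ← lintegral_indicator ((measurable_rsc c r) hS)]
  congr 1
  refine lintegral_congr fun s => ?_
  by_cases hs : rsc c r s ∈ S
  · rw [Set.indicator_of_mem hs, Set.indicator_of_mem (show s ∈ rsc c r ⁻¹' S from hs)]
    simp
  · rw [Set.indicator_of_notMem hs, Set.indicator_of_notMem (show s ∉ rsc c r ⁻¹' S from hs)]
    simp

lemma nuB_prob {G : Sph d → ℝ≥0∞} (hG : Measurable G) (c : Rd d) (r : ℝ)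
    (hM0 : ∫⁻ s, G s ∂(unifSphere d) ≠ 0) (hMT : ∫⁻ s, G s ∂(unifSphere d) ≠ ∞) :
    IsProbabilityMeasure (nuB G c r) := by
  constructor
  rw [nuB_apply hG c r MeasurableSet.univ]
  simp only [preimage_univ, Measure.restrict_univ]
  exact ENNReal.inv_mul_cancel hM0 hMT

section node

variable {a : ℕ} {Q : ℝ≥0∞} {G : Sph d → ℝ≥0∞} {c : Rd d} {r : ℝ} {g : ℝ≥0∞}

lemma IsNode.mass_ne_top (hn : IsNode a Q G c r g) (hd : 0 < d) :
    ∫⁻ s, G s ∂(unifSphere d) ≠ ∞ := by
  have := unifSphere_prob hd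
  refine ne_top_of_le_ne_top hn.g_ne ?_
  calc ∫⁻ s, G s ∂(unifSphere d) ≤ ∫⁻ _, g ∂(unifSphere d) := lintegral_mono hn.bound
    _ = g := by simp

/-- The rescaled law has a ball bound. -/
lemma IsNode.ball_le (hn : IsNode a Q G c r g) (hd : 0 < d) (x : Rd d) (ρ : ℝ) (hρ : 0 < ρ) :
    nuB G c r (Metric.closedBall x ρ) ≤ 2 * ENNReal.ofReal (ρ ^ a) := by
  have hr := hn.r_pos
  rw [nuB_apply hn.meas c r Metric.isClosed_closedBall.measurableSet]
  have h1 : rsc c r ⁻¹' Metric.closedBall x ρ = ballS (c + r • x) (r * ρ) := by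
    ext s
    simp only [Set.mem_preimage, Metric.mem_closedBall, dist_eq_norm, ballS, Set.mem_ofPred_eq]
    have h2 : rsc c r s - x = r⁻¹ • ((s : Rd d) - (c + r • x)) := by
      unfold rsc
      have e : (s : Rd d) - (c + r • x) = ((s : Rd d) - c) - r • x := by abel
      rw [e, smul_sub (r⁻¹) _ (r • x), smul_smul, inv_mul_cancel₀ hr.ne', one_smul]
    rw [h2, norm_smul, norm_inv, Real.norm_eq_abs, abs_of_pos hr, inv_mul_le_iff₀ hr]
  rw [h1]
  have h2 := hn.frost (c + r • x) (r * ρ) (by positivity)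
  have h3 : r * ρ / r = ρ := by field_simp
  rw [h3] at h2
  have hM0 := hn.mass_ne
  have hMT := hn.mass_ne_top hd
  calc (∫⁻ s, G s ∂(unifSphere d))⁻¹ * ∫⁻ s in ballS (c + r • x) (r * ρ), G s ∂(unifSphere d)
      ≤ (∫⁻ s, G s ∂(unifSphere d))⁻¹ *
          (2 * ENNReal.ofReal (ρ ^ a) * ∫⁻ s, G s ∂(unifSphere d)) := by gcongr
    _ = ((∫⁻ s, G s ∂(unifSphere d))⁻¹ * ∫⁻ s, G s ∂(unifSphere d)) *
          (2 * ENNReal.ofReal (ρ ^ a)) := by ring
    _ = _ := by rw [ENNReal.inv_mul_cancel hM0 hMT, one_mul]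

/-- The rescaled law lives in the unit ball. -/
lemma IsNode.ae_norm_le (hn : IsNode a Q G c r g) : ∀ᵐ v ∂(nuB G c r), ‖v‖ ≤ 1 := by
  have hr := hn.r_pos
  have hS : MeasurableSet {v : Rd d | ¬ ‖v‖ ≤ 1} :=
    (measurableSet_le measurable_norm measurable_const).compl
  have h1 : nuB G c r {v : Rd d | ¬ ‖v‖ ≤ 1} = 0 := by
    rw [nuB_apply hn.meas c r hS]
    have h2 : ∫⁻ s in rsc c r ⁻¹' {v : Rd d | ¬ ‖v‖ ≤ 1}, G s ∂(unifSphere d) = 0 := by
      rw [← lintegral_indicator ((measurable_rsc c r) hS)]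
      refine le_antisymm (le_trans (lintegral_mono fun s => ?_) (by simp : ∫⁻ _ : Sph d, (0:ℝ≥0∞) ∂(unifSphere d) ≤ 0)) bot_le
      by_cases hs : s ∈ rsc c r ⁻¹' {v : Rd d | ¬ ‖v‖ ≤ 1}
      · rw [Set.indicator_of_mem hs]
        refine le_of_eq (hn.supp s ?_)
        intro hs2
        apply hs
        show ‖rsc c r s‖ ≤ 1
        unfold rsc
        rw [norm_smul, norm_inv, Real.norm_eq_abs, abs_of_pos hr, inv_mul_le_iff₀ hr, mul_one]
        exact hs2
      · rw [Set.indicator_of_notMem hs]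
    rw [h2, mul_zero]
  exact measure_eq_zero_iff_ae_notMem.1 h1 |>.mono fun v hv => by
    simpa using hv

/-- The labels of the rescaled law have a density, for almost all rows. -/
lemma IsNode.ae_ac (hn : IsNode a Q G c r g) {t n : ℕ} (ht : 0 < t)
    (hd : d = 2 * t + n) (hnt : 2 * t + 1 ≤ n) :
    ∀ᵐ Y ∂(Measure.pi fun _ : Fin (2 * t) => stdGaussian (Rd d)),
      (nuB G c r).map (labels Y) ≪ volume := by
  have hr := hn.r_pos
  have hd0 : 0 < d := by omega
  have hfr : Module.finrank ℝ (Rd d) = 2 * t + n := by simpa using hd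
  have hae := ae_gs_ne_zero (E := Rd d) (t := t) (n := 2 * t) ht (by omega)
  filter_upwards [hae] with Y hY
  refine Measure.AbsolutelyContinuous.mk fun A hA h0 => ?_
  have hne : ∀ i < 2 * t, gs (ext Y) i ≠ 0 := fun i hi => hY ⟨i, hi⟩
  rw [Measure.map_apply (measurable_labels Y) hA,
    nuB_apply hn.meas c r ((measurable_labels Y) hA)]
  let u₀ : Fin (2 * t) → ℝ := labels Y c
  let F : (Fin (2 * t) → ℝ) → ℝ≥0∞ := fun u => A.indicator 1 (r⁻¹ • (u - u₀))
  have hFm : Measurable F := by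
    refine (measurable_one.indicator hA).comp ?_
    fun_prop
  have hFint : ∫⁻ u, F u = 0 := by
    have h1 : F = ((fun u => r⁻¹ • (u - u₀)) ⁻¹' A).indicator 1 := by
      funext u
      by_cases hu : r⁻¹ • (u - u₀) ∈ A
      · simp only [F]
        rw [Set.indicator_of_mem hu, Set.indicator_of_mem (show u ∈ (fun u => r⁻¹ • (u - u₀)) ⁻¹' A from hu)]
        rfl
      · simp only [F]
        rw [Set.indicator_of_notMem hu, Set.indicator_of_notMem (show u ∉ (fun u => r⁻¹ • (u - u₀)) ⁻¹' A from hu)]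
    have hm2 : Measurable (fun u : Fin (2 * t) → ℝ => r⁻¹ • (u - u₀)) := by
      fun_prop
    rw [h1, lintegral_indicator_one (hm2 hA)]
    have h2 : (fun u : Fin (2 * t) → ℝ => r⁻¹ • (u - u₀)) ⁻¹' A
        = (fun u => u + (-u₀)) ⁻¹' ((fun u => r⁻¹ • u) ⁻¹' A) := by
      ext u
      simp [sub_eq_add_neg]
    rw [h2, measure_preimage_add_right, Measure.addHaar_preimage_smul _ (inv_ne_zero hr.ne'), h0, mul_zero]
  have hFs : ∀ v : Rd d, F (fun i : Fin (2 * t) => ⟪ext Y i, v⟫)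
      = (labels Y ⁻¹' A).indicator 1 (r⁻¹ • (v - c)) := by
    intro v
    have h3 : r⁻¹ • ((fun i : Fin (2 * t) => ⟪ext Y i, v⟫) - u₀) = labels Y (r⁻¹ • (v - c)) := by
      funext i
      simp only [Pi.smul_apply, Pi.sub_apply, smul_eq_mul, labels, u₀]
      rw [inner_smul_right, inner_sub_right, ext_coe]
    simp only [F]
    rw [h3]
    rfl
  have h4 := proj_rows hfr (by omega) hne hFm
  rw [hFint, mul_zero, mul_zero] at h4
  have hmf : Measurable (fun v : Rd d => (labels Y ⁻¹' A).indicator (1 : Rd d → ℝ≥0∞) (r⁻¹ • (v - c))) := by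
    refine (measurable_one.indicator ((measurable_labels Y) hA)).comp ?_
    fun_prop
  have h5 : ∫⁻ s : Sph d, (labels Y ⁻¹' A).indicator (1 : Rd d → ℝ≥0∞) (r⁻¹ • ((s : Rd d) - c))
      ∂(unifSphere d) = 0 := by
    rw [lintegral_unifSphere hd0 hmf]
    simp_rw [← hFs]
    exact le_antisymm h4 bot_le
  have h6 : ∫⁻ s in rsc c r ⁻¹' (labels Y ⁻¹' A), G s ∂(unifSphere d) = 0 := by
    have hm3 : MeasurableSet (rsc c r ⁻¹' (labels Y ⁻¹' A)) :=
      (measurable_rsc c r) ((measurable_labels Y) hA)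
    rw [← lintegral_indicator hm3]
    have hle : ∀ s, (rsc c r ⁻¹' (labels Y ⁻¹' A)).indicator G s
        ≤ g * (labels Y ⁻¹' A).indicator (1 : Rd d → ℝ≥0∞) (r⁻¹ • ((s : Rd d) - c)) := by
      intro s
      by_cases hs : s ∈ rsc c r ⁻¹' (labels Y ⁻¹' A)
      · rw [Set.indicator_of_mem hs]
        have hs2 : r⁻¹ • ((s : Rd d) - c) ∈ labels Y ⁻¹' A := hs
        rw [Set.indicator_of_mem hs2]
        simpa using hn.bound s
      · rw [Set.indicator_of_notMem hs]
        exact bot_le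
    have hm4 : Measurable (fun s : Sph d => (labels Y ⁻¹' A).indicator (1 : Rd d → ℝ≥0∞) (r⁻¹ • ((s : Rd d) - c))) :=
      hmf.comp measurable_subtype_coe
    refine le_antisymm ((lintegral_mono hle).trans ?_) bot_le
    rw [lintegral_const_mul _ hm4, h5, mul_zero]
  rw [h6, mul_zero]

end node

end Vale.Agent.Lib.P309
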