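import Vale.Agent.Lib.P309.Radial

open MeasureTheory ProbabilityTheory Real Set Filter Topology Matrix
open scoped ENNReal Nat

namespace Vale.Agent.Lib.P309

/-- Moment of the squared norm. -/
noncomputable def Mom (n t : ℕ) : ℝ≥0∞ := ∫⁻ x, ENNReal.ofReal (sq x ^ t) ∂(P (Fin n))

lemma Gd_smul (n : ℕ) (c : ℝ) (x : Fin n → ℝ) :
    Gd n (c • x) = ((√(2 * π))⁻¹) ^ n * exp (- (c ^ 2 * sq x) / 2) := by
  rw [Gd, sq_smul]

lemma measurable_ofReal_sq_pow (n t : ℕ) :
    Measurable (fun x : Fin n → ℝ => ENNReal.ofReal (sq x ^ t)) :=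
  ENNReal.measurable_ofReal.comp (measurable_sq.pow_const t)

lemma measurable_ofReal_Gd (n : ℕ) : Measurable (fun x => ENNReal.ofReal (Gd n x)) :=
  ENNReal.measurable_ofReal.comp (measurable_Gd n)

lemma measurable_ofReal_exp_sq (n : ℕ) (a : ℝ) :
    Measurable (fun x : Fin n → ℝ => ENNReal.ofReal (exp (- a * sq x / 2))) :=
  ENNReal.measurable_ofReal.comp (Real.measurable_exp.comp
    ((measurable_sq.const_mul _).div_const _))

/-- Scaling identity for the Gaussian moments. -/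
lemma lintegral_sq_pow_mul_exp (n t : ℕ) {c β : ℝ} (hc : 0 < c) (hβ : c ^ 2 = 1 + 2 * β) :
    ∫⁻ x, ENNReal.ofReal (sq x ^ t * exp (- β * sq x)) ∂(P (Fin n))
      = ENNReal.ofReal ((c⁻¹) ^ (2 * t + n)) * Mom n t := by
  have hm1 : Measurable (fun x : Fin n → ℝ => ENNReal.ofReal (sq x ^ t * exp (- β * sq x))) :=
    ENNReal.measurable_ofReal.comp ((measurable_sq.pow_const t).mul
      (Real.measurable_exp.comp (measurable_sq.const_mul _)))
  rw [P_eq_withDensity, lintegral_withDensity_eq_lintegral_mul _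
    (measurable_ofReal_Gd n) hm1]
  set H : (Fin n → ℝ) → ℝ≥0∞ :=
    fun y => ENNReal.ofReal ((c⁻¹) ^ (2 * t)) * (ENNReal.ofReal (Gd n y) * ENNReal.ofReal (sq y ^ t)) with hH
  have hHm : Measurable H := (measurable_const).mul
    ((ENNReal.measurable_ofReal.comp (measurable_Gd n)).mul (measurable_ofReal_sq_pow n t))
  have h1 : ∀ x : Fin n → ℝ, ENNReal.ofReal (Gd n x) * ENNReal.ofReal (sq x ^ t * exp (- β * sq x))
      = H (c • x) := by
    intro x
    simp only [hH]
    have hG := Gd_nonneg n x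
    have hG' := Gd_nonneg n (c • x)
    have hs := sq_nonneg' x
    rw [← ENNReal.ofReal_mul hG, ← ENNReal.ofReal_mul hG', ← ENNReal.ofReal_mul (by positivity)]
    congr 1
    rw [Gd_smul, sq_smul, Gd]
    have h2 : (c⁻¹) ^ (2 * t) * (c ^ 2 * sq x) ^ t = sq x ^ t := by
      rw [mul_pow, pow_mul (c⁻¹), ← mul_assoc, ← mul_pow, inv_pow, inv_mul_cancel₀ (by positivity)]
      simp
    have h3 : exp (- (c ^ 2 * sq x) / 2) = exp (- sq x / 2) * exp (- β * sq x) := by
      rw [← Real.exp_add, hβ]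
      congr 1
      ring
    rw [h3]
    calc ((√(2 * π))⁻¹ ^ n * exp (- sq x / 2)) * (sq x ^ t * exp (- β * sq x))
        = ((c⁻¹) ^ (2 * t) * (c ^ 2 * sq x) ^ t) * ((√(2 * π))⁻¹ ^ n * (exp (- sq x / 2) * exp (- β * sq x))) := by
          rw [h2]; ring
      _ = _ := by ring
  simp only [Pi.mul_apply]
  simp_rw [h1]
  have h4 : ∫⁻ x, H (c • x) = ∫⁻ y, H y ∂(Measure.map (fun x : Fin n → ℝ => c • x) volume) := by
    rw [lintegral_map hHm (measurable_const_smul c)]
  rw [h4, Measure.map_addHaar_smul _ hc.ne', lintegral_smul_measure]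
  simp only [Module.finrank_fin_fun, hH]
  have hm3 : Measurable (fun y : Fin n → ℝ => ENNReal.ofReal (Gd n y) * ENNReal.ofReal (sq y ^ t)) :=
    (measurable_ofReal_Gd n).mul (measurable_ofReal_sq_pow n t)
  rw [lintegral_const_mul _ hm3]
  have h5 : ∫⁻ y, ENNReal.ofReal (Gd n y) * ENNReal.ofReal (sq y ^ t) = Mom n t := by
    rw [Mom, P_eq_withDensity, lintegral_withDensity_eq_lintegral_mul _
      (measurable_ofReal_Gd n) (measurable_ofReal_sq_pow n t)]
    rfl
  rw [h5, smul_eq_mul, ← mul_assoc, ← ENNReal.ofReal_mul (by positivity)]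
  congr 2
  rw [abs_of_nonneg (by positivity), pow_add, ← inv_pow]
  ring

/-- Bound on the moments of the squared norm. -/
lemma Mom_le (n t : ℕ) :
    Mom n t ≤ ENNReal.ofReal ((4:ℝ) ^ t * (t ! : ℝ) * (√2) ^ n) := by
  have h1 : ∀ x : Fin n → ℝ, ENNReal.ofReal (sq x ^ t)
      ≤ ENNReal.ofReal ((4:ℝ) ^ t * (t ! : ℝ)) * ENNReal.ofReal (exp (- (-(1/2)) * sq x / 2)) := by
    intro x
    have hs := sq_nonneg' x
    rw [← ENNReal.ofReal_mul (by positivity)]
    apply ENNReal.ofReal_le_ofReal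
    have h2 := Real.pow_div_factorial_le_exp (sq x / 4) (by positivity) t
    have h3 : (0:ℝ) < t ! := by positivity
    rw [div_le_iff₀ h3] at h2
    have h4 : exp (- (-(1/2)) * sq x / 2) = exp (sq x / 4) := by
      congr 1; ring
    rw [h4]
    rw [div_pow] at h2
    have h5 : (0:ℝ) < 4 ^ t := by positivity
    rw [div_le_iff₀ h5] at h2
    calc sq x ^ t ≤ exp (sq x / 4) * (t ! : ℝ) * 4 ^ t := h2
      _ = _ := by ring
  calc Mom n t ≤ ∫⁻ x, ENNReal.ofReal ((4:ℝ) ^ t * (t ! : ℝ)) * ENNReal.ofReal (exp (- (-(1/2)) * sq x / 2)) ∂(P (Fin n)) :=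
        lintegral_mono h1
    _ = ENNReal.ofReal ((4:ℝ) ^ t * (t ! : ℝ)) * ENNReal.ofReal (((√(1 + (-(1/2))))⁻¹) ^ n) := by
        rw [lintegral_const_mul _ (measurable_ofReal_exp_sq n _), lintegral_exp_sq n (-(1/2)) (by norm_num)]
    _ = _ := by
        rw [← ENNReal.ofReal_mul (by positivity)]
        congr 3
        have h6 : (1:ℝ) + (-(1/2)) = 2⁻¹ := by norm_num
        rw [h6, Real.sqrt_inv, inv_inv]

/-- Almost surely the sum of squares is positive. -/
lemma ae_sq_pos {n : ℕ} (hn : 0 < n) : ∀ᵐ x ∂(P (Fin n)), 0 < sq x := by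
  have : Nonempty (Fin n) := ⟨⟨0, hn⟩⟩
  have hac : P (Fin n) ≪ volume := by
    rw [P_eq_withDensity]; exact withDensity_absolutelyContinuous _ _
  have h0 : ∀ᵐ x ∂(volume : Measure (Fin n → ℝ)), x ≠ 0 := by
    have : ({0}ᶜ : Set (Fin n → ℝ)) ∈ ae (volume : Measure (Fin n → ℝ)) :=
      compl_mem_ae_iff.2 (measure_singleton _)
    exact this
  filter_upwards [hac.ae_le h0] with x hx
  by_contra hn'
  apply hx
  have h1 : sq x = 0 := le_antisymm (not_lt.1 hn') (sq_nonneg' x)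
  funext i
  have := (Finset.sum_eq_zero_iff_of_nonneg (fun i _ => sq_nonneg (x i))).1 h1 i (Finset.mem_univ i)
  simpa using this

/-- The kernel obtained after the radial change of variables. -/
noncomputable def Dk (t : ℕ) (r : ℝ) (u : Fin (2 * t) → ℝ) : ℝ :=
  (r ^ t * ((1 - sq u)⁻¹) ^ (t + 1) * ((2 * π)⁻¹) ^ t) * exp (- (sq u / (2 * (1 - sq u))) * r)

lemma inner_eq {t : ℕ} {r : ℝ} (hr : 0 < r) {F : (Fin (2 * t) → ℝ) → ℝ≥0∞} (hF : Measurable F) :
    ∫⁻ x', F ((√(sq x' + r))⁻¹ • x') ∂(P (Fin (2 * t)))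
      = ∫⁻ u in {u : Fin (2 * t) → ℝ | sq u < 1}, ENNReal.ofReal (Dk t r u) * F u := by
  have hm : Measurable (fun x' : Fin (2 * t) → ℝ => F ((√(sq x' + r))⁻¹ • x')) := by
    apply hF.comp
    exact ((Real.continuous_sqrt.measurable.comp (measurable_sq.add_const r)).inv).smul measurable_id
  rw [P_eq_withDensity, lintegral_withDensity_eq_lintegral_mul _ (measurable_ofReal_Gd _) hm]
  simp only [Pi.mul_apply]
  set ρ := √r with hρ
  have hρ0 : 0 < ρ := Real.sqrt_pos.2 hr
  have hρ2 : ρ ^ 2 = r := Real.sq_sqrt hr.le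
  rw [lintegral_radial hρ0]
  have hs : MeasurableSet {u : Fin (2 * t) → ℝ | sq u < 1} :=
    measurableSet_lt measurable_sq measurable_const
  refine setLIntegral_congr_fun hs fun u hu => ?_
  have hu' : sq u < 1 := hu
  have hq : 0 < 1 - sq u := by linarith
  have ha : 0 < √(1 - sq u) := Real.sqrt_pos.2 hq
  have ha2 : √(1 - sq u) ^ 2 = 1 - sq u := Real.sq_sqrt hq.le
  have h1 := radF_left_inv hρ0 hu'
  rw [hρ2] at h1
  rw [h1, ← mul_assoc, ← ENNReal.ofReal_mul (by positivity)]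
  congr 2
  have key1 : (ρ * (√(1 - sq u))⁻¹) ^ (2 * t) = (r * (1 - sq u)⁻¹) ^ t := by
    rw [pow_mul, mul_pow ρ, inv_pow, ha2, hρ2]
  have key2 : (ρ * (√(1 - sq u))⁻¹) ^ 2 = r * (1 - sq u)⁻¹ := by
    rw [mul_pow, inv_pow, ha2, hρ2]
  have key3 : ((√(2 * π))⁻¹) ^ (2 * t) = ((2 * π)⁻¹) ^ t := by
    rw [pow_mul, inv_pow, Real.sq_sqrt (by positivity : (0:ℝ) ≤ 2 * π)]
  have h2 : exp (- (r * (1 - sq u)⁻¹ * sq u) / 2) = exp (- (sq u / (2 * (1 - sq u))) * r) := by
    congr 1
    field_simp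
  rw [Dk, Gd, radF, sq_smul, key1, key2, key3, h2, mul_pow r, pow_succ ((1 - sq u)⁻¹)]
  ring

/-- Core density bound for the projection of the uniform direction. -/
theorem proj_core (t n : ℕ) (hn : 2 ≤ n) {F : (Fin (2 * t) → ℝ) → ℝ≥0∞} (hF : Measurable F) :
    ∫⁻ x'', ∫⁻ x', F ((√(sq x' + sq x''))⁻¹ • x') ∂(P (Fin (2 * t))) ∂(P (Fin n))
      ≤ ENNReal.ofReal (((2 * π)⁻¹) ^ t) * Mom n t * ∫⁻ u, F u := by
  have hae := ae_sq_pos (n := n) (by omega)
  have hmeas : Measurable (Function.uncurry fun (x'' : Fin n → ℝ) (u : Fin (2 * t) → ℝ) =>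
      ENNReal.ofReal (Dk t (sq x'') u) * F u) := by
    have hq : Measurable (fun p : (Fin n → ℝ) × (Fin (2 * t) → ℝ) => sq p.2) :=
      measurable_sq.comp measurable_snd
    have hr : Measurable (fun p : (Fin n → ℝ) × (Fin (2 * t) → ℝ) => sq p.1) :=
      measurable_sq.comp measurable_fst
    refine Measurable.mul (ENNReal.measurable_ofReal.comp ?_) (hF.comp measurable_snd)
    refine Measurable.mul (((hr.pow_const t).mul (((measurable_const.sub hq).inv).pow_const (t+1))).mul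
      measurable_const) (Real.measurable_exp.comp ?_)
    exact ((hq.div (measurable_const.mul (measurable_const.sub hq))).neg).mul hr
  have hs : MeasurableSet {u : Fin (2 * t) → ℝ | sq u < 1} :=
    measurableSet_lt measurable_sq measurable_const
  calc ∫⁻ x'', ∫⁻ x', F ((√(sq x' + sq x''))⁻¹ • x') ∂(P (Fin (2 * t))) ∂(P (Fin n))
      = ∫⁻ x'', (∫⁻ u in {u : Fin (2 * t) → ℝ | sq u < 1}, ENNReal.ofReal (Dk t (sq x'') u) * F u) ∂(P (Fin n)) := by
        refine lintegral_congr_ae ?_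
        filter_upwards [hae] with x'' hx''
        exact inner_eq hx'' hF
    _ = ∫⁻ u in {u : Fin (2 * t) → ℝ | sq u < 1}, ∫⁻ x'', ENNReal.ofReal (Dk t (sq x'') u) * F u ∂(P (Fin n)) :=
        lintegral_lintegral_swap hmeas.aemeasurable
    _ ≤ ∫⁻ u in {u : Fin (2 * t) → ℝ | sq u < 1}, (ENNReal.ofReal (((2 * π)⁻¹) ^ t) * Mom n t) * F u := by
        refine setLIntegral_mono' hs fun u hu => ?_
        have hu' : sq u < 1 := hu
        have hu0 := sq_nonneg' u
        have hq : 0 < 1 - sq u := by linarith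
        have ha : 0 < √(1 - sq u) := Real.sqrt_pos.2 hq
        have ha2 : √(1 - sq u) ^ 2 = 1 - sq u := Real.sq_sqrt hq.le
        have ha1 : √(1 - sq u) ≤ 1 := by
          calc √(1 - sq u) ≤ √1 := Real.sqrt_le_sqrt (by linarith)
            _ = 1 := Real.sqrt_one
        have hm2 : Measurable (fun x'' : Fin n → ℝ => ENNReal.ofReal (Dk t (sq x'') u)) :=
          ENNReal.measurable_ofReal.comp (by
            unfold Dk
            exact ((((measurable_sq.pow_const t)).mul measurable_const).mul measurable_const).mul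
              (Real.measurable_exp.comp (measurable_const.mul measurable_sq)))
        rw [lintegral_mul_const _ hm2]
        refine mul_le_mul_left ?_ _
        set β := sq u / (2 * (1 - sq u)) with hβ
        set A := ((1 - sq u)⁻¹) ^ (t + 1) * ((2 * π)⁻¹) ^ t with hA
        have hAnn : 0 ≤ A := by positivity
        have h3 : ∀ x'' : Fin n → ℝ, ENNReal.ofReal (Dk t (sq x'') u)
            = ENNReal.ofReal A * ENNReal.ofReal (sq x'' ^ t * exp (- β * sq x'')) := by
          intro x''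
          rw [← ENNReal.ofReal_mul hAnn, Dk]
          congr 1
          rw [hA]
          ring
        simp_rw [h3]
        have hm4 : Measurable (fun x'' : Fin n → ℝ => ENNReal.ofReal (sq x'' ^ t * exp (- β * sq x''))) :=
          ENNReal.measurable_ofReal.comp ((measurable_sq.pow_const t).mul
            (Real.measurable_exp.comp (measurable_sq.const_mul _)))
        rw [lintegral_const_mul _ hm4]
        have hc : (0:ℝ) < (√(1 - sq u))⁻¹ := by positivity
        have hc2 : ((√(1 - sq u))⁻¹) ^ 2 = 1 + 2 * β := by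
          rw [inv_pow, ha2, hβ]
          field_simp
          ring
        rw [lintegral_sq_pow_mul_exp n t hc hc2, ← mul_assoc, ← ENNReal.ofReal_mul hAnn]
        refine mul_le_mul_left (ENNReal.ofReal_le_ofReal ?_) _
        rw [inv_inv, hA]
        have h5 : √(1 - sq u) ^ (2 * t + n) = (1 - sq u) ^ (t + 1) * √(1 - sq u) ^ (n - 2) := by
          rw [show 2 * t + n = 2 * (t + 1) + (n - 2) by omega, pow_add, pow_mul, ha2]
        rw [h5]
        have h6 : ((1 - sq u)⁻¹) ^ (t + 1) * (1 - sq u) ^ (t + 1) = 1 := by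
          rw [← mul_pow, inv_mul_cancel₀ hq.ne', one_pow]
        calc ((1 - sq u)⁻¹) ^ (t + 1) * ((2 * π)⁻¹) ^ t * ((1 - sq u) ^ (t + 1) * √(1 - sq u) ^ (n - 2))
            = (((1 - sq u)⁻¹) ^ (t + 1) * (1 - sq u) ^ (t + 1)) * (((2 * π)⁻¹) ^ t * √(1 - sq u) ^ (n - 2)) := by ring
          _ = ((2 * π)⁻¹) ^ t * √(1 - sq u) ^ (n - 2) := by rw [h6, one_mul]
          _ ≤ ((2 * π)⁻¹) ^ t * 1 := by
              gcongr
              exact pow_le_one₀ ha.le ha1
          _ = _ := mul_one _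
    _ ≤ ENNReal.ofReal (((2 * π)⁻¹) ^ t) * Mom n t * ∫⁻ u, F u := by
        rw [lintegral_const_mul _ hF]
        refine mul_le_mul_right ?_ _
        exact setLIntegral_le_lintegral _ _

end Vale.Agent.Lib.P309
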