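import Vale.Agent.Lib.P309.Moment

open MeasureTheory ProbabilityTheory Real Set Filter Topology Matrix
open scoped ENNReal Nat

namespace Vale.Agent.Lib.P309

variable {k : ℕ}

/-- the linear form `h ↦ ∑ u i * h i`. -/
noncomputable def linF (u : Fin k → ℝ) : (Fin k → ℝ) →L[ℝ] ℝ :=
  ∑ i, (u i) • ContinuousLinearMap.proj i

lemma linF_apply (u h : Fin k → ℝ) : linF u h = ∑ i, u i * h i := by
  simp [linF]

lemma linF_self (u : Fin k → ℝ) : linF u u = sq u := by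
  simp [linF_apply, sq, pow_two]

lemma hasFDerivAt_sq (u : Fin k → ℝ) : HasFDerivAt sq ((2:ℝ) • linF u) u := by
  have h : ∀ i ∈ (Finset.univ : Finset (Fin k)), HasFDerivAt (fun x : Fin k → ℝ => x i ^ 2)
      ((2:ℝ) • (u i • (ContinuousLinearMap.proj i : (Fin k → ℝ) →L[ℝ] ℝ))) u := by
    intro i _
    have := (hasFDerivAt_apply (𝕜 := ℝ) i u).pow 2
    refine this.congr_fderiv ?_
    ext h
    simp
    ring
  have h2 := HasFDerivAt.fun_sum h
  refine h2.congr_fderiv ?_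
  rw [linF, Finset.smul_sum]

/-- The radial map. -/
noncomputable def radF (ρ : ℝ) (u : Fin k → ℝ) : Fin k → ℝ :=
  (ρ * (√(1 - sq u))⁻¹) • u

/-- The derivative of the radial map. -/
noncomputable def radF' (ρ : ℝ) (u : Fin k → ℝ) : (Fin k → ℝ) →L[ℝ] (Fin k → ℝ) :=
  (ρ * (√(1 - sq u))⁻¹) • ContinuousLinearMap.id ℝ _ +
    (((ρ * ((√(1 - sq u))⁻¹) ^ 3) • linF u)).smulRight u

lemma hasFDerivAt_radF (ρ : ℝ) {u : Fin k → ℝ} (hu : sq u < 1) :
    HasFDerivAt (radF ρ) (radF' ρ u) u := by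
  have hq : 0 < 1 - sq u := by linarith
  have ha : 0 < √(1 - sq u) := Real.sqrt_pos.2 hq
  have h1 : HasFDerivAt (fun x : Fin k → ℝ => 1 - sq x) (- ((2:ℝ) • linF u)) u :=
    (hasFDerivAt_sq u).const_sub 1
  have h2 := h1.sqrt hq.ne'
  have h3 := (hasDerivAt_inv ha.ne').comp_hasFDerivAt u h2
  have h4 := (h3.const_mul ρ).smul (hasFDerivAt_id u)
  refine h4.congr_fderiv ?_
  ext h i
  simp [radF', ContinuousLinearMap.smulRight_apply]
  rw [linF_apply]
  field_simp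
  exact Or.inl trivial

/-- determinant of the derivative of the radial map -/
lemma det_radF' (ρ : ℝ) {u : Fin k → ℝ} (hu : sq u < 1) :
    (radF' ρ u).det = (ρ * (√(1 - sq u))⁻¹) ^ k * (1 - sq u)⁻¹ := by
  have hq : 0 < 1 - sq u := by linarith
  have ha : 0 < √(1 - sq u) := Real.sqrt_pos.2 hq
  set a := √(1 - sq u) with ha'
  have ha2 : a ^ 2 = 1 - sq u := Real.sq_sqrt hq.le
  set c := ρ * a⁻¹ with hc
  let M : Matrix (Fin k) (Fin k) ℝ :=
    c • (1 + replicateCol Unit ((1 - sq u)⁻¹ • u) * replicateRow Unit u)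
  have hM : ((radF' ρ u : (Fin k → ℝ) →L[ℝ] (Fin k → ℝ)) : (Fin k → ℝ) →ₗ[ℝ] (Fin k → ℝ))
      = Matrix.toLin' M := by
    apply LinearMap.ext
    intro h
    funext i
    simp only [M, radF', Matrix.toLin'_apply]
    simp [Matrix.mulVec, dotProduct, Matrix.mul_apply, Matrix.one_apply, linF_apply, Matrix.smul_apply]
    have h1 : ∀ x, c * ((if i = x then 1 else 0) + (1 - sq u)⁻¹ * (u i * u x)) * h x
        = (if i = x then c * h x else 0) + c * (1 - sq u)⁻¹ * u i * (u x * h x) := by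
      intro x
      split_ifs <;> ring
    simp_rw [h1]
    rw [Finset.sum_add_distrib, Finset.sum_ite_eq, ← Finset.mul_sum]
    simp only [Finset.mem_univ, if_true]
    rw [← ha', ← ha2]
    simp only [hc]
    field_simp
  rw [ContinuousLinearMap.det, hM, LinearMap.det_toLin']
  simp only [M]
  rw [Matrix.det_smul, Fintype.card_fin, det_one_add_replicateCol_mul_replicateRow]
  congr 1
  have : u ⬝ᵥ ((1 - sq u)⁻¹ • u) = (1 - sq u)⁻¹ * sq u := by
    simp [dotProduct, sq, Finset.mul_sum, pow_two]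
    refine Finset.sum_congr rfl fun i _ => by ring
  rw [this]
  field_simp
  ring

lemma sq_smul {ι : Type*} [Fintype ι] (c : ℝ) (u : ι → ℝ) : sq (c • u) = c ^ 2 * sq u := by
  simp [sq, mul_pow, Finset.mul_sum]

/-- left inverse of the radial map -/
lemma radF_left_inv {ρ : ℝ} (hρ : 0 < ρ) {u : Fin k → ℝ} (hu : sq u < 1) :
    (√(sq (radF ρ u) + ρ ^ 2))⁻¹ • radF ρ u = u := by
  have hq : 0 < 1 - sq u := by linarith
  have ha : 0 < √(1 - sq u) := Real.sqrt_pos.2 hq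
  have h1 : sq (radF ρ u) + ρ ^ 2 = (ρ * (√(1 - sq u))⁻¹) ^ 2 := by
    rw [radF, sq_smul, mul_pow, inv_pow, Real.sq_sqrt hq.le]
    field_simp
    ring
  rw [h1, Real.sqrt_sq (by positivity), radF, smul_smul]
  have : (ρ * (√(1 - sq u))⁻¹)⁻¹ * (ρ * (√(1 - sq u))⁻¹) = 1 :=
    inv_mul_cancel₀ (by positivity)
  rw [this, one_smul]

lemma sq_normalized {ρ : ℝ} (hρ : 0 < ρ) (v : Fin k → ℝ) :
    sq ((√(sq v + ρ ^ 2))⁻¹ • v) = sq v / (sq v + ρ ^ 2) := by
  have h0 := sq_nonneg' v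
  have h1 : 0 < sq v + ρ ^ 2 := by positivity
  rw [sq_smul, inv_pow, Real.sq_sqrt h1.le]
  field_simp

lemma sq_normalized_lt {ρ : ℝ} (hρ : 0 < ρ) (v : Fin k → ℝ) :
    sq ((√(sq v + ρ ^ 2))⁻¹ • v) < 1 := by
  have h0 := sq_nonneg' v
  have h1 : 0 < sq v + ρ ^ 2 := by positivity
  rw [sq_normalized hρ, div_lt_one h1]
  nlinarith [pow_pos hρ 2]

/-- right inverse of the radial map -/
lemma radF_right_inv {ρ : ℝ} (hρ : 0 < ρ) (v : Fin k → ℝ) :
    radF ρ ((√(sq v + ρ ^ 2))⁻¹ • v) = v := by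
  have h0 := sq_nonneg' v
  have h1 : 0 < sq v + ρ ^ 2 := by positivity
  have h2 : 1 - sq ((√(sq v + ρ ^ 2))⁻¹ • v) = ρ ^ 2 / (sq v + ρ ^ 2) := by
    rw [sq_normalized hρ]
    field_simp
    ring
  rw [radF, h2, smul_smul, Real.sqrt_div (by positivity), Real.sqrt_sq hρ.le]
  have h3 : 0 < √(sq v + ρ ^ 2) := Real.sqrt_pos.2 h1
  have : ρ * (ρ / √(sq v + ρ ^ 2))⁻¹ * (√(sq v + ρ ^ 2))⁻¹ = 1 := by
    field_simp
  rw [this, one_smul]

/-- Change of variables along the radial map. -/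
theorem lintegral_radial {ρ : ℝ} (hρ : 0 < ρ) (g : (Fin k → ℝ) → ℝ≥0∞) :
    ∫⁻ v, g v = ∫⁻ u in {u : Fin k → ℝ | sq u < 1},
      ENNReal.ofReal ((ρ * (√(1 - sq u))⁻¹) ^ k * (1 - sq u)⁻¹) * g (radF ρ u) := by
  have hs : MeasurableSet {u : Fin k → ℝ | sq u < 1} := measurableSet_lt measurable_sq measurable_const
  have himg : radF ρ '' {u : Fin k → ℝ | sq u < 1} = univ := by
    apply eq_univ_of_forall
    intro v
    exact ⟨_, sq_normalized_lt hρ v, radF_right_inv hρ v⟩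
  have hinj : InjOn (radF ρ) {u : Fin k → ℝ | sq u < 1} := by
    intro u hu w hw huw
    rw [← radF_left_inv hρ hu, ← radF_left_inv hρ hw, huw]
  have := lintegral_image_eq_lintegral_abs_det_fderiv_mul (volume : Measure (Fin k → ℝ)) hs
    (fun u hu => (hasFDerivAt_radF ρ hu).hasFDerivWithinAt) hinj g
  rw [himg, setLIntegral_univ] at this
  rw [this]
  refine setLIntegral_congr_fun hs fun u hu => ?_
  have hu' : sq u < 1 := hu
  have hq : 0 < 1 - sq u := by linarith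
  rw [det_radF' ρ hu', abs_of_nonneg]
  have ha : 0 < √(1 - sq u) := Real.sqrt_pos.2 hq
  positivity

end Vale.Agent.Lib.P309
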