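import Vale.Agent.Lib.P309.Proj

open MeasureTheory ProbabilityTheory Real Set Filter Topology Matrix
open scoped ENNReal Nat RealInnerProductSpace

namespace Vale.Agent.Lib.P309

variable {E : Type*} [NormedAddCommGroup E] [InnerProductSpace ℝ E] [FiniteDimensional ℝ E]
  [MeasurableSpace E] [BorelSpace E]

/-- Integrals against the standard Gaussian, in coordinates of an orthonormal basis. -/
lemma lintegral_stdGaussian_basis {ι : Type*} [Fintype ι] (b : OrthonormalBasis ι ℝ E)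
    {G : E → ℝ≥0∞} (hG : Measurable G) :
    ∫⁻ g, G g ∂(stdGaussian E) = ∫⁻ x, G (∑ i, x i • b i) ∂(P ι) := by
  rw [stdGaussian_eq_map_pi_orthonormalBasis b, lintegral_map hG (by fun_prop)]
  rfl

lemma inner_basis_sum {ι : Type*} [Fintype ι] (b : OrthonormalBasis ι ℝ E) (x : ι → ℝ) (j : ι) :
    ⟪b j, ∑ i, x i • b i⟫ = x j := by
  classical
  rw [inner_sum]
  simp_rw [inner_smul_right, b.inner_eq_ite]
  simp

lemma norm_sq_basis_sum {ι : Type*} [Fintype ι] (b : OrthonormalBasis ι ℝ E) (x : ι → ℝ) :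
    ‖∑ i, x i • b i‖ ^ 2 = sq x := by
  rw [← b.sum_sq_norm_inner_right]
  simp_rw [inner_basis_sum]
  simp [sq]

/-- Splitting the Gaussian over a disjoint union of index types. -/
lemma lintegral_P_sum {ι ι' : Type*} [Fintype ι] [Fintype ι'] {G : (ι ⊕ ι' → ℝ) → ℝ≥0∞}
    (hG : Measurable G) :
    ∫⁻ x, G x ∂(P (ι ⊕ ι')) = ∫⁻ x'', ∫⁻ x', G (Sum.elim x' x'') ∂(P ι) ∂(P ι') := by
  have mp := measurePreserving_sumPiEquivProdPi_symm (ι := ι) (ι' := ι')
    (X := fun _ => ℝ) (fun _ => gaussianReal 0 1)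
  rw [P, ← mp.lintegral_comp hG, lintegral_prod_symm']
  · rfl
  · exact hG.comp (MeasurableEquiv.measurable _)

lemma sq_sum_elim {ι ι' : Type*} [Fintype ι] [Fintype ι'] (x' : ι → ℝ) (x'' : ι' → ℝ) :
    sq (Sum.elim x' x'') = sq x' + sq x'' := by
  simp [sq]

variable (E) in
/-- Density bound for orthonormal projections of the uniform direction. -/
theorem proj_orthonormal {t n : ℕ} (hd : Module.finrank ℝ E = 2 * t + n) (hn : 2 ≤ n)
    {e : Fin (2 * t) → E} (he : Orthonormal ℝ e) {F : (Fin (2 * t) → ℝ) → ℝ≥0∞} (hF : Measurable F) :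
    ∫⁻ g, F (fun i => ⟪e i, ‖g‖⁻¹ • g⟫) ∂(stdGaussian E)
      ≤ ENNReal.ofReal (((2 * π)⁻¹) ^ t) * Mom n t * ∫⁻ u, F u := by
  classical
  -- extend to an orthonormal basis
  let v : Fin (2 * t) ⊕ Fin n → E := Sum.elim e (fun _ => 0)
  have hv : Orthonormal ℝ ((range (Sum.inl : Fin (2 * t) → Fin (2 * t) ⊕ Fin n)).domRestrict v) := by
    constructor
    · rintro ⟨_, i, rfl⟩
      simpa [v] using he.1 i
    · rintro ⟨_, i, rfl⟩ ⟨_, j, rfl⟩ hij
      have hij' : i ≠ j := fun h => hij (by rw [h])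
      simpa [v] using he.2 hij'
  obtain ⟨b, hb⟩ := hv.exists_orthonormalBasis_extension_of_card_eq (by simp [hd])
  have hbe : ∀ i, b (Sum.inl i) = e i := fun i => by
    simpa [v] using hb (Sum.inl i) ⟨i, rfl⟩
  have hG : Measurable (fun g : E => F (fun i => ⟪e i, ‖g‖⁻¹ • g⟫)) := by
    apply hF.comp
    refine measurable_pi_lambda _ fun i => ?_
    exact (measurable_const.inner ((measurable_norm.inv).smul measurable_id))
  rw [lintegral_stdGaussian_basis b hG]
  have h1 : ∀ x : Fin (2 * t) ⊕ Fin n → ℝ,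
      F (fun i => ⟪e i, ‖∑ j, x j • b j‖⁻¹ • ∑ j, x j • b j⟫)
        = F ((√(sq x))⁻¹ • (fun i => x (Sum.inl i))) := by
    intro x
    congr 1
    funext i
    rw [inner_smul_right, ← hbe i, inner_basis_sum]
    have h2 : ‖∑ j, x j • b j‖ = √(sq x) := by
      rw [← norm_sq_basis_sum b x, Real.sqrt_sq (norm_nonneg _)]
    rw [h2]
    rfl
  simp_rw [h1]
  have hG2 : Measurable (fun x : Fin (2 * t) ⊕ Fin n → ℝ =>
      F ((√(sq x))⁻¹ • (fun i => x (Sum.inl i)))) := by
    apply hF.comp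
    refine Measurable.smul (Real.continuous_sqrt.measurable.comp measurable_sq).inv ?_
    exact measurable_pi_lambda _ fun i => measurable_pi_apply _
  rw [lintegral_P_sum hG2]
  simp_rw [sq_sum_elim, Sum.elim_inl]
  exact proj_core t n hn hF

/-- Gram-Schmidt residual. -/
noncomputable abbrev gs (f : ℕ → E) (i : ℕ) : E := InnerProductSpace.gramSchmidt ℝ f i

/-- Normalized Gram-Schmidt residual. -/
noncomputable def ee (f : ℕ → E) (i : ℕ) : E := (‖gs f i‖⁻¹) • gs f i

omit [FiniteDimensional ℝ E] [MeasurableSpace E] [BorelSpace E] in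
lemma inner_gs_self (f : ℕ → E) (n : ℕ) : ⟪gs f n, f n⟫ = ‖gs f n‖ ^ 2 := by
  have h := InnerProductSpace.gramSchmidt_def'' ℝ f n
  conv_lhs => rw [h]
  rw [inner_add_right, inner_sum, real_inner_self_eq_norm_sq]
  have : ∑ i ∈ Finset.Iio n, ⟪gs f n, (⟪gs f i, f n⟫ / ((‖gs f i‖ : ℝ)) ^ 2) • gs f i⟫ = 0 := by
    refine Finset.sum_eq_zero fun i hi => ?_
    rw [inner_smul_right]
    have hne : n ≠ i := (Finset.mem_Iio.1 hi).ne'
    rw [InnerProductSpace.gramSchmidt_orthogonal ℝ f hne, mul_zero]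
  simpa using this

omit [FiniteDimensional ℝ E] [MeasurableSpace E] [BorelSpace E] in
/-- Expansion of a row in the orthonormalized rows. -/
lemma inner_row_expand {f : ℕ → E} {N n : ℕ} (hn : n < N) (hf : ∀ i < N, gs f i ≠ 0) (v : E) :
    ⟪f n, v⟫ = ∑ j ∈ Finset.range N, ⟪ee f j, f n⟫ * ⟪ee f j, v⟫ := by
  have hzero : ∀ j ∈ Finset.range N, j ∉ Finset.range (n + 1) → ⟪ee f j, f n⟫ * ⟪ee f j, v⟫ = 0 := by
    intro j _ hj
    have hlt : n < j := by
      simp only [Finset.mem_range, not_lt] at hj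
      omega
    rw [ee, inner_smul_left, InnerProductSpace.gramSchmidt_inv_triangular ℝ f hlt]
    simp
  rw [← Finset.sum_subset (Finset.range_subset_range.2 hn) hzero, Finset.sum_range_succ]
  have hn0 : gs f n ≠ 0 := hf n hn
  have hnn : ‖gs f n‖ ≠ 0 := norm_ne_zero_iff.2 hn0
  have h1 : ⟪ee f n, f n⟫ * ⟪ee f n, v⟫ = ⟪gs f n, v⟫ := by
    rw [ee, inner_smul_left, inner_smul_left, inner_gs_self]
    simp only [conj_trivial]
    field_simp
  rw [h1]
  have h2 := InnerProductSpace.gramSchmidt_def'' ℝ f n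
  conv_lhs => rw [h2]
  rw [inner_add_left, sum_inner, add_comm]
  congr 1
  rw [← Nat.Iio_eq_range]
  refine Finset.sum_congr rfl fun i hi => ?_
  have hi' : i < n := Finset.mem_Iio.1 hi
  have hi0 : ‖gs f i‖ ≠ 0 := norm_ne_zero_iff.2 (hf i (by omega))
  rw [inner_smul_left, ee, inner_smul_left, inner_smul_left]
  simp only [conj_trivial, RCLike.ofReal_real_eq_id, id]
  field_simp

omit [FiniteDimensional ℝ E] [MeasurableSpace E] [BorelSpace E] in
lemma orthonormal_ee {f : ℕ → E} {N : ℕ} (hf : ∀ i < N, gs f i ≠ 0) :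
    Orthonormal ℝ (fun i : Fin N => ee f i) := by
  constructor
  · intro i
    have : ‖gs f i‖ ≠ 0 := norm_ne_zero_iff.2 (hf i i.2)
    simp only [ee]
    rw [norm_smul, norm_inv, norm_norm, inv_mul_cancel₀ this]
  · intro i j hij
    have hij' : (i:ℕ) ≠ j := fun h => hij (Fin.ext h)
    simp only [ee]
    rw [inner_smul_left, inner_smul_right, InnerProductSpace.gramSchmidt_orthogonal ℝ f hij']
    simp

/-- Density bound for general independent rows. -/
theorem proj_rows {t n : ℕ} (hd : Module.finrank ℝ E = 2 * t + n) (hn : 2 ≤ n)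
    {f : ℕ → E} (hf : ∀ i < 2 * t, gs f i ≠ 0) {F : (Fin (2 * t) → ℝ) → ℝ≥0∞} (hF : Measurable F) :
    ∫⁻ g, F (fun i : Fin (2 * t) => ⟪f i, ‖g‖⁻¹ • g⟫) ∂(stdGaussian E)
      ≤ ENNReal.ofReal (((2 * π)⁻¹) ^ t) * Mom n t *
        (ENNReal.ofReal (∏ i : Fin (2 * t), ‖gs f i‖⁻¹) * ∫⁻ u, F u) := by
  classical
  let L : Matrix (Fin (2 * t)) (Fin (2 * t)) ℝ := Matrix.of fun i j => ⟪ee f j, f i⟫
  have hLlow : L.IsLowerTriangular := by
    intro i j hij
    have hlt : (i:ℕ) < j := hij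
    simp only [L, Matrix.of_apply]
    rw [ee, inner_smul_left, InnerProductSpace.gramSchmidt_inv_triangular ℝ f hlt]
    simp
  have hLdiag : ∀ i, L i i = ‖gs f i‖ := by
    intro i
    have hi : ‖gs f i‖ ≠ 0 := norm_ne_zero_iff.2 (hf i i.2)
    simp only [L, Matrix.of_apply]
    rw [ee, inner_smul_left, inner_gs_self]
    simp only [conj_trivial]
    field_simp
  have hdet : L.det = ∏ i : Fin (2 * t), ‖gs f i‖ := by
    rw [Matrix.det_of_isLowerTriangular L hLlow]
    exact Finset.prod_congr rfl fun i _ => hLdiag i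
  have hdetpos : 0 < L.det := by
    rw [hdet]
    exact Finset.prod_pos fun i _ => norm_pos_iff.2 (hf i i.2)
  have hexp : ∀ (g : E) (i : Fin (2 * t)),
      ⟪f i, ‖g‖⁻¹ • g⟫ = (L.mulVec fun j : Fin (2 * t) => ⟪ee f j, ‖g‖⁻¹ • g⟫) i := by
    intro g i
    rw [inner_row_expand i.2 hf, ← Fin.sum_univ_eq_sum_range (fun j => ⟪ee f j, f i⟫ * ⟪ee f j, ‖g‖⁻¹ • g⟫)]
    simp [Matrix.mulVec, dotProduct, L]
  have hFL : Measurable (fun u : Fin (2 * t) → ℝ => F (L.mulVec u)) :=
    hF.comp (Matrix.toLin' L).continuous_of_finiteDimensional.measurable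
  have h1 := proj_orthonormal E hd hn (orthonormal_ee hf) hFL
  have h2 : ∫⁻ u, F (L.mulVec u) = ENNReal.ofReal (∏ i : Fin (2 * t), ‖gs f i‖⁻¹) * ∫⁻ u, F u := by
    have hmap := Real.map_matrix_volume_pi_eq_smul_volume_pi hdetpos.ne'
    have h3 : ∫⁻ u, F (L.mulVec u) = ∫⁻ u, F u ∂(Measure.map (Matrix.toLin' L) volume) := by
      rw [lintegral_map hF (Matrix.toLin' L).continuous_of_finiteDimensional.measurable]
      rfl
    rw [h3, hmap, lintegral_smul_measure, smul_eq_mul, hdet, abs_of_pos (by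
      have : 0 < ∏ i : Fin (2 * t), ‖gs f i‖ := Finset.prod_pos fun i _ => norm_pos_iff.2 (hf i i.2)
      positivity), Finset.prod_inv_distrib]
  rw [h2] at h1
  simp_rw [hexp]
  exact h1

end Vale.Agent.Lib.P309
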