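import Vale.Agent.Lib.P309.Defs
import Vale.Agent.Lib.P309.Rows

open MeasureTheory ProbabilityTheory Real Set Filter Topology
open scoped ENNReal Nat RealInnerProductSpace

namespace Vale.Agent.Lib.P309

/-- The standard Gaussian on `ℝ^d` has a density. -/
lemma lintegral_stdGaussian_density (d : ℕ) {G : Rd d → ℝ≥0∞} (hG : Measurable G) :
    ∫⁻ g, G g ∂(stdGaussian (Rd d))
      = ∫⁻ v, ENNReal.ofReal (((√(2 * π))⁻¹) ^ d * exp (- ‖v‖ ^ 2 / 2)) * G v := by
  have hm : Measurable (fun x : Fin d → ℝ => G (WithLp.toLp 2 x)) :=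
    hG.comp (by fun_prop)
  rw [← map_pi_eq_stdGaussian, lintegral_map hG (by fun_prop)]
  change ∫⁻ x, G (WithLp.toLp 2 x) ∂(P (Fin d)) = _
  rw [P_eq_withDensity, lintegral_withDensity_eq_lintegral_mul _ (measurable_ofReal_Gd d) hm]
  simp only [Pi.mul_apply]
  have hH : Measurable (fun v : Rd d =>
      ENNReal.ofReal (((√(2 * π))⁻¹) ^ d * exp (- ‖v‖ ^ 2 / 2)) * G v) := by
    refine Measurable.mul (ENNReal.measurable_ofReal.comp ?_) hG
    exact measurable_const.mul (Real.measurable_exp.comp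
      (((measurable_norm.pow_const 2).neg).div_const 2))
  rw [← (PiLp.volume_preserving_toLp (Fin d)).lintegral_comp hH]
  refine lintegral_congr fun x => ?_
  congr 2
  rw [Gd, EuclideanSpace.real_norm_sq_eq]
  simp [sq]

/-- Polar coordinates. -/
lemma lintegral_polar {d : ℕ} (hd : 0 < d) {H : Rd d → ℝ≥0∞} (hH : Measurable H) :
    ∫⁻ v, H v = ∫⁻ s, ∫⁻ r, H ((r : ℝ) • (s : Rd d)) ∂(Measure.volumeIoiPow (d - 1))
      ∂((volume : Measure (Rd d)).toSphere) := by
  have mp := Measure.measurePreserving_homeomorphUnitSphereProd (E := Rd d) volume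
  rw [finrank_euclideanSpace_fin] at mp
  have hHat : Measurable (fun p : Sph d × Ioi (0:ℝ) => H ((p.2 : ℝ) • (p.1 : Rd d))) :=
    hH.comp ((measurable_subtype_coe.comp measurable_snd).smul
      (measurable_subtype_coe.comp measurable_fst))
  rw [← lintegral_prod _ hHat.aemeasurable, ← mp.lintegral_comp hHat]
  have h1 : ∀ v : ({0}ᶜ : Set (Rd d)), H (((homeomorphUnitSphereProd (Rd d) v).2 : ℝ) •
      ((homeomorphUnitSphereProd (Rd d) v).1 : Rd d)) = H v := by
    intro v
    congr 1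
    have hv : ‖(v : Rd d)‖ ≠ 0 := norm_ne_zero_iff.2 (Set.mem_compl_singleton_iff.1 v.2)
    simp [homeomorphUnitSphereProd, homeomorphSphereProd, smul_smul, hv]
  simp_rw [h1]
  have hs : MeasurableSet ({0}ᶜ : Set (Rd d)) := (measurableSet_singleton _).compl
  rw [lintegral_subtype_comap hs]
  have hne : Nonempty (Fin d) := ⟨⟨0, hd⟩⟩
  have : ∀ᵐ v ∂(volume : Measure (Rd d)), v ∈ ({0}ᶜ : Set (Rd d)) :=
    compl_mem_ae_iff.2 (measure_singleton _)
  rw [Measure.restrict_eq_self_of_ae_mem this]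

/-- The uniform direction is the direction of a Gaussian vector. -/
theorem lintegral_unifSphere {d : ℕ} (hd : 0 < d) {f : Rd d → ℝ≥0∞} (hf : Measurable f) :
    ∫⁻ s, f s ∂(unifSphere d) = ∫⁻ g, f (‖g‖⁻¹ • g) ∂(stdGaussian (Rd d)) := by
  have hne : Nonempty (Fin d) := ⟨⟨0, hd⟩⟩
  -- the radial part
  set I : ℝ≥0∞ := ∫⁻ r : Ioi (0:ℝ), ENNReal.ofReal (((√(2 * π))⁻¹) ^ d * exp (- (r:ℝ) ^ 2 / 2))
    ∂(Measure.volumeIoiPow (d - 1)) with hI
  have hrad : Measurable (fun r : Ioi (0:ℝ) =>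
      ENNReal.ofReal (((√(2 * π))⁻¹) ^ d * exp (- (r:ℝ) ^ 2 / 2))) := by
    refine ENNReal.measurable_ofReal.comp ?_
    refine measurable_const.mul (Real.measurable_exp.comp ?_)
    exact ((measurable_subtype_coe.pow_const 2).neg).div_const 2
  have key : ∀ {f : Rd d → ℝ≥0∞}, Measurable f →
      ∫⁻ g, f (‖g‖⁻¹ • g) ∂(stdGaussian (Rd d))
        = (∫⁻ s : Sph d, f s ∂((volume : Measure (Rd d)).toSphere)) * I := by
    intro f hf
    have hG : Measurable (fun g : Rd d => f (‖g‖⁻¹ • g)) :=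
      hf.comp ((measurable_norm.inv).smul measurable_id)
    rw [lintegral_stdGaussian_density d hG]
    have hH : Measurable (fun v : Rd d =>
        ENNReal.ofReal (((√(2 * π))⁻¹) ^ d * exp (- ‖v‖ ^ 2 / 2)) * f (‖v‖⁻¹ • v)) := by
      refine Measurable.mul (ENNReal.measurable_ofReal.comp ?_) hG
      exact measurable_const.mul (Real.measurable_exp.comp
        (((measurable_norm.pow_const 2).neg).div_const 2))
    rw [lintegral_polar hd hH]
    have h2 : ∀ (s : Sph d) (r : Ioi (0:ℝ)),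
        ENNReal.ofReal (((√(2 * π))⁻¹) ^ d * exp (- ‖(r:ℝ) • (s : Rd d)‖ ^ 2 / 2)) *
          f (‖(r:ℝ) • (s : Rd d)‖⁻¹ • ((r:ℝ) • (s : Rd d)))
        = f s * ENNReal.ofReal (((√(2 * π))⁻¹) ^ d * exp (- (r:ℝ) ^ 2 / 2)) := by
      intro s r
      have hr : (0:ℝ) < r := r.2
      have hs : ‖(s : Rd d)‖ = 1 := by simpa using s.2
      have h3 : ‖(r:ℝ) • (s : Rd d)‖ = r := by
        rw [norm_smul, hs, mul_one, Real.norm_eq_abs, abs_of_pos hr]
      rw [h3, smul_smul, inv_mul_cancel₀ hr.ne', one_smul, mul_comm]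
    simp_rw [h2]
    simp_rw [lintegral_const_mul _ hrad]
    have hfs : Measurable (fun s : Sph d => f s) := hf.comp measurable_subtype_coe
    exact lintegral_mul_const _ hfs
  have h1 : (∫⁻ s : Sph d, 1 ∂((volume : Measure (Rd d)).toSphere)) * I = 1 := by
    have := key (f := fun _ => 1) measurable_const
    simp at this; simp [this.symm] 
  rw [lintegral_const, one_mul] at h1
  have hI' : I = ((volume : Measure (Rd d)).toSphere univ)⁻¹ :=
    ENNReal.eq_inv_of_mul_eq_one_left (by rw [mul_comm]; simpa using h1)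
  rw [key hf, unifSphere, lintegral_smul_measure, hI', smul_eq_mul, mul_comm]

end Vale.Agent.Lib.P309
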