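import Vale.Agent.Lib.P309.Smoothing
import Vale.Agent.Lib.P309.Sphere

open MeasureTheory ProbabilityTheory Real Set Filter Topology
open scoped ENNReal Nat RealInnerProductSpace

namespace Vale.Agent.Lib.P309

/-- Gaussian integral over `ℝ^m`. -/
lemma lintegral_exp_neg_sq (m : ℕ) {lam : ℝ} (hlam : 0 < lam) :
    ∫⁻ u : Fin m → ℝ, ENNReal.ofReal (exp (- lam * sq u))
      = ENNReal.ofReal ((√(π / lam)) ^ m) := by
  have h := lintegral_pi_prod (volume : Measure ℝ) m
    (fun _ x => ENNReal.ofReal (exp (- lam * x ^ 2)))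
    (fun _ => ENNReal.measurable_ofReal.comp (Real.measurable_exp.comp (by fun_prop)))
  have h1 : ∀ x : Fin m → ℝ, ENNReal.ofReal (exp (- lam * sq x))
      = ∏ i, ENNReal.ofReal (exp (- lam * x i ^ 2)) := by
    intro x
    rw [← ENNReal.ofReal_prod_of_nonneg (fun i _ => by positivity), ← Real.exp_sum]
    congr 2
    rw [sq, Finset.mul_sum]
  simp_rw [h1]
  rw [volume_pi, h]
  have h2 : ∫⁻ x : ℝ, ENNReal.ofReal (exp (- lam * x ^ 2)) = ENNReal.ofReal (√(π / lam)) := by
    rw [← ofReal_integral_eq_lintegral_ofReal (integrable_exp_neg_mul_sq hlam)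
      (Filter.Eventually.of_forall fun x => by positivity), integral_gaussian]
  simp_rw [h2]
  rw [Finset.prod_const, Finset.card_univ, Fintype.card_fin, ENNReal.ofReal_pow (by positivity)]

/-- Volume of a sublevel set of the sum of squares. -/
lemma vol_sublevel (m : ℕ) (r : ℝ) {lam : ℝ} (hlam : 0 < lam) :
    volume {u : Fin m → ℝ | sq u ≤ r} ≤ ENNReal.ofReal (exp (lam * r) * (√(π / lam)) ^ m) := by
  have hs : MeasurableSet {u : Fin m → ℝ | sq u ≤ r} :=
    measurableSet_le measurable_sq measurable_const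
  rw [← lintegral_indicator_one hs]
  calc ∫⁻ u, {u : Fin m → ℝ | sq u ≤ r}.indicator 1 u
      ≤ ∫⁻ u : Fin m → ℝ, ENNReal.ofReal (exp (lam * r)) * ENNReal.ofReal (exp (- lam * sq u)) := by
        refine lintegral_mono fun u => ?_
        by_cases hu : sq u ≤ r
        · rw [Set.indicator_of_mem (show u ∈ {u : Fin m → ℝ | sq u ≤ r} from hu),
            ← ENNReal.ofReal_mul (by positivity), ← Real.exp_add]
          simp only [Pi.one_apply]
          rw [← ENNReal.ofReal_one]
          apply ENNReal.ofReal_le_ofReal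
          apply Real.one_le_exp
          nlinarith
        · rw [Set.indicator_of_notMem (show u ∉ {u : Fin m → ℝ | sq u ≤ r} from hu)]
          exact bot_le
    _ = ENNReal.ofReal (exp (lam * r)) * ∫⁻ u : Fin m → ℝ, ENNReal.ofReal (exp (- lam * sq u)) := by
        refine lintegral_const_mul _ ?_
        exact ENNReal.measurable_ofReal.comp (Real.measurable_exp.comp (measurable_sq.const_mul _))
    _ = _ := by
        rw [lintegral_exp_neg_sq m hlam, ← ENNReal.ofReal_mul (by positivity)]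

variable {E : Type*} [NormedAddCommGroup E] [InnerProductSpace ℝ E] [FiniteDimensional ℝ E]
  [MeasurableSpace E] [BorelSpace E]

/-- A unit vector is part of an orthonormal basis. -/
lemma exists_basis_unit {n k : ℕ} (hd : Module.finrank ℝ E = k + n) (hn : 0 < n) {s : E}
    (hs : ‖s‖ = 1) : ∃ b : OrthonormalBasis (Fin k ⊕ Fin n) ℝ E, b (Sum.inr ⟨0, hn⟩) = s := by
  classical
  let v : Fin k ⊕ Fin n → E := fun _ => s
  have hv : Orthonormal ℝ (({Sum.inr ⟨0, hn⟩} : Set (Fin k ⊕ Fin n)).domRestrict v) := by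
    constructor
    · rintro ⟨_, rfl⟩
      exact hs
    · rintro ⟨_, rfl⟩ ⟨_, rfl⟩ hij
      exact absurd rfl hij
  obtain ⟨b, hb⟩ := hv.exists_orthonormalBasis_extension_of_card_eq (by simp [hd])
  exact ⟨b, by simpa [v] using hb (Sum.inr ⟨0, hn⟩) rfl⟩

/-- An exponential moment of a label. -/
lemma lintegral_inner_exp {s : E} (hs : ‖s‖ = 1) (hd : 0 < Module.finrank ℝ E) :
    ∫⁻ x, ENNReal.ofReal (exp (⟪x, s⟫ ^ 2 / 4)) ∂(stdGaussian E) = ENNReal.ofReal (√2) := by
  obtain ⟨b, hb⟩ := exists_basis_unit (k := Module.finrank ℝ E - 1) (n := 1) (by omega) one_pos hs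
  have hm : Measurable (fun x : E => ENNReal.ofReal (exp (⟪x, s⟫ ^ 2 / 4))) := by
    refine ENNReal.measurable_ofReal.comp (Real.measurable_exp.comp ?_)
    exact ((measurable_id.inner measurable_const).pow_const 2).div_const 4
  rw [lintegral_stdGaussian_basis b hm]
  have h1 : ∀ x : Fin (Module.finrank ℝ E - 1) ⊕ Fin 1 → ℝ,
      ENNReal.ofReal (exp (⟪∑ i, x i • b i, s⟫ ^ 2 / 4))
        = ENNReal.ofReal (exp (- (-(1/2)) * sq (fun i => x (Sum.inr i)) / 2)) := by
    intro x
    rw [← hb, real_inner_comm, inner_basis_sum]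
    congr 2
    simp [sq]
    ring
  simp_rw [h1]
  have hm2 : Measurable (fun x : Fin (Module.finrank ℝ E - 1) ⊕ Fin 1 → ℝ =>
      ENNReal.ofReal (exp (- (-(1/2)) * sq (fun i => x (Sum.inr i)) / 2))) := by
    refine ENNReal.measurable_ofReal.comp (Real.measurable_exp.comp ?_)
    refine ((measurable_sq.comp ?_).const_mul _).div_const 2
    exact measurable_pi_lambda _ fun i => measurable_pi_apply _
  rw [lintegral_P_sum hm2]
  simp only [Sum.elim_inr, lintegral_const, measure_univ, mul_one]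
  rw [lintegral_exp_sq 1 (-(1/2)) (by norm_num)]
  congr 1
  have : (1:ℝ) + -(1/2) = 1/2 := by norm_num
  rw [this, pow_one, Real.sqrt_div zero_le_one, Real.sqrt_one, one_div, inv_inv]

/-- Atypical labels are rare. -/
theorem atyp_bound {t : ℕ} {s : E} (hs : ‖s‖ = 1) (hd : 0 < Module.finrank ℝ E) :
    (Measure.pi fun _ : Fin t => stdGaussian E) {X | ¬ sq (labels X s) ≤ 4 * t}
      ≤ ENNReal.ofReal (exp (-t) * (√2) ^ t) := by
  have hlab : Measurable (fun X : Fin t → E => labels X s) :=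
    measurable_pi_lambda _ fun i => (measurable_pi_apply i).inner measurable_const
  have hset : MeasurableSet {X : Fin t → E | ¬ sq (labels X s) ≤ 4 * t} :=
    (measurableSet_le (measurable_sq.comp hlab) measurable_const).compl
  rw [← lintegral_indicator_one hset]
  have hm1 : Measurable (fun x : E => ENNReal.ofReal (exp (⟪x, s⟫ ^ 2 / 4))) := by
    refine ENNReal.measurable_ofReal.comp (Real.measurable_exp.comp ?_)
    exact ((measurable_id.inner measurable_const).pow_const 2).div_const 4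
  calc ∫⁻ X, {X : Fin t → E | ¬ sq (labels X s) ≤ 4 * t}.indicator 1 X
        ∂(Measure.pi fun _ : Fin t => stdGaussian E)
      ≤ ∫⁻ X, ENNReal.ofReal (exp (-t)) * ∏ i, ENNReal.ofReal (exp (⟪X i, s⟫ ^ 2 / 4))
        ∂(Measure.pi fun _ : Fin t => stdGaussian E) := by
        refine lintegral_mono fun X => ?_
        by_cases hX : ¬ sq (labels X s) ≤ 4 * t
        · rw [Set.indicator_of_mem hX, ← ENNReal.ofReal_prod_of_nonneg (fun i _ => by positivity),
            ← ENNReal.ofReal_mul (by positivity), ← Real.exp_sum, ← Real.exp_add]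
          simp only [Pi.one_apply]
          rw [← ENNReal.ofReal_one]
          apply ENNReal.ofReal_le_ofReal
          apply Real.one_le_exp
          have h2 : ∑ i, ⟪X i, s⟫ ^ 2 / 4 = sq (labels X s) / 4 := by
            rw [sq, Finset.sum_div]
            rfl
          rw [h2]
          push Not at hX
          linarith
        · rw [Set.indicator_of_notMem hX]
          exact bot_le
    _ = ENNReal.ofReal (exp (-t)) * ∫⁻ X, ∏ i, ENNReal.ofReal (exp (⟪X i, s⟫ ^ 2 / 4))
        ∂(Measure.pi fun _ : Fin t => stdGaussian E) := by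
        refine lintegral_const_mul _ ?_
        exact Finset.measurable_prod _ fun i _ => hm1.comp (measurable_pi_apply i)
    _ = ENNReal.ofReal (exp (-t) * (√2) ^ t) := by
        rw [lintegral_pi_prod (stdGaussian E) t (fun _ x => ENNReal.ofReal (exp (⟪x, s⟫ ^ 2 / 4)))
          (fun _ => hm1)]
        simp_rw [lintegral_inner_exp hs hd]
        rw [Finset.prod_const, Finset.card_univ, Fintype.card_fin,
          ENNReal.ofReal_mul (by positivity), ENNReal.ofReal_pow (by positivity)]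

/-- A direction near a fixed one has small coordinates in the orthogonal directions. -/
lemma cap_coords {t n : ℕ} (hn : 0 < n) {h v : E} {b : OrthonormalBasis (Fin (2 * t) ⊕ Fin n) ℝ E}
    (hb : b (Sum.inr ⟨0, hn⟩) = h) (hh : ‖h‖ = 1) (hv : ‖v‖ ≤ 1) {ε : ℝ} (hε0 : 0 < ε) (hε1 : ε ≤ 1)
    (hcap : arccos ⟪v, h⟫ ≤ ε) : sq (fun i : Fin (2 * t) => ⟪b (Sum.inl i), v⟫) ≤ ε ^ 2 := by
  set c := ⟪v, h⟫ with hc
  have hcabs : |c| ≤ 1 := by
    have := abs_real_inner_le_norm v h
    rw [hh, mul_one] at this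
    exact this.trans hv
  have hc1 : -1 ≤ c := (abs_le.1 hcabs).1
  have hc2 : c ≤ 1 := (abs_le.1 hcabs).2
  have hpi : (1:ℝ) < π / 2 := by linarith [Real.pi_gt_three]
  have hcos : cos ε ≤ c := by
    have h1 := Real.cos_le_cos_of_nonneg_of_le_pi (Real.arccos_nonneg c)
      (by linarith [Real.pi_gt_three]) hcap
    rwa [Real.cos_arccos hc1 hc2] at h1
  have hcospos : 0 < cos ε := Real.cos_pos_of_mem_Ioo ⟨by linarith, by linarith⟩
  have hpars : ∑ j, ⟪b j, v⟫ ^ 2 = ‖v‖ ^ 2 := by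
    have := b.sum_sq_norm_inner_right v
    simpa using this
  rw [Fintype.sum_sum_type] at hpars
  have h2 : ⟪h, v⟫ ^ 2 ≤ ∑ j : Fin n, ⟪b (Sum.inr j), v⟫ ^ 2 := by
    rw [← hb]
    exact Finset.single_le_sum (f := fun j : Fin n => ⟪b (Sum.inr j), v⟫ ^ 2)
      (fun _ _ => sq_nonneg _) (Finset.mem_univ _)
  rw [real_inner_comm, ← hc] at h2
  have h3 : sin ε ^ 2 = 1 - cos ε ^ 2 := Real.sin_sq ε
  have h4 : sin ε ≤ ε := (Real.sin_lt hε0).le
  have h5 : 0 ≤ sin ε := Real.sin_nonneg_of_nonneg_of_le_pi hε0.le (by linarith [Real.pi_gt_three])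
  have h6 : sin ε ^ 2 ≤ ε ^ 2 := by gcongr
  have h7 : cos ε ^ 2 ≤ c ^ 2 := by gcongr
  have h8 : ‖v‖ ^ 2 ≤ 1 := by
    have := norm_nonneg v
    nlinarith
  unfold sq
  nlinarith

/-- The measure of a cap. -/
theorem cap_bound {t n : ℕ} (hd : Module.finrank ℝ E = 2 * t + n) (hn : 2 ≤ n) {h : E} (hh : ‖h‖ = 1)
    {ε : ℝ} (hε0 : 0 < ε) (hε1 : ε ≤ 1) :
    ∫⁻ g, {v : E | arccos ⟪v, h⟫ ≤ ε}.indicator 1 (‖g‖⁻¹ • g) ∂(stdGaussian E)
      ≤ ENNReal.ofReal (((2 * π)⁻¹) ^ t) * Mom n t * volume {u : Fin (2 * t) → ℝ | sq u ≤ ε ^ 2} := by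
  obtain ⟨b, hb⟩ := exists_basis_unit hd (by omega : 0 < n) hh
  have he : Orthonormal ℝ (fun i : Fin (2 * t) => b (Sum.inl i)) :=
    b.orthonormal.comp _ Sum.inl_injective
  have hS : MeasurableSet {u : Fin (2 * t) → ℝ | sq u ≤ ε ^ 2} :=
    measurableSet_le measurable_sq measurable_const
  have h1 := proj_orthonormal E hd hn he (F := {u : Fin (2 * t) → ℝ | sq u ≤ ε ^ 2}.indicator 1)
    (measurable_one.indicator hS)
  rw [lintegral_indicator_one hS] at h1
  refine le_trans (lintegral_mono fun g => ?_) h1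
  by_cases hg : arccos ⟪‖g‖⁻¹ • g, h⟫ ≤ ε
  · have hv : ‖‖g‖⁻¹ • g‖ ≤ 1 := by
      rw [norm_smul, norm_inv, norm_norm]
      exact inv_mul_le_one
    have h2 := cap_coords (by omega : 0 < n) hb hh hv hε0 hε1 hg
    rw [Set.indicator_of_mem (show ‖g‖⁻¹ • g ∈ {v : E | arccos ⟪v, h⟫ ≤ ε} from hg),
      Set.indicator_of_mem (show (fun i : Fin (2 * t) => ⟪b (Sum.inl i), ‖g‖⁻¹ • g⟫) ∈
        {u : Fin (2 * t) → ℝ | sq u ≤ ε ^ 2} from h2)]
    simp only [Pi.one_apply]
    exact le_rfl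
  · rw [Set.indicator_of_notMem (show ‖g‖⁻¹ • g ∉ {v : E | arccos ⟪v, h⟫ ≤ ε} from hg)]
    exact bot_le

end Vale.Agent.Lib.P309
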